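import Crest.Agent.R149.Defs

/-!
# Row 149: cleaning up and normalising
-/

set_option autoImplicit false
open MeasureTheory Set Filter Topology Crest.ProbabilityR.Continuum
open scoped ENNReal

namespace Crest.Agent.R149

theorem Coarse.lb {g : ℝ → ℝ → ℝ} {A b ρM : ℝ} (h : Coarse g A b) (hA : 0 ≤ A) (hb : 0 ≤ b)
    (hρ : 0 ≤ ρM) : Lb g (4 * A * ρM * b + 1) ρM := by
  intro β h1 h2 r h3 h4
  have hβ : 0 < β := by linarith
  have a1 := h β hβ r h3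
  have a2 : β * A * (r * b) ≤ 4 * A * (ρM * b) := by gcongr
  have a3 : 0 ≤ β * A * (r * r) := by positivity
  nlinarith

/-- Let `T₀ = M ρM + ρM ^ 2 + E`, `T₁ = min T T₀` (both bound the expression on `[0, ρM]`, and
`T₁ ≥ 0` by `r = 0`), `T' = T₁ + ζ (2 T₀ + ρM + ρM ^ 2)`.  For `r ≤ ρM` use concavity,
`g (β (1 - θ)) r ≥ (1 - 2 θ) g β r + 2 θ g (β / 2) r ≥ (1 - 2 θ) g β r - 2 θ E`.  For `r ≥ ρM`
the expression is at most `(M + 1) r + 2 r ^ 2 - A r ^ 2 / 8 + 1 ≤ 0` by `Coarse`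
(`β (1 - θ) ≥ 1 / 4`, `r - b ≥ r / 2`, `r ≥ 1`). -/
theorem RawLow.low {g g' : ℝ → ℝ → ℝ} {a θ ζ A b E M ρM : ℝ} (h : RawLow g g' a θ ζ) (hg : FE g)
    (hc : Coarse g A b) (hE : Lb g E ρM) (hE0 : 0 ≤ E) (ha : 0 ≤ a) (ha' : a ≤ 1) (hθ : 0 ≤ θ)
    (hθζ : θ ≤ ζ) (hζ : ζ ≤ 1 / 2) (hb : 2 * b ≤ ρM) (hρ : 1 ≤ ρM) (hM : 0 ≤ M)
    (hA : 8 * (M + 4) ≤ A) : Low g g' a (10 * (M * ρM + ρM ^ 2 + E + 1) * ζ) M ρM := by
  intro β h1 h2 μ hμ ρ hρ0 T hT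
  have hβ : 0 < β := by linarith
  have hζ0 : 0 ≤ ζ := hθ.trans hθζ
  have hρM : 0 ≤ ρM := by linarith
  have hμM : μ ≤ M := (le_abs_self μ).trans hμ
  have hβa : β * a ≤ 2 := by nlinarith
  have hβa0 : 0 ≤ β * a := by positivity
  obtain ⟨T₀, hT₀⟩ : ∃ T₀, T₀ = M * ρM + ρM ^ 2 + E := ⟨_, rfl⟩
  have hMρ : 0 ≤ M * ρM := by positivity
  have hρ2 : ρM ≤ ρM ^ 2 := by nlinarith
  have hsq : ∀ r, 0 ≤ r → r ≤ ρM → β * a * r ^ 2 / 2 ≤ ρM ^ 2 := fun r h3 h4 => by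
    have b2 : r ^ 2 ≤ ρM ^ 2 := pow_le_pow_left₀ h3 h4 2
    have b4 : β * a * r ^ 2 ≤ 2 * ρM ^ 2 := mul_le_mul hβa b2 (sq_nonneg _) (by norm_num)
    linarith
  have hlin : ∀ r, 0 ≤ r → r ≤ ρM → μ * r ≤ M * ρM := fun r h3 h4 => mul_le_mul hμM h4 h3 hM
  obtain ⟨T₁, hT₁T, hT₁0, hT₁, hT₁'⟩ : ∃ T₁, T₁ ≤ T ∧ T₁ ≤ T₀ ∧ 0 ≤ T₁ ∧
      ∀ r, 0 ≤ r → r ≤ ρM → μ * r + β * a * r ^ 2 / 2 - g β r ≤ T₁ := by
    have key : ∀ r, 0 ≤ r → r ≤ ρM → μ * r + β * a * r ^ 2 / 2 - g β r ≤ min T T₀ :=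
      fun r h3 h4 => le_min (hT r h3 h4) (by
        have := hE β (by linarith) (by linarith) r h3 h4
        linarith [hsq r h3 h4, hlin r h3 h4])
    refine ⟨min T T₀, min_le_left _ _, min_le_right _ _, ?_, key⟩
    simpa [hg.zero β hβ] using key 0 le_rfl hρM
  have hadd : 0 ≤ ζ * (2 * T₀ + ρM + ρM ^ 2) := mul_nonneg hζ0 (by linarith)
  have main := h β h1 h2 μ ρ hρ0 (T₁ + ζ * (2 * T₀ + ρM + ρM ^ 2)) (fun r hr => by
    rcases le_total r ρM with h4 | h4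
    · have c1 := (hg.conc r hr).2 (show β ∈ Ioi (0 : ℝ) from hβ)
        (show β / 2 ∈ Ioi (0 : ℝ) from half_pos hβ) (show 0 ≤ 1 - 2 * θ by linarith)
        (show 0 ≤ 2 * θ by linarith) (by ring)
      simp only [smul_eq_mul] at c1
      rw [show (1 - 2 * θ) * β + 2 * θ * (β / 2) = β * (1 - θ) by ring] at c1
      have c2 := hE (β / 2) (by linarith) (by linarith) r hr h4
      have c3 := mul_le_mul_of_nonneg_left (hT₁' r hr h4) (show 0 ≤ 1 - 2 * θ by linarith)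
      have c4 := mul_le_mul_of_nonneg_left c2 (show 0 ≤ 2 * θ by linarith)
      have c5 : 2 * θ * (μ * r + β * a * r ^ 2 / 2 + E) ≤ 2 * θ * T₀ :=
        mul_le_mul_of_nonneg_left (by linarith [hsq r hr h4, hlin r hr h4]) (by linarith)
      have c6 : 2 * θ * T₀ ≤ 2 * ζ * T₀ :=
        mul_le_mul_of_nonneg_right (by linarith) (by linarith)
      have c7 : ζ * r ≤ ζ * ρM := mul_le_mul_of_nonneg_left h4 hζ0
      have c8 : ζ * (β * a * r ^ 2 / 2) ≤ ζ * ρM ^ 2 :=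
        mul_le_mul_of_nonneg_left (hsq r hr h4) hζ0
      have c9 : 0 ≤ θ * T₁ := mul_nonneg hθ hT₁
      linarith
    · have hβθ : 1 / 4 ≤ β * (1 - θ) := by nlinarith
      have c1 := hc (β * (1 - θ)) (by linarith) r hr
      have hr1 : 1 ≤ r := hρ.trans h4
      have c2 : r ^ 2 / 2 ≤ r * (r - b) := by nlinarith
      have c3 : 1 / 4 * (8 * (M + 4)) * (r ^ 2 / 2) ≤ β * (1 - θ) * A * (r * (r - b)) :=
        mul_le_mul (mul_le_mul hβθ hA (by linarith) (by linarith)) c2 (by positivity)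
          (mul_nonneg (by linarith) (by linarith))
      have c4 : r ≤ r ^ 2 := by nlinarith
      have c5 : (μ + ζ) * r ≤ (M + 1) * r ^ 2 :=
        mul_le_mul (by linarith) c4 hr (by linarith)
      have c6 : β * a * (1 + ζ) ≤ 4 := by nlinarith
      have c7 : β * a * (1 + ζ) * r ^ 2 ≤ 4 * r ^ 2 :=
        mul_le_mul_of_nonneg_right c6 (sq_nonneg _)
      linarith)
  rw [← hT₀]
  have d1 : ζ * T₁ ≤ ζ * T₀ := mul_le_mul_of_nonneg_left hT₁0 hζ0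
  have d2 : ζ * (2 * T₀ + ρM + ρM ^ 2) ≤ ζ * (4 * T₀) :=
    mul_le_mul_of_nonneg_left (by linarith) hζ0
  have d3 : ζ * (ζ * (2 * T₀ + ρM + ρM ^ 2)) ≤ 1 / 2 * (ζ * (2 * T₀ + ρM + ρM ^ 2)) :=
    mul_le_mul_of_nonneg_right hζ hadd
  have d4 : 0 ≤ ζ * T₀ := mul_nonneg hζ0 (by linarith)
  linarith

theorem Low.mono {g g' : ℝ → ℝ → ℝ} {a ε ε' M ρM : ℝ} (h : Low g g' a ε M ρM) (hε : ε ≤ ε') :
    Low g g' a ε' M ρM := fun β h1 h2 μ hμ ρ hρ T hT => by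
  linarith [h β h1 h2 μ hμ ρ hρ T hT]

theorem FE.nrm {g : ℝ → ℝ → ℝ} (h : FE g) {p Λ : ℝ} (hp : 0 < p) (hΛ : 0 < Λ) :
    FE (nrm g p Λ) := by
  have hΛp : 0 < Λ * p := mul_pos hΛ hp
  refine ⟨fun ρ hρ => ⟨convex_Ioi 0, fun x hx y hy s t hs ht hst => ?_⟩,
    fun β hβ => ⟨convex_Ici 0, fun x hx y hy s t hs ht hst => ?_⟩, fun β hβ => ?_⟩
  · have := (h.conc (p * ρ) (by positivity)).2 hx hy hs ht hst
    simp only [smul_eq_mul, R149.nrm] at this ⊢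
    rw [← mul_div_assoc, ← mul_div_assoc, ← add_div]
    exact div_le_div_of_nonneg_right this hΛp.le
  · have := (h.conv β hβ).2 (show p * x ∈ Ici (0 : ℝ) from mul_nonneg hp.le hx)
      (show p * y ∈ Ici (0 : ℝ) from mul_nonneg hp.le hy) hs ht hst
    simp only [smul_eq_mul, R149.nrm] at this ⊢
    rw [← mul_div_assoc, ← mul_div_assoc, ← add_div,
      show p * (s * x + t * y) = s * (p * x) + t * (p * y) by ring]
    exact div_le_div_of_nonneg_right this hΛp.le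
  · simp [R149.nrm, h.zero β hβ]

theorem Up.nrm {g g' : ℝ → ℝ → ℝ} {a w p Λ : ℝ} (h : Up g g' (a * Λ / p) w) (hp : 0 < p)
    (hΛ : 0 < Λ) : Up (nrm g p Λ) (nrm g' p Λ) a (w / Λ) := by
  intro β hβ ρ hρ
  have hΛp : 0 < Λ * p := mul_pos hΛ hp
  have := div_le_div_of_nonneg_right (h β hβ (p * ρ) (by positivity)) hΛp.le
  simp only [R149.nrm]
  refine this.trans (le_of_eq ?_)
  field_simp

theorem RawLow.nrm {g g' : ℝ → ℝ → ℝ} {a θ ζ p Λ : ℝ} (h : RawLow g g' (a * Λ / p) θ ζ)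
    (hζ : 0 ≤ ζ) (hp : 0 < p) (hΛ : 1 ≤ Λ) (hΛp : 1 ≤ Λ * p) :
    RawLow (nrm g p Λ) (nrm g' p Λ) a θ ζ := by
  intro β h1 h2 μ ρ hρ T hT
  have hΛp : 0 < Λ * p := by linarith
  have := h β h1 h2 (μ * Λ) (p * ρ) (by positivity) (Λ * p * T) (fun r hr => by
    obtain ⟨r, rfl⟩ : ∃ r', r = p * r' := ⟨r / p, by field_simp⟩
    have hr' : 0 ≤ r := nonneg_of_mul_nonneg_right hr hp |> fun h => h
    have c1 := mul_le_mul_of_nonneg_left (hT r hr') hΛp.le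
    simp only [R149.nrm] at c1
    rw [mul_sub, mul_div_cancel₀ _ hΛp.ne'] at c1
    have c2 : β * (a * Λ / p) * (1 + ζ) * (p * r) ^ 2 / 2 =
        Λ * p * (β * a * (1 + ζ) * r ^ 2 / 2) := by field_simp
    have c3 : ζ * (p * r) * 1 ≤ ζ * (p * r) * Λ :=
      mul_le_mul_of_nonneg_left hΛ (mul_nonneg hζ hr)
    rw [c2]
    nlinarith)
  simp only [R149.nrm]
  have c4 : ζ * 1 ≤ ζ * (Λ * p) := mul_le_mul_of_nonneg_left ‹1 ≤ Λ * p› hζ
  rw [sub_le_iff_le_add, ← sub_le_iff_le_add', le_div_iff₀ hΛp]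
  nlinarith

theorem Coarse.nrm {g : ℝ → ℝ → ℝ} {A b p Λ : ℝ} (h : Coarse g (A * Λ / p) (b * p)) (hp : 0 < p)
    (hΛ : 0 < Λ) (hΛp : 1 ≤ Λ * p) : Coarse (nrm g p Λ) A b := by
  intro β hβ r hr
  have := h β hβ (p * r) (by positivity)
  have c2 : β * (A * Λ / p) * (p * r * (p * r - b * p)) = β * A * (r * (r - b)) * (Λ * p) := by
    field_simp
  simp only [R149.nrm]
  rw [le_div_iff₀ (mul_pos hΛ hp)]
  rw [c2] at this
  linarith

/-- one-sided derivatives of a concave function exist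
(`ConvexOn.hasDerivWithinAt_leftDeriv_of_mem_interior` and the right version for `-G`); the right
one is `≤ e₁`, the left one is `≥ e₂`; quotient rule. -/
theorem kink_deriv {G : ℝ → ℝ} (hG : ConcaveOn ℝ (Ioi 0) G) {βc e₁ e₂ : ℝ} (hβ : 0 < βc)
    (he : e₁ < e₂) (h₁ : ∀ t, 0 < t → G (βc + t) ≤ G βc + t * e₁)
    (h₂ : ∀ t, 0 < t → t < βc → G (βc - t) ≤ G βc - t * e₂) :
    ∃ Dl Dr : ℝ, HasDerivWithinAt (fun β => G β / β) Dl (Iio βc) βc ∧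
      HasDerivWithinAt (fun β => G β / β) Dr (Ioi βc) βc ∧ Dr < Dl := by
  have hc := hG.neg
  have hi : βc ∈ interior (Ioi (0 : ℝ)) := by rw [interior_Ioi]; exact hβ
  have hl := (hc.hasDerivWithinAt_leftDeriv_of_mem_interior hi).neg
  have hr := (hc.hasDerivWithinAt_rightDeriv_of_mem_interior hi).neg
  rw [neg_neg] at hl hr
  generalize -derivWithin (-G) (Iio βc) βc = gl at hl
  generalize -derivWithin (-G) (Ioi βc) βc = gr at hr
  have h1 : e₂ ≤ gl := by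
    refine ge_of_tendsto ((hasDerivWithinAt_iff_tendsto_slope' (by simp)).1 hl) ?_
    filter_upwards [Ioo_mem_nhdsLT hβ] with y hy
    have := h₂ (βc - y) (by linarith [hy.2]) (by linarith [hy.1])
    rw [sub_sub_cancel] at this
    rw [slope_def_field, le_div_iff_of_neg (by linarith [hy.2])]
    linarith
  have h2 : gr ≤ e₁ := by
    refine le_of_tendsto ((hasDerivWithinAt_iff_tendsto_slope' (by simp)).1 hr) ?_
    filter_upwards [self_mem_nhdsWithin] with y hy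
    have hy' : βc < y := hy
    have := h₁ (y - βc) (by linarith)
    rw [add_sub_cancel] at this
    rw [slope_def_field, div_le_iff₀ (by linarith)]
    linarith
  refine ⟨_, _, hl.div (hasDerivWithinAt_id βc _) hβ.ne', hr.div (hasDerivWithinAt_id βc _) hβ.ne',
    div_lt_div_of_pos_right ?_ (pow_pos hβ 2)⟩
  have : gr * βc < gl * βc := mul_lt_mul_of_pos_right (by linarith) hβ
  exact sub_lt_sub_right this _

end Crest.Agent.R149
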