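import Crest.Agent.R149.Defs

/-!
# Row 149: the triple point
-/

set_option autoImplicit false
open MeasureTheory Set Filter Topology Crest.ProbabilityR.Continuum
open scoped ENNReal

namespace Crest.Agent.R149

/-- the information available in the limit -/
structure Lim (g : ℝ → ℝ → ℝ) (n : ℝ) : Prop where
  inv : ∀ δ, 0 < δ →
    Inv g ![0, 1, n] ![0, -1 / n, -n] (1 / 1000) (1 / 1000) (3 / 4) (7 / 4) 1 δ
  co : ∀ ρ, 0 ≤ ρ → -ρ / n - g 1 ρ ≤ 1 / 1000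
  ex : ∀ i : Fin 3, ∃ ρ e σ, Adm g ρ e σ ∧ |ρ - ![0, 1, n] i| ≤ 1 / 1000 ∧
    |e - ![0, -1 / n, -n] i| ≤ 1 / 1000 ∧ -(1 / 1000) ≤ -ρ / n - e + σ

namespace AbsFinalAux

/-- a plane in the window around `(c, d)` -/
def Win (g : ℝ → ℝ → ℝ) (c d ϑ ρ e σ : ℝ) : Prop := Adm g ρ e σ ∧ |ρ - c| ≤ ϑ ∧ |e - d| ≤ ϑ

theorem val_le {c d ϑ ρ e : ℝ} (h1 : |ρ - c| ≤ ϑ) (h2 : |e - d| ≤ ϑ) (x y : ℝ) :
    x * ρ - y * e ≤ x * c - y * d + ϑ * (|x| + |y|) := by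
  have a1 : x * (ρ - c) ≤ |x| * ϑ :=
    (le_abs_self _).trans (by rw [abs_mul]; exact mul_le_mul_of_nonneg_left h1 (abs_nonneg _))
  have a2 : -(y * (e - d)) ≤ |y| * ϑ :=
    (neg_le_abs _).trans (by rw [abs_mul]; exact mul_le_mul_of_nonneg_left h2 (abs_nonneg _))
  linarith

/-- the properties of the partial pressure of a window -/
structure PP (g : ℝ → ℝ → ℝ) (c d ϑ m : ℝ) (P : ℝ → ℝ → ℝ) : Prop where
  le : ∀ β μ ρ e σ, Win g c d ϑ ρ e σ → μ * ρ - β * e + σ ≤ P β μ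
  ex : ∀ β μ γ, 0 < γ → ∃ ρ e σ, Win g c d ϑ ρ e σ ∧ P β μ - γ ≤ μ * ρ - β * e + σ
  lip : ∀ β μ β' μ', P β' μ' ≤ P β μ + (μ' - μ) * c - (β' - β) * d + ϑ * (|μ' - μ| + |β' - β|)
  base : |P 1 m| ≤ ϑ

theorem exists_PP {g : ℝ → ℝ → ℝ} {c d ϑ m : ℝ} (hco : ∀ ρ, 0 ≤ ρ → m * ρ - g 1 ρ ≤ ϑ)
    (hex : ∃ ρ e σ, Win g c d ϑ ρ e σ ∧ -ϑ ≤ m * ρ - e + σ) : ∃ P, PP g c d ϑ m P := by
  let S : ℝ → ℝ → Set ℝ := fun β μ => {v | ∃ ρ e σ, Win g c d ϑ ρ e σ ∧ v = μ * ρ - β * e + σ}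
  obtain ⟨ρ₀, e₀, σ₀, h₀, h₀'⟩ := hex
  have hne : ∀ β μ, (S β μ).Nonempty := fun β μ => ⟨_, ρ₀, e₀, σ₀, h₀, rfl⟩
  have hb : ∀ ρ e σ, Win g c d ϑ ρ e σ → m * ρ - 1 * e + σ ≤ ϑ := fun ρ e σ h => by
    have := hco ρ h.1.1
    have := h.1.2 1 one_pos
    linarith
  have hbd : ∀ β μ, BddAbove (S β μ) := fun β μ => by
    refine ⟨ϑ + ((μ - m) * c - (β - 1) * d + ϑ * (|μ - m| + |β - 1|)), ?_⟩
    rintro _ ⟨ρ, e, σ, h, rfl⟩
    have := val_le h.2.1 h.2.2 (μ - m) (β - 1)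
    have := hb ρ e σ h
    linarith
  have hle : ∀ β μ ρ e σ, Win g c d ϑ ρ e σ → μ * ρ - β * e + σ ≤ sSup (S β μ) :=
    fun β μ ρ e σ h => le_csSup (hbd β μ) ⟨ρ, e, σ, h, rfl⟩
  refine ⟨fun β μ => sSup (S β μ), hle, fun β μ γ hγ => ?_, fun β μ β' μ' => ?_, ?_⟩
  · obtain ⟨_, ⟨ρ, e, σ, h, rfl⟩, h'⟩ := exists_lt_of_lt_csSup (hne β μ) (sub_lt_self _ hγ)
    exact ⟨ρ, e, σ, h, h'.le⟩
  · refine csSup_le (hne β' μ') ?_
    rintro _ ⟨ρ, e, σ, h, rfl⟩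
    have := val_le h.2.1 h.2.2 (μ' - μ) (β' - β)
    have := hle β μ ρ e σ h
    linarith
  · rw [abs_le]
    constructor
    · have := hle 1 m ρ₀ e₀ σ₀ h₀
      linarith
    · refine csSup_le (hne 1 m) ?_
      rintro _ ⟨ρ, e, σ, h, rfl⟩
      exact hb ρ e σ h

theorem PP.lip' {g : ℝ → ℝ → ℝ} {c d ϑ m : ℝ} {P : ℝ → ℝ → ℝ} (h : PP g c d ϑ m P)
    (β μ β' μ' : ℝ) :
    |P β' μ' - P β μ - ((μ' - μ) * c - (β' - β) * d)| ≤ ϑ * (|μ' - μ| + |β' - β|) := by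
  have h1 := h.lip β μ β' μ'
  have h2 := h.lip β' μ' β μ
  rw [abs_sub_comm μ μ', abs_sub_comm β β'] at h2
  rw [abs_le]
  constructor <;> linarith

theorem PP.near {g : ℝ → ℝ → ℝ} {c d ϑ m : ℝ} {P : ℝ → ℝ → ℝ} (h : PP g c d ϑ m P) {β μ : ℝ}
    (h1 : |μ - m| + |β - 1| ≤ 1) : |P β μ - ((μ - m) * c - (β - 1) * d)| ≤ 2 * ϑ := by
  have h2 := abs_le.1 (h.lip' 1 m β μ)
  have h3 := abs_le.1 h.base
  have h4 : 0 ≤ ϑ := (abs_nonneg _).trans h.base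
  have h5 : ϑ * (|μ - m| + |β - 1|) ≤ ϑ := mul_le_of_le_one_right h4 h1
  rw [abs_le]
  constructor <;> linarith [h2.1, h2.2, h3.1, h3.2]

theorem PP.cont {g : ℝ → ℝ → ℝ} {c d ϑ m : ℝ} {P : ℝ → ℝ → ℝ} (h : PP g c d ϑ m P) :
    Continuous fun p : ℝ × ℝ => P p.1 p.2 := by
  refine continuous_iff_continuousAt.2 fun p => ?_
  have h1 : Tendsto (fun q : ℝ × ℝ => P q.1 q.2 - P p.1 p.2 - ((q.2 - p.2) * c - (q.1 - p.1) * d))
      (𝓝 p) (𝓝 0) := by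
    refine squeeze_zero_norm (fun q => h.lip' p.1 p.2 q.1 q.2) ?_
    have : Continuous fun q : ℝ × ℝ => ϑ * (|q.2 - p.2| + |q.1 - p.1|) := by fun_prop
    simpa using this.tendsto p
  have h2 : Continuous fun q : ℝ × ℝ => P p.1 p.2 + ((q.2 - p.2) * c - (q.1 - p.1) * d) := by
    fun_prop
  have h3 := h1.add (h2.tendsto p)
  simp only [sub_self, zero_mul, add_zero, zero_add] at h3
  exact h3.congr fun q => by ring

/-- two intermediate value theorems -/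
theorem ivt2 {D Q : ℝ → ℝ → ℝ} {a b L : ℝ} {lo hi : ℝ → ℝ} (hab : a ≤ b)
    (hD : Continuous fun p : ℝ × ℝ => D p.1 p.2) (hQ : Continuous fun p : ℝ × ℝ => Q p.1 p.2)
    (hL : ∀ β β' μ, |D β μ - D β' μ| ≤ L * |β - β'|)
    (hm : ∀ β μ μ', μ ≤ μ' → μ' - μ ≤ D β μ' - D β μ) (hlh : ∀ β, lo β ≤ hi β)
    (h1 : ∀ β, a ≤ β → β ≤ b → D β (lo β) ≤ 0 ∧ 0 ≤ D β (hi β))
    (ha : ∀ μ, lo a ≤ μ → μ ≤ hi a → 0 ≤ Q a μ) (hb : ∀ μ, lo b ≤ μ → μ ≤ hi b → Q b μ ≤ 0) :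
    ∃ β μ, a ≤ β ∧ β ≤ b ∧ lo β ≤ μ ∧ μ ≤ hi β ∧ D β μ = 0 ∧ Q β μ = 0 := by
  have h2 : ∀ β ∈ Icc a b, ∃ μ ∈ Icc (lo β) (hi β), D β μ = 0 := fun β hβ =>
    intermediate_value_Icc (hlh β) (f := D β)
      (hD.comp (Continuous.prodMk_right β)).continuousOn (h1 β hβ.1 hβ.2)
  choose! m hm1 hm2 using h2
  have h3 : ∀ β μ μ', |μ - μ'| ≤ |D β μ - D β μ'| := fun β μ μ' => by
    rcases le_total μ μ' with h | h
    · rw [abs_sub_comm, abs_of_nonneg (sub_nonneg.2 h), abs_sub_comm]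
      exact (hm β μ μ' h).trans (le_abs_self _)
    · rw [abs_of_nonneg (sub_nonneg.2 h)]
      exact (hm β μ' μ h).trans (le_abs_self _)
  have h4 : ContinuousOn m (Icc a b) := by
    refine (LipschitzOnWith.of_dist_le' (K := L) fun β hβ β' hβ' => ?_).continuousOn
    rw [Real.dist_eq, Real.dist_eq]
    refine (h3 β _ _).trans ?_
    rw [hm2 β hβ, ← hm2 β' hβ', abs_sub_comm]
    exact hL β β' _
  have h5 : ContinuousOn (fun β => Q β (m β)) (Icc a b) :=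
    hQ.comp_continuousOn (continuousOn_id.prodMk h4)
  have ha' : a ∈ Icc a b := ⟨le_rfl, hab⟩
  have hb' : b ∈ Icc a b := ⟨hab, le_rfl⟩
  obtain ⟨β, hβ, h6⟩ := intermediate_value_Icc' hab h5
    (show (0 : ℝ) ∈ Icc _ _ from ⟨hb _ (hm1 b hb').1 (hm1 b hb').2, ha _ (hm1 a ha').1 (hm1 a ha').2⟩)
  exact ⟨β, m β, hβ.1, hβ.2, (hm1 β hβ).1, (hm1 β hβ).2, hm2 β hβ, h6⟩

/-- mixing two almost optimal planes -/
theorem mix {g : ℝ → ℝ → ℝ} (hg : FE g) {ρ e σ ρ' e' σ' r β μ γ P : ℝ} (h : Adm g ρ e σ)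
    (h' : Adm g ρ' e' σ') (hr : ρ < r) (hr' : r < ρ') (hv : P - γ ≤ μ * ρ - β * e + σ)
    (hv' : P - γ ≤ μ * ρ' - β * e' + σ') (hP : μ * r - g β r ≤ P) :
    ∃ e'', (∀ t, 0 < β + t → g (β + t) r ≤ g β r + γ + t * e'') ∧
      ∀ x y z, x * e + y * ρ ≤ z → x * e' + y * ρ' ≤ z → x * e'' + y * r ≤ z := by
  have hd : 0 < ρ' - ρ := by linarith
  obtain ⟨l, hl⟩ : ∃ l, l = (ρ' - r) / (ρ' - ρ) := ⟨_, rfl⟩
  have hl0 : 0 ≤ l := by rw [hl]; exact div_nonneg (by linarith) hd.le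
  have hl1 : 0 ≤ 1 - l := by rw [hl, sub_nonneg, div_le_one hd]; linarith
  have hrl : r = l * ρ + (1 - l) * ρ' := by rw [hl]; field_simp; ring
  refine ⟨l * e + (1 - l) * e', fun t ht => ?_, fun x y z h1 h2 => ?_⟩
  · have h1 := (hg.conv (β + t) ht).2 (mem_Ici.2 h.1) (mem_Ici.2 h'.1) hl0 hl1 (by ring)
    simp only [smul_eq_mul] at h1
    rw [← hrl] at h1
    have h2 := mul_le_mul_of_nonneg_left (h.2 _ ht) hl0
    have h3 := mul_le_mul_of_nonneg_left (h'.2 _ ht) hl1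
    have h4 := mul_le_mul_of_nonneg_left hv hl0
    have h5 := mul_le_mul_of_nonneg_left hv' hl1
    have h6 : μ * r = μ * (l * ρ + (1 - l) * ρ') := by rw [← hrl]
    linarith
  · have h4 := mul_le_mul_of_nonneg_left h1 hl0
    have h5 := mul_le_mul_of_nonneg_left h2 hl1
    have h6 : y * r = y * (l * ρ + (1 - l) * ρ') := by rw [← hrl]
    linarith

theorem core {g : ℝ → ℝ → ℝ} {n k : ℝ} (hn : 2 ≤ n) (hk : n * k = 1) (hg : FE g)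
    {P₀ P₁ P₂ : ℝ → ℝ → ℝ} (h₀ : PP g 0 0 (1 / 1000) (-k) P₀) (h₁ : PP g 1 (-k) (1 / 1000) (-k) P₁)
    (h₂ : PP g n (-n) (1 / 1000) (-k) P₂)
    (hinv : ∀ β μ P, 3 / 4 ≤ β → β ≤ 7 / 4 → |μ| ≤ 1 → P₀ β μ ≤ P → P₁ β μ ≤ P → P₂ β μ ≤ P →
      ∀ r, 0 ≤ r → μ * r - g β r ≤ P) :
    ∃ βc, 7 / 8 ≤ βc ∧ βc ≤ 9 / 8 ∧ ∀ r, 3 / 2 < r → r < 11 / 6 → ∃ e₁ e₂, e₁ < e₂ ∧
      (∀ t, 0 < t → g (βc + t) r ≤ g βc r + t * e₁) ∧
      ∀ t, 0 < t → t < βc → g (βc - t) r ≤ g βc r - t * e₂ := by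
  have hk0 : 0 < k := by
    by_contra h
    nlinarith
  have hk1 : k ≤ 1 / 2 := by nlinarith
  have hbox : ∀ β μ, 7 / 8 ≤ β → β ≤ 9 / 8 → -k - (β - 1) - 1 / 100 ≤ μ →
      μ ≤ -k - (β - 1) + 1 / 100 → |μ - -k| + |β - 1| ≤ 1 := fun β μ a1 a2 a3 a4 => by
    have b1 : |μ - -k| ≤ 1 / 2 := abs_le.2 ⟨by linarith, by linarith⟩
    have b2 : |β - 1| ≤ 1 / 2 := abs_le.2 ⟨by linarith, by linarith⟩
    linarith
  obtain ⟨β, μ, a1, a2, a3, a4, a5, a6⟩ := ivt2 (D := fun β μ => P₂ β μ - P₀ β μ)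
    (Q := fun β μ => P₁ β μ - P₀ β μ) (a := 7 / 8) (b := 9 / 8) (L := n + 1)
    (lo := fun β => -k - (β - 1) - 1 / 100) (hi := fun β => -k - (β - 1) + 1 / 100) (by norm_num)
    (h₂.cont.sub h₀.cont) (h₁.cont.sub h₀.cont)
    (fun β β' μ => by
      have b1 := abs_le.1 (h₀.lip' β' μ β μ)
      have b2 := abs_le.1 (h₂.lip' β' μ β μ)
      simp only [sub_self, abs_zero] at b1 b2
      have b3 := abs_nonneg (β - β')
      have b4 := mul_le_mul_of_nonneg_left (le_abs_self (β - β')) (show 0 ≤ n by linarith)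
      have b5 := mul_le_mul_of_nonneg_left (neg_abs_le (β - β')) (show 0 ≤ n by linarith)
      rw [abs_le]
      constructor <;> linarith [b1.1, b1.2, b2.1, b2.2])
    (fun β μ μ' hμ => by
      have b1 := abs_le.1 (h₀.lip' β μ β μ')
      have b2 := abs_le.1 (h₂.lip' β μ β μ')
      simp only [sub_self, abs_zero, abs_of_nonneg (sub_nonneg.2 hμ)] at b1 b2
      have b3 := mul_le_mul_of_nonneg_left hn (sub_nonneg.2 hμ)
      linarith [b1.1, b1.2, b2.1, b2.2])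
    (fun β => by linarith)
    (fun β b1 b2 => by
      have b3 := hbox β _ b1 b2 le_rfl (by linarith)
      have b4 := hbox β _ b1 b2 (by linarith) le_rfl
      have c1 := abs_le.1 (h₀.near b3)
      have c2 := abs_le.1 (h₂.near b3)
      have c3 := abs_le.1 (h₀.near b4)
      have c4 := abs_le.1 (h₂.near b4)
      constructor <;> linarith [c1.1, c1.2, c2.1, c2.2, c3.1, c3.2, c4.1, c4.2])
    (fun μ b1 b2 => by
      have b3 := hbox _ μ le_rfl (by norm_num) b1 b2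
      have c1 := abs_le.1 (h₀.near b3)
      have c2 := abs_le.1 (h₁.near b3)
      linarith [c1.1, c1.2, c2.1, c2.2])
    (fun μ b1 b2 => by
      have b3 := hbox _ μ (by norm_num) le_rfl b1 b2
      have c1 := abs_le.1 (h₀.near b3)
      have c2 := abs_le.1 (h₁.near b3)
      linarith [c1.1, c1.2, c2.1, c2.2])
  refine ⟨β, a1, a2, fun r hr1 hr2 => ?_⟩
  have hP := hinv β μ (P₀ β μ) (by linarith) (by linarith) (abs_le.2 ⟨by linarith, by linarith⟩)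
    le_rfl (by linarith) (by linarith) r (by linarith)
  refine ⟨-r + 2 / 1000, 1 - (1 + k) * r - 5 / 2000, by nlinarith, fun t ht => ?_,
    fun t ht ht' => ?_⟩
  · refine le_of_forall_pos_le_add fun γ hγ => ?_
    obtain ⟨ρ, e, σ, ⟨b1, b2, b3⟩, b4⟩ := h₀.ex β μ γ hγ
    obtain ⟨ρ', e', σ', ⟨c1, c2, c3⟩, c4⟩ := h₂.ex β μ γ hγ
    rw [abs_le] at b2 b3 c2 c3
    obtain ⟨e'', d1, d2⟩ := mix hg b1 c1 (r := r) (by linarith [b2.2]) (by linarith [c2.1]) b4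
      (by linarith) hP
    have d3 := d2 1 1 (2 / 1000) (by linarith [b2.2, b3.2]) (by linarith [c2.2, c3.2])
    have d4 := d1 t (by linarith)
    have d5 := mul_le_mul_of_nonneg_left (show e'' ≤ -r + 2 / 1000 by linarith) ht.le
    linarith
  · refine le_of_forall_pos_le_add fun γ hγ => ?_
    obtain ⟨ρ, e, σ, ⟨b1, b2, b3⟩, b4⟩ := h₁.ex β μ γ hγ
    obtain ⟨ρ', e', σ', ⟨c1, c2, c3⟩, c4⟩ := h₂.ex β μ γ hγ
    rw [abs_le] at b2 b3 c2 c3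
    obtain ⟨e'', d1, d2⟩ := mix hg b1 c1 (r := r) (P := P₀ β μ) (γ := γ) (by linarith [b2.2])
      (by linarith [c2.1]) (by linarith) (by linarith) hP
    have b5 := mul_le_mul_of_nonneg_left b2.1 hk0.le
    have c5 := mul_le_mul_of_nonneg_left c2.1 hk0.le
    have d3 := d2 (-1) (-(1 + k)) (-1 + 5 / 2000) (by linarith [b2.1, b3.1])
      (by linarith [c2.1, c3.1])
    have d4 := d1 (-t) (by linarith)
    have d5 := mul_le_mul_of_nonneg_left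
      (show 1 - (1 + k) * r - 5 / 2000 ≤ e'' by linarith) ht.le
    rw [← sub_eq_add_neg] at d4
    linarith

end AbsFinalAux

/-- Write `c = ![0, 1, n]`, `d = ![0, -1 / n, -n]`, `ϑ = 1 / 1000`.  Let `P i β μ` be the supremum of
`μ ρ - β e + σ` over admissible planes `(ρ, e, σ)` (`Adm g ρ e σ`) in window `i`
(`|ρ - c i| ≤ ϑ`, `|e - d i| ≤ ϑ`).
* Nonempty by `ex`.  For a plane in window `i`, its value at `(β, μ) = (1, -1 / n)` is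
  `≤ -ρ / n - g 1 ρ ≤ ϑ` (`Adm` and `co`), and values at two points differ by
  `(μ' - μ) ρ - (β' - β) e`; so the set is bounded above for all `(β, μ)`,
  `P i β' μ' ≤ P i β μ + (μ' - μ) c i - (β' - β) d i + ϑ (|μ' - μ| + |β' - β|)`  (Lip), and
  `|P i 1 (-1 / n)| ≤ ϑ`.  Hence `|P i β μ - π i| ≤ 2 ϑ`, `π i = (μ + 1 / n) c i - (β - 1) d i`,
  whenever `|μ + 1 / n| + |β - 1| ≤ 1`.
* `D β μ = P 2 β μ - P 0 β μ` is continuous in `μ` (Lip), `≈ n (μ + 1 / n + β - 1)`, so for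
  `β ∈ [7/8, 9/8]` it has a zero `μ(β)` with `|μ(β) + 1 / n + β - 1| ≤ 1 / 100` (IVT).  By (Lip)
  `D β μ' - D β μ ≥ μ' - μ` for `μ' ≥ μ` and `|D β μ - D β' μ| ≤ (n + 1) |β - β'|`, so `μ(β)` is
  Lipschitz.  `P 1 - P 0` along `(β, μ(β))` is continuous and `≈ -(β - 1) (1 - 1 / n)` up to
  `1 / 100 + 4 ϑ`, positive at `7 / 8`, negative at `9 / 8`; IVT gives `βc`, `μc = μ(βc)`,
  `|μc| ≤ 1`, with `P 0 = P 1 = P 2 =: P` there.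
* `inv` (all `δ`) gives `μc r - g βc r ≤ P` for all `r ≥ 0`.
* For `γ > 0` take planes in windows `i ∈ {0, 1}` and `2` with values `≥ P - γ` at `(βc, μc)`;
  `ρᵢ < r < ρ₂`; write `r = λ ρᵢ + (1 - λ) ρ₂`; convexity in `ρ` gives
  `g β r ≤ β e - σ` for the mixed `(e, σ)`, and `μc r - βc e + σ ≥ P - γ`, so
  `g (βc + t) r ≤ g βc r + γ + t e` for all `t > -βc`.  For `i = 0` both planes satisfy
  `|e + ρ| ≤ 2 ϑ`, so `e ≤ e₁ := -r + 2 ϑ`; for `i = 1` both satisfy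
  `|e + (n + 1) / n * ρ - 1| ≤ 5 ϑ / 2`, so `e ≥ e₂ := 1 - (n + 1) / n * r - 5 ϑ / 2`;
  `e₂ - e₁ = 1 - r / n - 9 ϑ / 2 > 0`.  Let `γ → 0`. -/
theorem abs_final {g : ℝ → ℝ → ℝ} {n : ℝ} (hn : 2 ≤ n) (hg : FE g) (h : Lim g n) :
    ∃ βc, 7 / 8 ≤ βc ∧ βc ≤ 9 / 8 ∧ ∀ r, 3 / 2 < r → r < 11 / 6 → ∃ e₁ e₂, e₁ < e₂ ∧
      (∀ t, 0 < t → g (βc + t) r ≤ g βc r + t * e₁) ∧
      ∀ t, 0 < t → t < βc → g (βc - t) r ≤ g βc r - t * e₂ := by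
  have hn0 : n ≠ 0 := by linarith
  have hco : ∀ ρ, 0 ≤ ρ → -(1 / n) * ρ - g 1 ρ ≤ 1 / 1000 := fun ρ hρ => by
    have := h.co ρ hρ
    rw [show -(1 / n) * ρ = -ρ / n by ring]
    exact this
  have hP : ∀ i : Fin 3, ∃ P, AbsFinalAux.PP g (![0, 1, n] i) (![0, -1 / n, -n] i) (1 / 1000)
      (-(1 / n)) P := fun i => by
    refine AbsFinalAux.exists_PP hco ?_
    obtain ⟨ρ, e, σ, a1, a2, a3, a4⟩ := h.ex i
    refine ⟨ρ, e, σ, ⟨a1, a2, a3⟩, ?_⟩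
    rw [show -(1 / n) * ρ = -ρ / n by ring]
    exact a4
  choose P hP using hP
  refine AbsFinalAux.core (k := 1 / n) hn (by field_simp) hg (hP 0)
    (by have := hP 1; rw [neg_div] at this; exact this) (hP 2) fun β μ p a1 a2 a3 b0 b1 b2 r hr => ?_
  refine le_of_forall_pos_le_add fun δ hδ => ?_
  obtain ⟨i, ρ, e, σ, c1, c2, c3, c4⟩ := h.inv δ hδ β a1 a2 μ a3 r hr
  have c5 := (hP i).le β μ ρ e σ ⟨c1, c2, c3⟩
  have c6 : P i β μ ≤ p := by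
    fin_cases i
    exacts [b0, b1, b2]
  linarith

end Crest.Agent.R149
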