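import Crest.Agent.R149.AbsFinal

/-!
# Row 149: the iteration
-/

set_option autoImplicit false
open MeasureTheory Set Filter Topology Crest.ProbabilityR.Continuum
open scoped ENNReal

namespace Crest.Agent.R149

theorem Init.inv {g : ℝ → ℝ → ℝ} {n M η : ℝ} (h : Init g n M η) (hg : FE g) (hη : 0 ≤ η)
    (hM : 0 ≤ M) : Inv g ![0, 1, n] (fun _ => 0) η 0 (1 / 2) 2 M ((2 + M) * η) := by
  intro β h1 h2 μ hμ ρ hρ
  obtain ⟨r₁, a1, a2, a3⟩ := h.st₁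
  obtain ⟨r₂, b1, b2, b3⟩ := h.st₂
  have key : ∀ r c, |r - c| ≤ η → μ * c ≤ μ * r + M * η := fun r c hrc => by
    have h3 : |μ * (r - c)| ≤ M * η := by rw [abs_mul]; exact mul_le_mul hμ hrc (abs_nonneg _) hM
    linarith [(abs_le.1 h3).1]
  have hMη : 0 ≤ M * η := mul_nonneg hM hη
  have p0 : μ * ρ - g β ρ ≤ η → ∃ i ρ' e' σ', Adm g ρ' e' σ' ∧ |ρ' - ![0, 1, n] i| ≤ η ∧
      |e' - (fun _ => (0 : ℝ)) i| ≤ 0 ∧ μ * ρ - g β ρ ≤ μ * ρ' - β * e' + σ' + (2 + M) * η :=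
    fun h' => ⟨0, 0, 0, 0, ⟨le_rfl, fun β hβ => by rw [hg.zero β hβ]; simp⟩, by simpa using hη,
      by simp, by linarith⟩
  have p1 : μ * ρ - g β ρ ≤ μ + η → ∃ i ρ' e' σ', Adm g ρ' e' σ' ∧ |ρ' - ![0, 1, n] i| ≤ η ∧
      |e' - (fun _ => (0 : ℝ)) i| ≤ 0 ∧ μ * ρ - g β ρ ≤ μ * ρ' - β * e' + σ' + (2 + M) * η :=
    fun h' => ⟨1, r₁, 0, -η, ⟨a1, fun β hβ => by linarith [a3 β hβ]⟩, by simpa using a2,
      by simp, by linarith [key r₁ 1 a2]⟩
  have p2 : μ * ρ - g β ρ ≤ μ * n - (n - 1) + η → ∃ i ρ' e' σ', Adm g ρ' e' σ' ∧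
      |ρ' - ![0, 1, n] i| ≤ η ∧ |e' - (fun _ => (0 : ℝ)) i| ≤ 0 ∧
      μ * ρ - g β ρ ≤ μ * ρ' - β * e' + σ' + (2 + M) * η :=
    fun h' => ⟨2, r₂, 0, -(n - 1) - η, ⟨b1, fun β hβ => by linarith [b3 β hβ]⟩, by simpa using b2,
      by simp, by linarith [key r₂ n b2]⟩
  rcases le_total ρ 1 with c1 | c1
  · have := h.low₀ β h1 h2 ρ hρ
    rcases le_total μ 0 with c2 | c2
    · exact p0 (by linarith [mul_nonpos_of_nonpos_of_nonneg c2 hρ])
    · exact p1 (by linarith [mul_le_of_le_one_right c2 c1])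
  · rcases le_total ρ n with c3 | c3
    · have := h.low₁ β h1 h2 ρ hρ c3
      rcases le_total μ 1 with c2 | c2
      · exact p1 (by linarith [mul_nonneg (sub_nonneg.2 c2) (sub_nonneg.2 c1)])
      · exact p2 (by linarith [mul_nonneg (sub_nonneg.2 c2) (sub_nonneg.2 c3)])
    · have := h.low₂ β h1 h2 ρ c3
      exact p2 (by linarith [mul_nonneg (sub_nonneg.2 ((le_abs_self μ).trans hμ)) (sub_nonneg.2 c3)])

theorem abs_neg_one_div_le {n : ℝ} (hn : 2 ≤ n) : |(-1 : ℝ) / n| ≤ 1 := by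
  rw [abs_div, abs_neg, abs_one, abs_of_pos (by linarith), div_le_one (by linarith)]; linarith

theorem Init.co {g g' : ℝ → ℝ → ℝ} {n ρM η ε : ℝ} (h : Init g n (2 * ρM + 3) η) (hn : 2 ≤ n)
    (hρ : n + 1 ≤ ρM) (hl : Low g g' (2 / n) ε (2 * ρM + 3) ρM) (ρ : ℝ) (h0 : 0 ≤ ρ) :
    -ρ / n - g' 1 ρ ≤ η + ε := by
  have hn0 : 0 < n := by linarith
  have := hl 1 (by norm_num) (by norm_num) (-1 / n) ((abs_neg_one_div_le hn).trans (by linarith))
    ρ h0 η fun r r0 r1 => by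
      have e : -1 / n * r + 1 * (2 / n) * r ^ 2 / 2 = (r - 1) * r / n := by field_simp; ring
      rw [e]
      rcases le_total r 1 with c1 | c1
      · have := h.low₀ 1 (by norm_num) (by norm_num) r r0
        have : (r - 1) * r / n ≤ 0 :=
          div_nonpos_of_nonpos_of_nonneg (mul_nonpos_of_nonpos_of_nonneg (by linarith) r0) hn0.le
        linarith
      · rcases le_total r n with c3 | c3
        · have := h.low₁ 1 (by norm_num) (by norm_num) r r0 c3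
          have : (r - 1) * r / n ≤ r - 1 := by
            rw [div_le_iff₀ hn0]; exact mul_le_mul_of_nonneg_left c3 (by linarith)
          linarith
        · have := h.low₂ 1 (by norm_num) (by norm_num) r c3
          have : (r - 1) * r / n ≤ n - 1 + (2 * ρM + 3) * (r - n) := by
            rw [div_le_iff₀ hn0]
            have h1 : r + n - 1 ≤ (2 * ρM + 3) * n := by nlinarith
            nlinarith [mul_le_mul_of_nonneg_left h1 (sub_nonneg.2 c3)]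
          linarith
  have e : -ρ / n = -1 / n * ρ := by ring
  linarith

theorem exists_plane {g g' gi : ℝ → ℝ → ℝ} {n ρM η w c r : ℝ} (hn : 2 ≤ n) (hρ : n + 1 ≤ ρM)
    (hη0 : 0 ≤ η) (hη : ρM * η ≤ 1 / 16000) (hw0 : 0 ≤ w) (hw : w ≤ η) (hup : Up g g' (2 / n) w)
    (hi : ∀ β, 0 < β → ∀ r, 0 ≤ r → gi β r ≤ g' β r) (hc0 : 0 ≤ c) (hc : c ≤ n) (hr : 0 ≤ r)
    (hrc : |r - c| ≤ η) (hst : ∀ β, 0 < β → g β r ≤ (c ^ 2 - c) / n + η) :
    ∃ ρ e σ, Adm gi ρ e σ ∧ |ρ - c| ≤ 1 / 1000 ∧ |e - -(c ^ 2 / n)| ≤ 1 / 1000 ∧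
      -(1 / 1000) ≤ -ρ / n - e + σ := by
  have hn0 : 0 < n := by linarith
  have hη1 : η ≤ 1 / 16000 := by nlinarith
  obtain ⟨h1, h2⟩ := abs_le.1 hrc
  have h3 : w * r ≤ 1 / 16000 := by
    have : w * r ≤ η * ρM := mul_le_mul hw (by linarith) hr hη0
    linarith
  have h4 : 0 ≤ w * r := mul_nonneg hw0 hr
  have h5 : |r ^ 2 / n - c ^ 2 / n| ≤ 3 * η := by
    have e : r ^ 2 / n - c ^ 2 / n = (r - c) * ((r + c) / n) := by ring
    have h6 : (r + c) / n ≤ 3 := by rw [div_le_iff₀ hn0]; linarith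
    have h7 : 0 ≤ (r + c) / n := by positivity
    rw [e, abs_mul, abs_of_nonneg h7, mul_comm 3]
    exact mul_le_mul hrc h6 h7 hη0
  have h6 : r / n ≤ c / n + η := by
    have : (r - c) / n ≤ η := by rw [div_le_iff₀ hn0]; nlinarith
    rw [sub_div] at this; linarith
  obtain ⟨h7, h8⟩ := abs_le.1 h5
  have e : 2 / n * r ^ 2 / 2 = r ^ 2 / n := by ring
  refine ⟨r, -(r ^ 2 / n - w * r), -((c ^ 2 - c) / n) - η, ⟨hr, fun β hβ => ?_⟩, by linarith,
    abs_le.2 ⟨by linarith, by linarith⟩, ?_⟩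
  · have := hup β hβ r hr
    rw [e] at this
    linarith [hi β hβ r hr, hst β hβ]
  · rw [neg_div, sub_div]; linarith

theorem Inv.transfer {g gi : ℝ → ℝ → ℝ} {c d : Fin 3 → ℝ} {u v β₁ β₂ M δ γ M₀ ρM E : ℝ}
    (h : Inv g c d u v β₁ β₂ M δ) (hl : Low g gi 0 γ M₀ ρM) (hE : Lb g E ρM) (hγ : 0 < γ)
    (hi : ∀ β, 0 < β → ∀ r, 0 ≤ r → gi β r ≤ g β r) (h1 : 1 / 2 ≤ β₁) (h2 : β₂ ≤ 2) (hM : M ≤ M₀)
    (hρ : 0 ≤ ρM) : Inv gi c d u v β₁ β₂ M (δ + 2 * γ) := by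
  intro β b1 b2 μ hμ ρ hρ0
  obtain ⟨m, hm0, -, hm⟩ := exists_near_max (f := fun r => μ * r - g β r) (B := M * ρM + E) hρ
    (fun r r0 r1 => by
      have := hE β (by linarith) (by linarith) r r0 r1
      have : μ * r ≤ M * ρM :=
        mul_le_mul ((le_abs_self μ).trans hμ) r1 r0 ((abs_nonneg μ).trans hμ)
      linarith) hγ
  obtain ⟨i, ρ', e', σ', a1, a2, a3, a4⟩ := h β b1 b2 μ hμ m hm0
  refine ⟨i, ρ', e', σ', ⟨a1.1, fun β' hβ' => (hi β' hβ' ρ' a1.1).trans (a1.2 β' hβ')⟩, a2, a3, ?_⟩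
  have := hl β (by linarith) (by linarith) μ (hμ.trans hM) ρ hρ0 (μ * m - g β m + γ)
    fun r r0 r1 => by linarith [hm r r0 r1]
  linarith

theorem win_sep {n : ℝ} (hn : 2 ≤ n) (i j : Fin 3) (hij : i ≠ j) :
    1 ≤ |(![0, 1, n] : Fin 3 → ℝ) i - (![0, 1, n] : Fin 3 → ℝ) j| := by
  fin_cases i <;> fin_cases j <;> simp at hij ⊢ <;> rw [le_abs] <;> first
    | exact Or.inl (by linarith)
    | exact Or.inr (by linarith)

theorem win_mem {n : ℝ} (hn : 2 ≤ n) (i : Fin 3) :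
    0 ≤ (![0, 1, n] : Fin 3 → ℝ) i ∧ (![0, 1, n] : Fin 3 → ℝ) i ≤ n := by
  fin_cases i <;> simp <;> linarith

theorem win_abs {n : ℝ} (hn : 2 ≤ n) (i : Fin 3) : |(![0, -1 / n, -n] : Fin 3 → ℝ) i| ≤ n := by
  fin_cases i
  · simp; linarith
  · exact (abs_neg_one_div_le hn).trans (by linarith)
  · simp [abs_of_nonneg (show 0 ≤ n by linarith)]

/-- the first step -/
theorem step_zero {g g' : ℝ → ℝ → ℝ} {n ρM E η w ε y X : ℝ} (hn : 2 ≤ n) (hρ : n + 1 ≤ ρM)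
    (hE0 : 0 ≤ E) (hX : X = 4 * ((2 * ρM + 3) * ρM + ρM ^ 2 + 1 + E)) (hg : FE g)
    (hI : Init g n (2 * ρM + 3) η) (hη0 : 0 < η) (hη : ρM * η ≤ 1 / 16000)
    (h2 : (6 + 2 * ρM) * η ≤ 2 / n * (1 / (8000 * ρM)) ^ 2 / 4)
    (h3 : (6 + 2 * ρM) / (2 / n / (64 * X)) * η ≤ 1 / 4000) (hw0 : 0 ≤ w) (hw : w ≤ y)
    (hε0 : 0 < ε) (hε : ε ≤ y) (hy : y ≤ η) (hup : Up g g' (2 / n) w)
    (hlow : Low g g' (2 / n) ε (2 * ρM + 3) ρM) (hE : Lb g E ρM) :
    Inv g' ![0, 1, n] ![0, -1 / n, -n] (1 / 2000) (1 / 2000) (5 / 8) (15 / 8) 2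
      ((2 + 2 * ρM) * y) := by
  have hn0 : 0 < n := by linarith
  have hρ1 : 1 ≤ ρM := by linarith
  have hη1 : η ≤ 1 / 16000 := by nlinarith
  have ha0 : 0 < 2 / n := by positivity
  have ha1 : 2 / n ≤ 1 := by rw [div_le_one hn0]; exact hn
  have hX1 : 4 ≤ X := by
    have : 0 ≤ (2 * ρM + 3) * ρM + ρM ^ 2 + E := by positivity
    linarith
  obtain ⟨s, hs⟩ : ∃ s, s = 1 / (8000 * ρM) := ⟨_, rfl⟩
  have hs0 : 0 < s := by rw [hs]; positivity
  have hs1 : s * ρM = 1 / 8000 := by rw [hs]; field_simp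
  have hs2 : s ≤ 1 / 8000 := by nlinarith
  rw [← hs] at h2
  obtain ⟨τ, hτ⟩ : ∃ τ, τ = 2 / n / (64 * X) := ⟨_, rfl⟩
  have hτ0 : 0 < τ := by rw [hτ]; positivity
  have hτ1 : 2 * τ * X = 2 / n / 32 := by rw [hτ]; field_simp; ring
  have hτ2 : τ ≤ 1 / 8 := by nlinarith
  rw [← hτ] at h3
  have hδ : (2 + (2 * ρM + 3)) * η + ε ≤ (6 + 2 * ρM) * η := by linarith
  have hs3 : 2 / n * s ^ 2 / 4 < 2 / n / 32 := by
    have : s ^ 2 < 1 / 8 := by nlinarith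
    nlinarith
  have := step hg (hI.inv hg hη0.le (by linarith)) (G := 1 / 2) (X := X) (s := s) (τ := τ) le_rfl
    le_rfl ha0 ha1 hw0 hε0 le_rfl hup hlow hE (fun i => (win_mem hn i).1)
    (fun i => by linarith [(win_mem hn i).2]) hη0.le hs0.le (by linarith) (by norm_num)
    (fun i j hij => by linarith [win_sep hn i j hij]) (by linarith) (fun i => by simp; linarith) hτ0
    (by linarith)
  have h4 : ((2 + (2 * ρM + 3)) * η + ε) / τ ≤ 1 / 4000 := by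
    refine le_trans ?_ h3
    rw [div_mul_eq_mul_div]
    exact div_le_div_of_nonneg_right hδ hτ0.le
  have h5 : 2 / n * (η + s) * ρM ≤ (η + s) * ρM :=
    mul_le_mul_of_nonneg_right (mul_le_of_le_one_left (by linarith) ha1) (by linarith)
  have h6 : w * ρM ≤ y * ρM := mul_le_mul_of_nonneg_right hw (by linarith)
  have h7 : y * ρM ≤ η * ρM := mul_le_mul_of_nonneg_right hy (by linarith)
  have h8 : 2 / n * ρM ≤ ρM := mul_le_of_le_one_left (by linarith) ha1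
  refine this.mono (y := 0) (by linarith) (fun i => ?_) (by linarith) (by linarith) (by linarith)
    (by linarith) (by linarith)
  rw [abs_nonpos_iff]
  fin_cases i <;> simp <;> field_simp <;> ring

/-- the later steps -/
theorem step_succ {g g' : ℝ → ℝ → ℝ} {n ρM E η a w ε y X h : ℝ} (hn : 2 ≤ n) (hρ : n + 1 ≤ ρM)
    (hE0 : 0 ≤ E) (hX : X = 4 * ((2 * ρM + 3) * ρM + ρM ^ 2 + 1 + E)) (hg : FE g) (hh0 : 0 < h)
    (hh : h ≤ 1)
    (hI : Inv g ![0, 1, n] ![0, -1 / n, -n] (1 / 1000 * (1 - h / 2)) (1 / 1000 * (1 - h / 2))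
      (3 / 4 - h / 8) (7 / 4 + h / 8) (1 + h) ((2 + 2 * ρM) * a ^ 2))
    (hη0 : 0 < η) (hη : ρM * η ≤ 1 / 16000) (h2 : (3 + 2 * ρM) * η ≤ (1 / 8000) ^ 2)
    (h3 : (64 * X * (3 + 2 * ρM) + 2 * ρM + ρM ^ 2) * η ≤ 1 / 4000) (ha0 : 0 < a)
    (ha : a ≤ η * h ^ 2) (hw0 : 0 ≤ w) (hw : w ≤ y) (hε0 : 0 < ε) (hε : ε ≤ y) (hy : y ≤ a ^ 2)
    (hup : Up g g' a w) (hlow : Low g g' a ε (2 * ρM + 3) ρM) (hE : Lb g E ρM) :
    Inv g' ![0, 1, n] ![0, -1 / n, -n] (1 / 1000 * (1 - h / 2 / 2)) (1 / 1000 * (1 - h / 2 / 2))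
      (3 / 4 - h / 2 / 8) (7 / 4 + h / 2 / 8) (1 + h / 2) ((2 + 2 * ρM) * y) := by
  have hρ1 : 1 ≤ ρM := by linarith
  have hη1 : η ≤ 1 / 16000 := by nlinarith
  have hh2 : h ^ 2 ≤ h := by nlinarith
  have hah : a ≤ η * h := ha.trans (mul_le_mul_of_nonneg_left hh2 hη0.le)
  have hah' : a ≤ h / 16000 := by nlinarith
  have ha1 : a ≤ 1 := by linarith
  have ha2 : a ^ 2 ≤ a := by nlinarith
  have hX1 : 4 * ρM + 4 ≤ X := by
    have : 0 ≤ (2 * ρM + 2) * ρM + ρM ^ 2 + E := by positivity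
    linarith
  obtain ⟨τ, hτ⟩ : ∃ τ, τ = a / (64 * X) := ⟨_, rfl⟩
  have hX0 : 0 < X := by linarith
  have hτ0 : 0 < τ := by rw [hτ]; positivity
  have hτ1 : τ * X = a / 64 := by rw [hτ]; field_simp
  have hτ2 : τ ≤ a := by nlinarith
  have hδ : (2 + 2 * ρM) * a ^ 2 + ε ≤ a * ((3 + 2 * ρM) * a) := by linarith
  have h4 : (3 + 2 * ρM) * a ≤ (h / 8000) ^ 2 := by
    have h5 := mul_le_mul_of_nonneg_left ha (show 0 ≤ 3 + 2 * ρM by linarith)
    have h6 := mul_le_mul_of_nonneg_right h2 (sq_nonneg h)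
    linarith
  have h5 := mul_le_mul_of_nonneg_left h4 ha0.le
  have h6 : a * (h / 8000) ^ 2 < a / 32 := by
    have : (h / 8000) ^ 2 < 1 / 32 := by linarith
    nlinarith
  have := step hg hI (G := 1 / 2) (X := X) (s := h / 4000) (τ := τ) (by linarith)
    (by linarith) ha0 ha1 hw0 hε0 (by linarith) hup hlow hE (fun i => (win_mem hn i).1)
    (fun i => by linarith [(win_mem hn i).2]) (by linarith) (by linarith) (by linarith)
    (by norm_num) (fun i j hij => by linarith [win_sep hn i j hij]) (by linarith)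
    (fun i => by linarith [win_abs hn i]) hτ0 (by linarith)
  have h7 : ((2 + 2 * ρM) * a ^ 2 + ε) / τ ≤ 64 * X * (3 + 2 * ρM) * a := by
    rw [div_le_iff₀ hτ0]
    have : 64 * X * (3 + 2 * ρM) * a * τ = 64 * (τ * X) * ((3 + 2 * ρM) * a) := by ring
    rw [this, hτ1]; linarith
  have h8 : a * (1 / 1000 * (1 - h / 2) + h / 4000) * ρM ≤ a * ρM :=
    mul_le_mul_of_nonneg_right (mul_le_of_le_one_right ha0.le (by linarith)) (by linarith)
  have h9 : w * ρM ≤ y * ρM := mul_le_mul_of_nonneg_right hw (by linarith)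
  have h10 : y * ρM ≤ a * ρM := mul_le_mul_of_nonneg_right (hy.trans ha2) (by linarith)
  have h11 : (64 * X * (3 + 2 * ρM) + 2 * ρM + ρM ^ 2) * a ≤ h / 4000 := by
    have h12 := mul_le_mul_of_nonneg_left hah
      (show 0 ≤ 64 * X * (3 + 2 * ρM) + 2 * ρM + ρM ^ 2 by positivity)
    have h13 := mul_le_mul_of_nonneg_right h3 hh0.le
    linarith
  have h12 : a * ρM ≤ h / 16000 := by
    have h12 := mul_le_mul_of_nonneg_right hah (show 0 ≤ ρM by linarith)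
    have h13 := mul_le_mul_of_nonneg_right hη hh0.le
    linarith
  refine this.mono (y := a * ρM ^ 2) (by linarith) (fun i => ?_) (by linarith) (by linarith)
    (by linarith) (by linarith) (by linarith)
  obtain ⟨c0, c1⟩ := win_mem hn i
  have c2 : (![0, 1, n] : Fin 3 → ℝ) i ^ 2 ≤ ρM ^ 2 := pow_le_pow_left₀ c0 (by linarith) 2
  have c3 := mul_le_mul_of_nonneg_left c2 ha0.le
  have c4 : 0 ≤ a * (![0, 1, n] : Fin 3 → ℝ) i ^ 2 := by positivity
  rw [abs_le]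
  constructor <;> linarith

theorem eventually_mul_le (C : ℝ) {c : ℝ} (hc : 0 < c) : ∀ᶠ η in 𝓝[>] (0 : ℝ), C * η ≤ c := by
  have : Tendsto (fun η : ℝ => C * η) (𝓝 0) (𝓝 (C * 0)) := tendsto_id.const_mul C
  rw [mul_zero] at this
  exact (this.eventually (ge_mem_nhds hc)).filter_mono nhdsWithin_le_nhds

theorem abs_iter {n ρM E : ℝ} (hn : 2 ≤ n) (hρ : n + 1 ≤ ρM) (hE : 0 ≤ E) :
    ∃ η, 0 < η ∧ η ≤ 1 ∧ ∀ (g : ℕ → ℝ → ℝ → ℝ) (gi : ℝ → ℝ → ℝ) (a w ε : ℕ → ℝ),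
      (∀ k, FE (g k)) → Init (g 0) n (2 * ρM + 3) η → a 0 = 2 / n →
      (∀ k, 0 < a (k + 1) ∧ a (k + 1) ≤ η / 4 ^ k) → (∀ k, a (k + 2) ≤ a (k + 1)) →
      (∀ k, 0 ≤ w k ∧ w k ≤ a (k + 1) ^ 2) → (∀ k, 0 < ε k ∧ ε k ≤ a (k + 1) ^ 2) →
      (∀ k, Up (g k) (g (k + 1)) (a k) (w k)) →
      (∀ k, Low (g k) (g (k + 1)) (a k) (ε k) (2 * ρM + 3) ρM) → (∀ k, Lb (g k) E ρM) →
      (∀ k β, 0 < β → ∀ r, 0 ≤ r → gi β r ≤ g k β r) →
      (∀ γ, 0 < γ → ∀ᶠ k in atTop, Low (g k) gi 0 γ (2 * ρM + 3) ρM) → Lim gi n := by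
  obtain ⟨X, hX⟩ : ∃ X, X = 4 * ((2 * ρM + 3) * ρM + ρM ^ 2 + 1 + E) := ⟨_, rfl⟩
  have hρ1 : 1 ≤ ρM := by linarith
  have hn0 : 0 < n := by linarith
  obtain ⟨η, ⟨⟨⟨⟨⟨e1, e2⟩, e3⟩, e4⟩, e5⟩, e6⟩, hη0⟩ := (((((((eventually_mul_le ρM
    (c := 1 / 16000) (by norm_num)).and (eventually_mul_le (6 + 2 * ρM)
    (c := 2 / n * (1 / (8000 * ρM)) ^ 2 / 4) (by positivity))).and
    (eventually_mul_le ((6 + 2 * ρM) / (2 / n / (64 * X))) (c := 1 / 4000) (by norm_num))).and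
    (eventually_mul_le (3 + 2 * ρM) (c := (1 / 8000) ^ 2) (by norm_num))).and
    (eventually_mul_le (64 * X * (3 + 2 * ρM) + 2 * ρM + ρM ^ 2) (c := 1 / 4000)
      (by norm_num))).and (eventually_mul_le (1 + ρM ^ 2) (c := 1 / 4000) (by norm_num))).and
    self_mem_nhdsWithin).exists
  replace hη0 : 0 < η := hη0
  have hη1 : η ≤ 1 / 16000 := by nlinarith
  refine ⟨η, hη0, by linarith, fun g gi a w ε hg hI ha0 ha hanti hw hε hup hlow hlb hi hfin => ?_⟩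
  have hah : ∀ k, a (k + 1) ≤ η * ((1 / 2) ^ k) ^ 2 := fun k => by
    refine (ha k).2.trans (le_of_eq ?_)
    rw [← pow_mul, mul_comm k, pow_mul, div_eq_mul_inv, ← inv_pow]; norm_num
  have hh0 : ∀ k : ℕ, (0 : ℝ) < (1 / 2) ^ k := fun k => by positivity
  have hh1 : ∀ k : ℕ, ((1 : ℝ) / 2) ^ k ≤ 1 := fun k => pow_le_one₀ (by norm_num) (by norm_num)
  have hah' : ∀ k, a (k + 1) ≤ η * (1 / 2) ^ k := fun k =>
    (hah k).trans (mul_le_mul_of_nonneg_left (by nlinarith [hh0 k, hh1 k]) hη0.le)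
  have haη : ∀ k, a (k + 1) ≤ η := fun k =>
    (hah' k).trans (mul_le_of_le_one_right hη0.le (hh1 k))
  have hsq : ∀ k, a (k + 1) ^ 2 ≤ a (k + 1) := fun k => by nlinarith [(ha k).1, haη k]
  have hup0 := hup 0
  have hlow0 := hlow 0
  rw [ha0] at hup0 hlow0
  have hinv : ∀ k : ℕ, Inv (g (k + 1)) ![0, 1, n] ![0, -1 / n, -n] (1 / 1000 * (1 - (1 / 2) ^ k / 2))
      (1 / 1000 * (1 - (1 / 2) ^ k / 2)) (3 / 4 - (1 / 2) ^ k / 8) (7 / 4 + (1 / 2) ^ k / 8)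
      (1 + (1 / 2) ^ k) ((2 + 2 * ρM) * a (k + 1) ^ 2) := by
    intro k
    induction k with
    | zero =>
      have := step_zero hn hρ hE hX (hg 0) hI hη0 e1 e2 e3 (hw 0).1 (hw 0).2 (hε 0).1 (hε 0).2
        ((hsq 0).trans (haη 0)) hup0 hlow0 (hlb 0)
      convert this using 1 <;> norm_num
    | succ k ih =>
      have := step_succ hn hρ hE hX (hg (k + 1)) (hh0 k) (hh1 k) ih hη0 e1 e4 e5 (ha k).1 (hah k)
        (hw (k + 1)).1 (hw (k + 1)).2 (hε (k + 1)).1 (hε (k + 1)).2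
        (pow_le_pow_left₀ (ha (k + 1)).1.le (hanti k) 2) (hup (k + 1)) (hlow (k + 1)) (hlb (k + 1))
      rwa [show ((1 : ℝ) / 2) ^ (k + 1) = (1 / 2) ^ k / 2 by ring]
  have hμ : |(-1 : ℝ) / n| ≤ 2 * ρM + 3 := (abs_neg_one_div_le hn).trans (by linarith)
  have hco : ∀ k : ℕ, ∀ ρ, 0 ≤ ρ → -ρ / n - g (k + 1) 1 ρ ≤ 1 / 1000 * (1 - (1 / 2) ^ k / 2) := by
    intro k
    induction k with
    | zero =>
      intro ρ h0
      have := hI.co hn hρ hlow0 ρ h0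
      have := (hε 0).2.trans ((hsq 0).trans (haη 0))
      norm_num at *
      linarith
    | succ k ih =>
      intro ρ h0
      have h1 := hlow (k + 1) 1 (by norm_num) (by norm_num) (-1 / n) hμ ρ h0
        (1 / 1000 * (1 - (1 / 2) ^ k / 2) + a (k + 1) * ρM ^ 2) fun r r0 r1 => by
          have h1 := ih r r0
          have h2 := mul_le_mul_of_nonneg_left (pow_le_pow_left₀ r0 r1 2) (ha k).1.le
          have h3 : 0 ≤ a (k + 1) * r ^ 2 := by have := (ha k).1; positivity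
          have e : -r / n = -1 / n * r := by ring
          linarith
      have h2 := (hε (k + 1)).2.trans ((hsq (k + 1)).trans (hanti k))
      have h3 := mul_le_mul_of_nonneg_left (hah' k) (show 0 ≤ 1 + ρM ^ 2 by positivity)
      have h4 := mul_le_mul_of_nonneg_right e6 (hh0 k).le
      have e : -ρ / n = -1 / n * ρ := by ring
      rw [show ((1 : ℝ) / 2) ^ (k + 1) = (1 / 2) ^ k / 2 by ring]
      linarith
  have hfin' : ∀ γ, 0 < γ → ∀ᶠ k in atTop, Low (g (k + 1)) gi 0 γ (2 * ρM + 3) ρM := fun γ hγ =>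
    (tendsto_add_atTop_nat 1).eventually (hfin γ hγ)
  refine ⟨fun δ hδ => ?_, fun ρ h0 => le_of_forall_pos_le_add fun γ hγ => ?_, fun i => ?_⟩
  · have ht : Tendsto (fun k : ℕ => (2 + 2 * ρM) * ((1 : ℝ) / 2) ^ k) atTop (𝓝 0) := by
      simpa using (tendsto_pow_atTop_nhds_zero_of_lt_one (r := (1 : ℝ) / 2) (by norm_num)
        (by norm_num)).const_mul (2 + 2 * ρM)
    obtain ⟨k, k1, k2⟩ := ((hfin' (δ / 4) (by linarith)).and
      (ht.eventually (ge_mem_nhds (show 0 < δ / 2 by linarith)))).exists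
    have h1 : a (k + 1) ^ 2 ≤ (1 / 2) ^ k :=
      (hsq k).trans ((hah' k).trans (mul_le_of_le_one_left (hh0 k).le (by linarith)))
    have h2 := mul_le_mul_of_nonneg_left h1 (show 0 ≤ 2 + 2 * ρM by linarith)
    have h3 := hh0 k
    have h4 := hh1 k
    exact ((hinv k).transfer k1 (hlb _) (by linarith) (hi _) (by linarith) (by linarith)
      (by linarith) (by linarith)).mono (y := 0) (by linarith) (fun i => by simp) (by linarith)
      (by linarith) (by linarith) (by linarith) (by linarith)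
  · obtain ⟨k, k1⟩ := (hfin' γ hγ).exists
    have := k1 1 (by norm_num) (by norm_num) (-1 / n) hμ ρ h0 (1 / 1000) fun r r0 r1 => by
      have h1 := hco k r r0
      have h3 := hh0 k
      have e : -r / n = -1 / n * r := by ring
      linarith
    have e : -ρ / n = -1 / n * ρ := by ring
    linarith
  · have hw0 := (hw 0).2.trans ((hsq 0).trans (haη 0))
    fin_cases i
    · refine ⟨0, 0, 0, ⟨le_rfl, fun β hβ => ?_⟩, by simp, by simp, by simp⟩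
      have := hi 0 β hβ 0 le_rfl
      rw [(hg 0).zero β hβ] at this
      simpa using this
    · obtain ⟨r, r0, r1, r2⟩ := hI.st₁
      have := exists_plane (c := 1) hn hρ hη0.le e1 (hw 0).1 hw0 hup0 (hi 1) zero_le_one
        (by linarith) r0 r1 fun β hβ => by simpa using r2 β hβ
      simpa [neg_div] using this
    · obtain ⟨r, r0, r1, r2⟩ := hI.st₂
      have := exists_plane (c := n) hn hρ hη0.le e1 (hw 0).1 hw0 hup0 (hi 1) hn0.le le_rfl r0 r1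
        fun β hβ => by
          rw [show (n ^ 2 - n) / n = n - 1 by field_simp]; exact r2 β hβ
      rw [show n ^ 2 / n = n by field_simp] at this
      simpa using this

end Crest.Agent.R149
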