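import Mathlib

/-!
# Row 149: the abstract invariant and one Kac step

`g β ρ` is `β` times the free energy.  An admissible plane `(ρ, e, σ)` bounds `g · ρ` from above;
the invariant says that the pressure is computed, up to `δ`, by admissible planes in three windows.
-/

set_option autoImplicit false
open Set

namespace Crest.Agent.R149

/-- concave in `β`, convex in `ρ`, zero at `ρ = 0` -/
structure FE (g : ℝ → ℝ → ℝ) : Prop where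
  conc : ∀ ρ, 0 ≤ ρ → ConcaveOn ℝ (Ioi 0) (fun β => g β ρ)
  conv : ∀ β, 0 < β → ConvexOn ℝ (Ici 0) (g β)
  zero : ∀ β, 0 < β → g β 0 = 0

/-- admissible plane -/
def Adm (g : ℝ → ℝ → ℝ) (ρ e σ : ℝ) : Prop := 0 ≤ ρ ∧ ∀ β, 0 < β → g β ρ ≤ β * e - σ

/-- the invariant -/
def Inv (g : ℝ → ℝ → ℝ) (c d : Fin 3 → ℝ) (u v β₁ β₂ M δ : ℝ) : Prop :=
  ∀ β, β₁ ≤ β → β ≤ β₂ → ∀ μ, |μ| ≤ M → ∀ ρ, 0 ≤ ρ → ∃ i ρ' e' σ', Adm g ρ' e' σ' ∧
    |ρ' - c i| ≤ u ∧ |e' - d i| ≤ v ∧ μ * ρ - g β ρ ≤ μ * ρ' - β * e' + σ' + δ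

theorem Inv.mono {g : ℝ → ℝ → ℝ} {c d d' : Fin 3 → ℝ} {u v β₁ β₂ M δ u' v' β₁' β₂' M' δ' y : ℝ}
    (h : Inv g c d u v β₁ β₂ M δ) (hu : u ≤ u') (hd : ∀ i, |d i - d' i| ≤ y) (hv : v + y ≤ v')
    (h1 : β₁ ≤ β₁') (h2 : β₂' ≤ β₂) (hM : M' ≤ M) (hδ : δ ≤ δ') :
    Inv g c d' u' v' β₁' β₂' M' δ' := by
  intro β hb1 hb2 μ hμ ρ hρ
  obtain ⟨i, ρ', e', σ', a1, a2, a3, a4⟩ := h β (h1.trans hb1) (hb2.trans h2) μ (hμ.trans hM) ρ hρ
  refine ⟨i, ρ', e', σ', a1, a2.trans hu, ?_, by linarith⟩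
  have := abs_sub_le e' (d i) (d' i)
  linarith [hd i]

theorem exists_supergrad {f : ℝ → ℝ} (hf : ConcaveOn ℝ (Ioi 0) f) {β : ℝ} (hβ : 0 < β) :
    ∃ e, ∀ β', 0 < β' → f β' ≤ f β + e * (β' - β) := by
  have hc := hf.neg
  have hi : β ∈ interior (Ioi (0 : ℝ)) := by rw [interior_Ioi]; exact hβ
  refine ⟨- derivWithin (-f) (Ioi β) β, fun β' hβ' => ?_⟩
  rcases lt_trichotomy β' β with h | h | h
  · have h1 := (hc.slope_le_leftDeriv_of_mem_interior hβ' hi h).trans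
      (hc.leftDeriv_le_rightDeriv_of_mem_interior hi)
    rw [slope_def_field, div_le_iff₀ (sub_pos.2 h)] at h1
    simp only [Pi.neg_apply] at h1
    linarith
  · simp [h]
  · have h1 := hc.rightDeriv_le_slope_of_mem_interior hi hβ' h
    rw [slope_def_field, le_div_iff₀ (sub_pos.2 h)] at h1
    simp only [Pi.neg_apply] at h1
    linarith

theorem exists_near_max {f : ℝ → ℝ} {b B ε : ℝ} (hb : 0 ≤ b) (hB : ∀ r, 0 ≤ r → r ≤ b → f r ≤ B)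
    (hε : 0 < ε) : ∃ m, 0 ≤ m ∧ m ≤ b ∧ ∀ r, 0 ≤ r → r ≤ b → f r ≤ f m + ε := by
  have hne : (f '' Icc 0 b).Nonempty := ⟨f 0, 0, ⟨le_rfl, hb⟩, rfl⟩
  have hbd : BddAbove (f '' Icc 0 b) := ⟨B, by rintro _ ⟨r, hr, rfl⟩; exact hB r hr.1 hr.2⟩
  obtain ⟨_, ⟨m, hm, rfl⟩, h⟩ := exists_lt_of_lt_csSup hne (sub_lt_self (sSup (f '' Icc 0 b)) hε)
  refine ⟨m, hm.1, hm.2, fun r h0 h1 => ?_⟩
  have := le_csSup hbd (mem_image_of_mem f (show r ∈ Icc 0 b from ⟨h0, h1⟩))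
  linarith

/-- the upper bound of a Kac step -/
def Up (g g' : ℝ → ℝ → ℝ) (a w : ℝ) : Prop :=
  ∀ β, 0 < β → ∀ ρ, 0 ≤ ρ → g' β ρ ≤ g β ρ - β * (a * ρ ^ 2 / 2 - w * ρ)

/-- the lower bound of a Kac step -/
def Low (g g' : ℝ → ℝ → ℝ) (a ε M ρM : ℝ) : Prop :=
  ∀ β, 1 / 2 ≤ β → β ≤ 2 → ∀ μ, |μ| ≤ M → ∀ ρ, 0 ≤ ρ → ∀ T,
    (∀ r, 0 ≤ r → r ≤ ρM → μ * r + β * a * r ^ 2 / 2 - g β r ≤ T) → μ * ρ - g' β ρ ≤ T + ε

/-- a uniform lower bound -/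
def Lb (g : ℝ → ℝ → ℝ) (E ρM : ℝ) : Prop :=
  ∀ β, 1 / 4 ≤ β → β ≤ 4 → ∀ r, 0 ≤ r → r ≤ ρM → -E ≤ g β r

theorem abs_grad_le {g : ℝ → ℝ → ℝ} {E ρM β m e Y : ℝ} (hE : Lb g E ρM) (h1 : 1 / 2 ≤ β)
    (h2 : β ≤ 2) (hm0 : 0 ≤ m) (hm : m ≤ ρM) (hY : g β m ≤ Y)
    (he : ∀ β', 0 < β' → g β' m ≤ g β m + e * (β' - β)) : |e| ≤ 4 * (Y + E) := by
  have a1 := he (β / 2) (by linarith)
  have a2 := he (2 * β) (by linarith)
  have a3 := hE (β / 2) (by linarith) (by linarith) m hm0 hm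
  have a4 := hE (2 * β) (by linarith) (by linarith) m hm0 hm
  have a5 := hE β (by linarith) (by linarith) m hm0 hm
  rw [abs_le]
  constructor
  · by_contra hc
    push Not at hc
    nlinarith
  · by_contra hc
    push Not at hc
    nlinarith

theorem step {g g' : ℝ → ℝ → ℝ} (hg : FE g) {c d : Fin 3 → ℝ} {u v β₁ β₂ M δ : ℝ}
    (hI : Inv g c d u v β₁ β₂ M δ) {a w ε ρM E s τ G X M₀ : ℝ} (hβ₁ : 1 / 2 ≤ β₁) (hβ₂ : β₂ ≤ 2)
    (ha : 0 < a) (ha1 : a ≤ 1) (hw : 0 ≤ w) (hε : 0 < ε) (hMM : M ≤ M₀) (hup : Up g g' a w)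
    (hlow : Low g g' a ε M₀ ρM) (hE : Lb g E ρM) (hc0 : ∀ i, 0 ≤ c i) (hc : ∀ i, c i + u ≤ ρM)
    (hu : 0 ≤ u) (hs : 0 ≤ s) (hs' : δ + ε ≤ a * s ^ 2 / 4) (hG0 : 0 ≤ G)
    (hG : ∀ i j, i ≠ j → G + 2 * u + s ≤ |c i - c j|)
    (hX : 4 * (M₀ * ρM + ρM ^ 2 + ε + E) ≤ X) (hX' : ∀ i, |d i| + v ≤ X) (hτ : 0 < τ)
    (hτ' : 2 * τ * X + δ + ε < a * G ^ 2 / 4) :
    Inv g' c (fun i => d i - a * c i ^ 2 / 2) (u + s) (v + (δ + ε) / τ + a * (u + s) * ρM + w * ρM)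
      (β₁ + τ) (β₂ - τ) (M - 2 * a * ρM) (2 * ε + 2 * w * ρM) := by
  intro β hb1 hb2 μ hμ ρ hρ
  have hρM : 0 ≤ ρM := by linarith [hc0 0, hc 0]
  have hβ0 : 0 < β := by linarith
  have hβh : 1 / 2 ≤ β := by linarith
  have hβ2 : β ≤ 2 := by linarith
  have haρ : 0 ≤ a * ρM := by positivity
  have hμM : |μ| ≤ M₀ := by linarith
  have hbound : ∀ r, 0 ≤ r → r ≤ ρM → μ * r + β * a * r ^ 2 / 2 ≤ M₀ * ρM + ρM ^ 2 := by
    intro r h0 h1
    have b1 : μ * r ≤ M₀ * ρM :=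
      mul_le_mul ((le_abs_self μ).trans hμM) h1 h0 ((abs_nonneg μ).trans hμM)
    have b2 : r ^ 2 ≤ ρM ^ 2 := pow_le_pow_left₀ h0 h1 2
    have b3 : β * a ≤ 2 := by nlinarith
    have b4 : β * a * r ^ 2 ≤ 2 * ρM ^ 2 := mul_le_mul b3 b2 (sq_nonneg _) (by norm_num)
    linarith
  obtain ⟨m, hm0, hm1, hm⟩ := exists_near_max
    (f := fun r => μ * r + β * a * r ^ 2 / 2 - g β r) (B := M₀ * ρM + ρM ^ 2 + E) hρM
    (fun r h0 h1 => by
      have := hbound r h0 h1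
      have := hE β (by linarith) (by linarith) r h0 h1
      linarith) hε
  obtain ⟨e, he⟩ := exists_supergrad (hg.conc m hm0) hβ0
  have hgm : g β m ≤ M₀ * ρM + ρM ^ 2 + ε := by
    have h1 := hm 0 le_rfl hρM
    have h2 := hbound m hm0 hm1
    simp only [hg.zero β hβ0] at h1
    linarith
  have heX : |e| ≤ X := (abs_grad_le hE hβh hβ2 hm0 hm1 hgm he).trans hX
  set μ' : ℝ := μ + β * a * m with hμ'
  have hμ'M : |μ'| ≤ M := by
    have b1 : β * a * m ≤ 2 * a * ρM := by gcongr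
    have b2 : 0 ≤ β * a * m := by positivity
    have := abs_add_le μ (β * a * m)
    rw [abs_of_nonneg b2] at this
    linarith
  have test : ∀ β', β₁ ≤ β' → β' ≤ β₂ → ∃ i ρ' e', |ρ' - c i| ≤ u ∧ |e' - d i| ≤ v ∧
      (β' - β) * (e' - e) + a * (ρ' - m) ^ 2 / 4 ≤ δ + ε := by
    intro β' h1 h2
    obtain ⟨i, ρ', e', σ', b1, b2, b3, b4⟩ := hI β' h1 h2 μ' hμ'M m hm0
    refine ⟨i, ρ', e', b2, b3, ?_⟩
    have b5 := hm ρ' b1.1 (by linarith [hc i, (abs_le.1 b2).2])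
    have b6 := b1.2 β hβ0
    have b7 := he β' (by linarith)
    have b8 : a * (ρ' - m) ^ 2 / 4 ≤ β * a * (ρ' - m) ^ 2 / 2 := by
      have : 0 ≤ a * (ρ' - m) ^ 2 := by positivity
      nlinarith
    rw [hμ'] at b4
    nlinarith
  obtain ⟨i, ρ₀, e₀, i1, -, i3⟩ := test β (by linarith) (by linarith)
  have hms : |ρ₀ - m| ≤ s := by
    rw [sub_self, zero_mul, zero_add] at i3
    refine abs_le_of_sq_le_sq' ?_ hs |> abs_le.2
    by_contra hcon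
    push Not at hcon
    nlinarith
  have hmc : |m - c i| ≤ u + s := by
    have := abs_sub_le m ρ₀ (c i)
    rw [abs_sub_comm m ρ₀] at this
    linarith
  have test' : ∀ β', |β' - β| = τ → ∃ e', |e' - d i| ≤ v ∧ (β' - β) * (e' - e) ≤ δ + ε := by
    intro β' hβ'
    have hb := abs_le.1 hβ'.le
    obtain ⟨j, ρ', e', j1, j2, j3⟩ := test β' (by linarith [hb.1]) (by linarith [hb.2])
    have hq : 0 ≤ a * (ρ' - m) ^ 2 / 4 := by positivity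
    by_cases hij : j = i
    · exact ⟨e', hij ▸ j2, by linarith⟩
    · exfalso
      have b1 := hG j i hij
      have b2 : |c j - c i| ≤ |c j - ρ'| + |ρ' - m| + |m - c i| := by
        have := abs_sub_le (c j) ρ' (c i)
        have := abs_sub_le ρ' m (c i)
        linarith
      rw [abs_sub_comm (c j) ρ'] at b2
      have b3 : G ≤ |ρ' - m| := by linarith
      have b4 : G ^ 2 ≤ (ρ' - m) ^ 2 := by
        rw [← sq_abs (ρ' - m)]; exact pow_le_pow_left₀ hG0 b3 2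
      have b5 : |e' - e| ≤ 2 * X := by
        have := abs_sub e' e
        have h' : |e'| ≤ |e' - d j| + |d j| := by simpa using abs_add_le (e' - d j) (d j)
        linarith [hX' j]
      have b6 : |(β' - β) * (e' - e)| ≤ τ * (2 * X) := by
        rw [abs_mul, hβ']; exact mul_le_mul_of_nonneg_left b5 hτ.le
      have b7 := (abs_le.1 b6).1
      have b8 : a * G ^ 2 ≤ a * (ρ' - m) ^ 2 := mul_le_mul_of_nonneg_left b4 ha.le
      linarith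
  obtain ⟨e₁, k1, k2⟩ := test' (β + τ) (by rw [add_sub_cancel_left, abs_of_pos hτ])
  obtain ⟨e₂, k3, k4⟩ := test' (β - τ) (by rw [sub_sub_cancel_left, abs_neg, abs_of_pos hτ])
  have hed : |e - d i| ≤ v + (δ + ε) / τ := by
    have l1 : e₁ - e ≤ (δ + ε) / τ := by rw [le_div_iff₀ hτ]; linarith
    have l2 : e - e₂ ≤ (δ + ε) / τ := by rw [le_div_iff₀ hτ]; linarith
    have l3 := abs_le.1 k1
    have l4 := abs_le.1 k3
    rw [abs_le]
    constructor <;> linarith [l3.1, l3.2, l4.1, l4.2]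
  refine ⟨i, m, e - (a * m ^ 2 / 2 - w * m), β * e - g β m, ⟨hm0, fun β' hβ' => ?_⟩, hmc, ?_, ?_⟩
  · have := hup β' hβ' m hm0
    have := he β' hβ'
    nlinarith
  · have l1 : e - (a * m ^ 2 / 2 - w * m) - (d i - a * c i ^ 2 / 2) =
        (e - d i) + (-(a * ((m - c i) * ((m + c i) / 2))) + w * m) := by ring
    have l2 : |a * ((m - c i) * ((m + c i) / 2))| ≤ a * (u + s) * ρM := by
      have : 0 ≤ (m + c i) / 2 := by linarith [hc0 i]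
      rw [abs_mul, abs_mul, abs_of_pos ha, abs_of_nonneg this, mul_assoc]
      refine mul_le_mul_of_nonneg_left (mul_le_mul hmc ?_ this (by linarith)) ha.le
      linarith [hc i]
    have l3 : |w * m| ≤ w * ρM := by
      rw [abs_of_nonneg (by positivity)]; exact mul_le_mul_of_nonneg_left hm1 hw
    rw [l1]
    have l4 := abs_add_le (e - d i) (-(a * ((m - c i) * ((m + c i) / 2))) + w * m)
    have l5 := abs_add_le (-(a * ((m - c i) * ((m + c i) / 2)))) (w * m)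
    rw [abs_neg] at l5
    linarith
  · have l1 := hlow β hβh hβ2 μ hμM ρ hρ _ hm
    have l2 : β * (w * m) ≤ 2 * (w * ρM) :=
      mul_le_mul hβ2 (mul_le_mul_of_nonneg_left hm1 hw) (by positivity) (by norm_num)
    have l3 : μ * m - β * (e - (a * m ^ 2 / 2 - w * m)) + (β * e - g β m) + (2 * ε + 2 * w * ρM) =
        (μ * m + β * a * m ^ 2 / 2 - g β m + ε) + ε + (2 * (w * ρM) - β * (w * m)) := by ring
    rw [l3]
    linarith

end Crest.Agent.R149
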