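import Crest.Agent.R149.Defs

/-!
# Row 149: elementary properties of `eE`, `En`, `Y`, `W`
-/

set_option autoImplicit false
open MeasureTheory Set Filter Topology Crest.ProbabilityR.Continuum
open scoped ENNReal

namespace Crest.Agent.R149

theorem eE_add (s t : ℝ) : eE (s + t) = eE s * eE t := by
  unfold eE
  rw [Real.exp_add, ENNReal.ofReal_mul (Real.exp_pos s).le]

theorem eE_zero : eE 0 = 1 := by
  simp [eE]

theorem eE_le_iff {s t : ℝ} : eE s ≤ eE t ↔ s ≤ t := by
  unfold eE
  rw [ENNReal.ofReal_le_ofReal_iff (Real.exp_pos t).le, Real.exp_le_exp]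

theorem eE_mono {s t : ℝ} (h : s ≤ t) : eE s ≤ eE t := by
  exact eE_le_iff.2 h

theorem eE_ne_zero (t : ℝ) : eE t ≠ 0 := by
  unfold eE
  exact (ENNReal.ofReal_pos.2 (Real.exp_pos t)).ne'

theorem eE_ne_top (t : ℝ) : eE t ≠ ⊤ := by
  exact ENNReal.ofReal_ne_top

theorem eE_sum {κ : Type*} (s : Finset κ) (f : κ → ℝ) : eE (∑ k ∈ s, f k) = ∏ k ∈ s, eE (f k) := by
  classical
  induction s using Finset.induction_on with
  | empty => simp [eE_zero]
  | insert a s ha ih => rw [Finset.sum_insert ha, Finset.prod_insert ha, eE_add, ih]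

theorem eE_pow (t : ℝ) (n : ℕ) : eE t ^ n = eE (n * t) := by
  unfold eE
  rw [Real.exp_nat_mul, ENNReal.ofReal_pow (Real.exp_pos t).le]

theorem eE_log {t : ℝ} (ht : 0 < t) : eE (Real.log t) = ENNReal.ofReal t := by
  unfold eE
  rw [Real.exp_log ht]

theorem measurable_eE : Measurable eE := by
  exact ENNReal.measurable_ofReal.comp Real.measurable_exp

/-- the energy counts each unordered pair once -/
theorem two_energy (φ : ℝ → ℝ) {N : ℕ} (x : Fin N → Pt) :
    2 * energy φ x = ∑ i, ∑ j, if i = j then 0 else φ (dist (x i) (x j)) := by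
  have h1 : energy φ x = ∑ i, ∑ j, if i < j then φ (dist (x i) (x j)) else 0 := by
    unfold energy
    rw [← Finset.sum_subtype (Finset.univ.filter fun p : Fin N × Fin N => p.1 < p.2)
      (p := fun p : Fin N × Fin N => p.1 < p.2) (by simp)
      (fun p : Fin N × Fin N => φ (dist (x p.1) (x p.2))), Finset.sum_filter,
      Fintype.sum_prod_type]
  have h2 : energy φ x = ∑ i, ∑ j, if j < i then φ (dist (x i) (x j)) else 0 := by
    rw [h1, Finset.sum_comm]
    simp only [dist_comm]
  rw [two_mul]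
  nth_rewrite 1 [h1]
  rw [h2, ← Finset.sum_add_distrib]
  refine Finset.sum_congr rfl fun i _ => ?_
  rw [← Finset.sum_add_distrib]
  refine Finset.sum_congr rfl fun j _ => ?_
  rcases lt_trichotomy i j with h | h | h
  · simp [h, h.ne, not_lt.2 h.le]
  · simp [h]
  · simp [h, h.ne', not_lt.2 h.le]

theorem En_rad (φ : ℝ → ℝ) (β : ℝ) {N : ℕ} (x : Fin N → Pt) :
    En (rad φ β) x = β * energy φ x := by
  have h : β * energy φ x = β / 2 * (2 * energy φ x) := by ring
  rw [h, two_energy, En, Finset.mul_sum]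
  refine Finset.sum_congr rfl fun i _ => ?_
  rw [Finset.mul_sum]
  refine Finset.sum_congr rfl fun j _ => ?_
  unfold rad
  split_ifs <;> ring

theorem measurable_rad {φ : ℝ → ℝ} (hφ : Measurable φ) (β : ℝ) :
    Measurable (Function.uncurry (rad φ β)) := by
  exact ((hφ.comp measurable_dist).const_mul β).div_const 2

theorem measurable_En {ι : Type} [Fintype ι] [DecidableEq ι] {ψ : Pt → Pt → ℝ}
    (hψ : Measurable (Function.uncurry ψ)) : Measurable (fun x : ι → Pt => En ψ x) := by
  unfold En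
  refine Finset.measurable_sum _ fun i _ => Finset.measurable_sum _ fun j _ => ?_
  split_ifs
  · exact measurable_const
  · have h : Measurable fun x : ι → Pt => (x i, x j) :=
      (measurable_pi_apply i).prodMk (measurable_pi_apply j)
    exact hψ.comp h

/-- reindexing (`MeasurableEquiv.piCongrLeft` / `arrowCongr'` preserve `volume`) -/
theorem Y_congr (ψ : Pt → Pt → ℝ) (A : Set Pt) {ι κ : Type} [Fintype ι] [DecidableEq ι]
    [Fintype κ] [DecidableEq κ] (e : ι ≃ κ) : Y ψ A ι = Y ψ A κ := by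
  have hm := volume_preserving_arrowCongr' e (MeasurableEquiv.refl Pt) (MeasurePreserving.id volume)
  have := hm.setLIntegral_comp_preimage_emb (MeasurableEquiv.measurableEmbedding _)
    (fun x : κ → Pt => eE (-En ψ x)) (Set.pi univ fun _ => A)
  unfold Y
  rw [← this]
  have he : ∀ (x : ι → Pt) (k : κ),
      (MeasurableEquiv.arrowCongr' e (MeasurableEquiv.refl Pt)) x k = x (e.symm k) :=
    fun _ _ => rfl
  have hs : (MeasurableEquiv.arrowCongr' e (MeasurableEquiv.refl Pt)) ⁻¹'
      (Set.pi univ fun _ => A) = Set.pi univ fun _ => A := by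
    ext x
    simp only [mem_preimage, Set.mem_pi, mem_univ, forall_true_left, he]
    exact ⟨fun h i => by simpa using h (e i), fun h k => h _⟩
  rw [hs]
  refine lintegral_congr fun x => ?_
  congr 2
  unfold En
  simp only [he]
  rw [← e.sum_comp]
  refine Finset.sum_congr rfl fun i _ => ?_
  rw [← e.sum_comp]
  simp

theorem Y_eq_W (ψ : Pt → Pt → ℝ) (A : Set Pt) (ι : Type) [Fintype ι] [DecidableEq ι] :
    Y ψ A ι = ((Fintype.card ι).factorial : ℝ≥0∞) * W ψ A (Fintype.card ι) := by
  unfold W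
  rw [ENNReal.mul_div_cancel (by simp [Nat.factorial_ne_zero]) (by simp)]
  exact Y_congr ψ A (Fintype.equivFin ι)

theorem W_mono_set (ψ : Pt → Pt → ℝ) {A B : Set Pt} (h : A ⊆ B) (N : ℕ) : W ψ A N ≤ W ψ B N := by
  unfold W Y
  exact ENNReal.div_le_div_right (lintegral_mono_set (Set.pi_mono fun _ _ => h)) _

theorem W_le_of_En {ψ ψ' : Pt → Pt → ℝ} {A : Set Pt} (hA : MeasurableSet A) {N : ℕ} {c : ℝ}
    (h : ∀ x : Fin N → Pt, (∀ i, x i ∈ A) → En ψ' x - c ≤ En ψ x) :
    W ψ A N ≤ eE c * W ψ' A N := by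
  unfold W Y
  rw [← mul_div_assoc, ← lintegral_const_mul' _ _ (eE_ne_top c)]
  refine ENNReal.div_le_div_right (setLIntegral_mono' (MeasurableSet.univ_pi fun _ => hA)
    fun x hx => ?_) _
  rw [← eE_add]
  exact eE_mono (by linarith [h x fun i => hx i (mem_univ i)])

theorem BasicAux.W_of_En_zero (ψ : Pt → Pt → ℝ) (A : Set Pt) {N : ℕ}
    (h : ∀ x : Fin N → Pt, En ψ x = 0) : W ψ A N = volume A ^ N / (N.factorial : ℝ≥0∞) := by
  unfold W Y
  simp only [h, neg_zero, eE_zero, lintegral_const, one_mul, Measure.restrict_apply_univ]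
  rw [volume_pi_pi]
  simp

theorem W_zero (ψ : Pt → Pt → ℝ) (A : Set Pt) : W ψ A 0 = 1 := by
  rw [BasicAux.W_of_En_zero ψ A fun x => by simp [En]]
  simp

theorem W_one (ψ : Pt → Pt → ℝ) (A : Set Pt) : W ψ A 1 = volume A := by
  rw [BasicAux.W_of_En_zero ψ A fun x => by simp [En]]
  simp

theorem W_empty (ψ : Pt → Pt → ℝ) {N : ℕ} (hN : N ≠ 0) : W ψ ∅ N = 0 := by
  unfold W Y
  have : (Set.pi univ fun _ : Fin N => (∅ : Set Pt)) = ∅ :=
    Set.univ_pi_eq_empty (i := ⟨0, Nat.pos_of_ne_zero hN⟩) rfl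
  simp [this]

/-- translation invariance (`x ↦ x + fun _ => v` is a measure preserving measurable equivalence;
`MeasurePreserving.setLIntegral_comp_preimage_emb`) -/
theorem W_le_of_translate (φ : ℝ → ℝ) (β : ℝ) {A B : Set Pt} (v : Pt)
    (h : ∀ x ∈ A, x + v ∈ B) (N : ℕ) : W (rad φ β) A N ≤ W (rad φ β) B N := by
  unfold W Y
  refine ENNReal.div_le_div_right ?_ _
  have hm : MeasurePreserving (fun x : Fin N → Pt => x + fun _ => v) volume volume :=
    measurePreserving_add_right volume _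
  have := hm.setLIntegral_comp_preimage_emb (measurableEmbedding_addRight _)
    (fun x : Fin N → Pt => eE (-En (rad φ β) x)) (Set.pi univ fun _ => B)
  rw [← this]
  refine le_trans (le_of_eq (lintegral_congr fun x => ?_))
    (lintegral_mono_set fun x hx i _ => h _ (hx i (mem_univ i)))
  simp [En, rad]

/-- the ideal gas -/
theorem W_free (A : Set Pt) (N : ℕ) :
    W (fun _ _ => 0) A N = volume A ^ N / (N.factorial : ℝ≥0∞) := by
  exact BasicAux.W_of_En_zero _ A fun x => by simp [En]

theorem pow_div_factorial_le {V : ℝ} (hV : 0 ≤ V) (N : ℕ) :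
    ENNReal.ofReal V ^ N / (N.factorial : ℝ≥0∞) ≤ eE V := by
  rw [← ENNReal.ofReal_pow hV, ← ENNReal.ofReal_natCast,
    ← ENNReal.ofReal_div_of_pos (by exact_mod_cast N.factorial_pos)]
  exact ENNReal.ofReal_le_ofReal (Real.pow_div_factorial_le_exp V hV N)

end Crest.Agent.R149
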