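import Crest.Agent.R149.Link

/-!
# Row 149: grids of cells
-/

set_option autoImplicit false
set_option linter.unusedVariables false
open MeasureTheory Set Filter Topology Crest.ProbabilityR.Continuum
open scoped ENNReal

namespace Crest.Agent.R149

namespace CellsAux

theorem measurable_cl (l : ℕ) (t : Fin 3 → ℤ) : Measurable (cl l t) := by
  refine measurable_pi_iff.2 fun k => ?_
  have h1 : Measurable fun x : Pt => ⌊x k⌋ := (by fun_prop : Measurable fun x : Pt => x k).floor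
  exact (measurable_from_top (f := fun n : ℤ => (n + t k) / (l : ℤ))).comp h1

theorem card_step {l : ℕ} (hl : 1 ≤ l) (c : ℤ) :
    ((Finset.Ico (0 : ℤ) l).filter fun t => (c + t) / l ≠ (c + 1 + t) / l).card ≤ 1 := by
  have hl' : (0 : ℤ) < l := by exact_mod_cast hl
  have key : ∀ t : ℤ, (c + t) / l ≠ (c + 1 + t) / l → (l : ℤ) ∣ c + 1 + t := by
    intro t ht
    obtain ⟨h1, h2⟩ := (Int.ediv_eq_iff_of_pos (x := c + t) hl').1 rfl
    refine ⟨(c + t) / l + 1, ?_⟩
    by_contra hne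
    refine ht ((Int.ediv_eq_iff_of_pos hl').2 ⟨by omega, ?_⟩).symm
    rw [mul_add, mul_one, mul_comm] at hne
    omega
  refine Finset.card_le_one.2 fun a ha b hb => ?_
  obtain ⟨ha1, ha2⟩ := Finset.mem_filter.1 ha
  obtain ⟨hb1, hb2⟩ := Finset.mem_filter.1 hb
  rw [Finset.mem_Ico] at ha1 hb1
  have h1 : (l : ℤ) ∣ a - b := by
    have := dvd_sub (key a ha2) (key b hb2)
    rwa [show c + 1 + a - (c + 1 + b) = a - b by ring] at this
  have h2 := Int.eq_zero_of_abs_lt_dvd h1 (by rw [abs_lt]; omega)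
  omega

theorem card_nat {l : ℕ} (hl : 1 ≤ l) (a : ℤ) (n : ℕ) :
    ((Finset.Ico (0 : ℤ) l).filter fun t => (a + t) / l ≠ (a + n + t) / l).card ≤ n := by
  induction n with
  | zero => simp
  | succ n ih =>
    refine le_trans (Finset.card_le_card (t :=
      ((Finset.Ico (0 : ℤ) l).filter fun t => (a + t) / l ≠ (a + n + t) / l) ∪
      ((Finset.Ico (0 : ℤ) l).filter fun t => (a + n + t) / l ≠ (a + n + 1 + t) / l)) ?_)
      ((Finset.card_union_le _ _).trans (Nat.add_le_add ih (card_step hl _)))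
    intro t ht
    obtain ⟨h1, h2⟩ := Finset.mem_filter.1 ht
    rw [Finset.mem_union, Finset.mem_filter, Finset.mem_filter]
    by_cases h : (a + t) / l = (a + n + t) / l
    · refine Or.inr ⟨h1, ?_⟩
      rw [← h]
      rwa [Nat.cast_succ, ← add_assoc] at h2
    · exact Or.inl ⟨h1, h⟩

theorem card_int {l : ℕ} (hl : 1 ≤ l) (a b : ℤ) :
    (((Finset.Ico (0 : ℤ) l).filter fun t => (a + t) / l ≠ (b + t) / l).card : ℤ) ≤ |a - b| := by
  rcases le_total a b with h | h
  · obtain ⟨n, rfl⟩ := Int.le.dest h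
    have := card_nat hl a n
    rw [show a - (a + n) = -(n : ℤ) by ring, abs_neg, Nat.abs_cast]
    exact_mod_cast this
  · obtain ⟨n, rfl⟩ := Int.le.dest h
    have := card_nat hl b n
    rw [show b + n - b = (n : ℤ) by ring, Nat.abs_cast]
    simp only [ne_comm (a := (b + n + _) / _)]
    exact_mod_cast this

theorem card_sep {l : ℕ} (hl : 1 ≤ l) (x y : Pt) {R' : ℝ} (hd : dist x y ≤ R') :
    (((Fintype.piFinset fun _ : Fin 3 => Finset.Ico (0 : ℤ) l).filter
      fun t => ¬ cl l t x = cl l t y).card : ℝ) ≤ 3 * (R' + 1) * (l : ℝ) ^ 2 := by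
  classical
  set B : Fin 3 → Finset ℤ := fun k =>
    (Finset.Ico (0 : ℤ) l).filter fun t => (⌊x k⌋ + t) / l ≠ (⌊y k⌋ + t) / l with hB
  have hBc : ∀ k, ((B k).card : ℝ) ≤ R' + 1 := fun k => by
    have h1 : (((B k).card : ℤ) : ℝ) ≤ ((|⌊x k⌋ - ⌊y k⌋| : ℤ) : ℝ) := by
      exact_mod_cast card_int hl _ _
    have h2 : |x k - y k| ≤ R' := by
      rw [← Real.dist_eq]; exact (PiLp.dist_apply_le x y k).trans hd
    push_cast at h1
    refine h1.trans (abs_le.2 ?_)
    obtain ⟨h3, h4⟩ := abs_le.1 h2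
    constructor <;>
      linarith [Int.floor_le (x k), Int.floor_le (y k), Int.lt_floor_add_one (x k),
        Int.lt_floor_add_one (y k)]
  have hsub : ((Fintype.piFinset fun _ : Fin 3 => Finset.Ico (0 : ℤ) l).filter
      fun t => ¬ cl l t x = cl l t y) ⊆ Finset.univ.biUnion fun k =>
        Fintype.piFinset (Function.update (fun _ : Fin 3 => Finset.Ico (0 : ℤ) l) k (B k)) := by
    intro t ht
    obtain ⟨h1, h2⟩ := Finset.mem_filter.1 ht
    obtain ⟨k, hk⟩ := Function.ne_iff.1 h2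
    rw [Fintype.mem_piFinset] at h1
    refine Finset.mem_biUnion.2 ⟨k, Finset.mem_univ _, Fintype.mem_piFinset.2 fun j => ?_⟩
    by_cases hj : j = k
    · subst hj
      rw [Function.update_self]
      exact Finset.mem_filter.2 ⟨h1 j, hk⟩
    · rw [Function.update_of_ne hj]; exact h1 j
  have hcard : ∀ k, (Fintype.piFinset (Function.update (fun _ : Fin 3 => Finset.Ico (0 : ℤ) l) k
      (B k))).card = (B k).card * l ^ 2 := fun k => by
    rw [Fintype.card_piFinset, Fin.prod_univ_three]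
    fin_cases k <;> simp <;> ring
  have h3 := (Finset.card_le_card hsub).trans Finset.card_biUnion_le
  simp only [hcard, Fin.sum_univ_three] at h3
  have h4 : (((Fintype.piFinset fun _ : Fin 3 => Finset.Ico (0 : ℤ) l).filter
      fun t => ¬ cl l t x = cl l t y).card : ℝ) ≤
      (B 0).card * (l : ℝ) ^ 2 + (B 1).card * (l : ℝ) ^ 2 + (B 2).card * (l : ℝ) ^ 2 := by
    exact_mod_cast h3
  have h5 : (0 : ℝ) ≤ (l : ℝ) ^ 2 := sq_nonneg _
  nlinarith [mul_le_mul_of_nonneg_right (hBc 0) h5, mul_le_mul_of_nonneg_right (hBc 1) h5,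
    mul_le_mul_of_nonneg_right (hBc 2) h5]

end CellsAux

theorem measurableSet_cell (l : ℕ) (t q : Fin 3 → ℤ) : MeasurableSet {x : Pt | cl l t x = q} := by
  exact CellsAux.measurable_cl l t (measurableSet_singleton q)

theorem measurableSet_same_cell (l : ℕ) (t : Fin 3 → ℤ) :
    MeasurableSet {z : Pt × Pt | cl l t z.1 = cl l t z.2} := by
  exact measurableSet_eq_fun ((CellsAux.measurable_cl l t).comp measurable_fst)
    ((CellsAux.measurable_cl l t).comp measurable_snd)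

/-- `cl l t x = q` iff `l * q k - t k ≤ x k < l * q k - t k + l` for all `k` -/
theorem cl_eq_iff {l : ℕ} (hl : 1 ≤ l) (t q : Fin 3 → ℤ) (x : Pt) :
    cl l t x = q ↔ ∀ k, (l : ℝ) * q k - t k ≤ x k ∧ x k < (l : ℝ) * q k - t k + l := by
  rw [funext_iff]
  refine forall_congr' fun k => ?_
  have hl' : (0 : ℤ) < l := by exact_mod_cast hl
  unfold cl
  rw [Int.ediv_eq_iff_of_pos hl', ← sub_le_iff_le_add, ← lt_sub_iff_add_lt, Int.le_floor,
    Int.floor_lt]
  push_cast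
  constructor <;> rintro ⟨h1, h2⟩ <;> constructor <;> linarith

theorem cell_translate {l : ℕ} (hl : 1 ≤ l) (t q : Fin 3 → ℤ) :
    ∃ v : Pt, ∀ x : Pt, cl l t x = q → x + v ∈ cube (l : ℝ) := by
  refine ⟨WithLp.toLp 2 fun k => (t k : ℝ) - (l : ℝ) * q k, fun x hx k => ?_⟩
  obtain ⟨h1, h2⟩ := (cl_eq_iff hl t q x).1 hx k
  simp only [PiLp.add_apply]
  constructor <;> linarith

theorem volume_cell {l : ℕ} (hl : 1 ≤ l) (t q : Fin 3 → ℤ) :
    volume {x : Pt | cl l t x = q} = ENNReal.ofReal ((l : ℝ) ^ 3) := by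
  have h : {x : Pt | cl l t x = q} = (WithLp.ofLp : Pt → Fin 3 → ℝ) ⁻¹'
      (Set.pi univ fun k => Ico ((l : ℝ) * q k - t k) ((l : ℝ) * q k - t k + l)) := by
    ext x
    simp only [mem_ofPred_eq, cl_eq_iff hl, mem_preimage, Set.mem_pi, mem_univ, forall_true_left,
      mem_Ico]
  rw [h, (PiLp.volume_preserving_ofLp (Fin 3)).measure_preimage
    (MeasurableSet.univ_pi fun _ => measurableSet_Ico).nullMeasurableSet, Real.volume_pi_Ico]
  simp only [add_sub_cancel_left, Finset.prod_const, Finset.card_univ, Fintype.card_fin]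
  rw [ENNReal.ofReal_pow (Nat.cast_nonneg l)]

theorem dist_le_of_cl {l : ℕ} (hl : 1 ≤ l) {t : Fin 3 → ℤ} {x y : Pt}
    (h : cl l t x = cl l t y) : dist x y ≤ 2 * l := by
  have hx := (cl_eq_iff hl t _ x).1 h
  have hy := (cl_eq_iff hl t _ y).1 rfl
  have hk : ∀ k, dist (x k) (y k) ^ 2 ≤ (l : ℝ) ^ 2 := fun k => by
    rw [Real.dist_eq, sq_abs]
    obtain ⟨h1, h2⟩ := hx k
    obtain ⟨h3, h4⟩ := hy k
    exact sq_le_sq' (by linarith) (by linarith)
  rw [EuclideanSpace.dist_eq, Fin.sum_univ_three]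
  refine Real.sqrt_le_iff.2 ⟨by positivity, ?_⟩
  nlinarith [hk 0, hk 1, hk 2, sq_nonneg (l : ℝ)]

theorem cl_of_unit (l : ℕ) (t : Fin 3 → ℤ) {x y : Pt} (h : cl 1 0 x = cl 1 0 y) :
    cl l t x = cl l t y := by
  funext k
  have := congrFun h k
  simp only [cl, Pi.zero_apply, add_zero, Nat.cast_one, Int.ediv_one] at this
  simp only [cl, this]

/-- `s = Fintype.piFinset fun _ => Finset.Ico 0 (⌊L / l⌋₊ + 2)` -/
theorem exists_cover {l : ℕ} (hl : 1 ≤ l) {t : Fin 3 → ℤ} (ht : ∀ k, 0 ≤ t k ∧ t k < l) {L : ℝ}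
    (hL : 0 ≤ L) : ∃ s : Finset (Fin 3 → ℤ), s.card = (⌊L / l⌋₊ + 2) ^ 3 ∧
      ∀ x ∈ cube L, cl l t x ∈ s := by
  refine ⟨Fintype.piFinset fun _ => Finset.Ico (0 : ℤ) (⌊L / l⌋₊ + 2), ?_, fun x hx => ?_⟩
  · rw [Fintype.card_piFinset]
    simp only [Int.card_Ico, sub_zero, Finset.prod_const, Finset.card_univ, Fintype.card_fin]
    congr 1
  · rw [Fintype.mem_piFinset]
    intro k
    obtain ⟨h1, h2⟩ := (cl_eq_iff hl t _ x).1 rfl k
    obtain ⟨h3, h4⟩ := hx k
    obtain ⟨h5, h6⟩ := ht k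
    have h5' : (0 : ℝ) ≤ t k := by exact_mod_cast h5
    have h6' : (t k : ℝ) < l := by exact_mod_cast h6
    have hl' : (0 : ℝ) < l := by exact_mod_cast hl
    have h7 : L < (⌊L / l⌋₊ + 1) * l := by
      rw [← div_lt_iff₀ hl']; exact Nat.lt_floor_add_one _
    rw [Finset.mem_Ico]
    constructor
    · have : (-1 : ℝ) < cl l t x k := by
        by_contra hcon
        nlinarith [mul_le_mul_of_nonneg_left (not_lt.1 hcon) hl'.le]
      have : (-1 : ℤ) < cl l t x k := by exact_mod_cast this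
      omega
    · have : (cl l t x k : ℝ) < ⌊L / l⌋₊ + 2 := by
        by_contra hcon
        nlinarith [mul_le_mul_of_nonneg_left (not_lt.1 hcon) hl'.le]
      exact_mod_cast this

/-- Averaging over the `l ^ 3` shifts.  For integers `a, b` the number of `t ∈ [0, l)` with
`(a + t) / l ≠ (b + t) / l` is at most `|a - b|` (induct on `|a - b|`: for `b = a + 1` the
quotients differ only when `l ∣ a + 1 + t`).  With `a = ⌊x k⌋`, `b = ⌊y k⌋`,
`|a - b| ≤ dist x y + 1`; so a pair at distance `≤ R'` is separated by at most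
`3 (R' + 1) l ^ 2` shifts.  Then `Finset.exists_le_of_sum_le`. -/
theorem exists_shift {l : ℕ} (hl : 1 ≤ l) {χ : ℝ → ℝ} (h0 : ∀ r, 0 ≤ χ r) {R' : ℝ} (hR : 0 ≤ R')
    (h1 : ∀ r, R' < r → χ r = 0) {N : ℕ} (x : Fin N → Pt) :
    ∃ t : Fin 3 → ℤ, (∀ k, 0 ≤ t k ∧ t k < l) ∧
      (∑ i, ∑ j, if cl l t (x i) = cl l t (x j) then 0 else χ (dist (x i) (x j))) ≤
        3 * (R' + 1) / l * ∑ i, ∑ j, χ (dist (x i) (x j)) := by
  classical
  have hl' : (0 : ℝ) < l := by exact_mod_cast hl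
  set T : Finset (Fin 3 → ℤ) := Fintype.piFinset fun _ => Finset.Ico (0 : ℤ) l with hT
  have hTc : T.card = l ^ 3 := by
    rw [hT, Fintype.card_piFinset]; simp
  have hne : T.Nonempty := by
    rw [← Finset.card_pos, hTc]; positivity
  suffices h : ∑ t ∈ T, (∑ i, ∑ j, if cl l t (x i) = cl l t (x j) then 0
      else χ (dist (x i) (x j))) ≤
      ∑ _t ∈ T, 3 * (R' + 1) / l * ∑ i, ∑ j, χ (dist (x i) (x j)) by
    obtain ⟨t, ht, h⟩ := Finset.exists_le_of_sum_le hne h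
    exact ⟨t, fun k => Finset.mem_Ico.1 (Fintype.mem_piFinset.1 ht k), h⟩
  rw [Finset.sum_const, hTc, nsmul_eq_mul, ← mul_assoc, Finset.sum_comm, Finset.mul_sum]
  refine Finset.sum_le_sum fun i _ => ?_
  rw [Finset.sum_comm, Finset.mul_sum]
  refine Finset.sum_le_sum fun j _ => ?_
  rw [Finset.sum_ite, Finset.sum_const_zero, zero_add, Finset.sum_const, nsmul_eq_mul]
  by_cases hd : R' < dist (x i) (x j)
  · simp [h1 _ hd]
  refine mul_le_mul_of_nonneg_right ?_ (h0 _)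
  refine (CellsAux.card_sep hl (x i) (x j) (not_lt.1 hd)).trans_eq ?_
  push_cast
  field_simp

theorem Qc_nonneg (l : ℕ) (t : Fin 3 → ℤ) {ι : Type} [Fintype ι] (x : ι → Pt) : 0 ≤ Qc l t x := by
  unfold Qc
  exact Finset.sum_nonneg fun i _ => Finset.sum_nonneg fun j _ => by split_ifs <;> norm_num

/-- `Qc` is the sum of the squares of the occupation numbers -/
theorem Qc_eq_sum (l : ℕ) (t : Fin 3 → ℤ) {ι : Type} [Fintype ι] (x : ι → Pt)
    (s : Finset (Fin 3 → ℤ)) (hs : ∀ i, cl l t (x i) ∈ s) :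
    Qc l t x = ∑ q ∈ s, ((Finset.univ.filter fun i => cl l t (x i) = q).card : ℝ) ^ 2 := by
  unfold Qc
  rw [← Finset.sum_fiberwise_of_maps_to (s := Finset.univ) (t := s) (g := fun i => cl l t (x i))
    (fun i _ => hs i)]
  refine Finset.sum_congr rfl fun q _ => ?_
  rw [Finset.sum_congr rfl (g := fun _ =>
    ((Finset.univ.filter fun i => cl l t (x i) = q).card : ℝ)), Finset.sum_const, nsmul_eq_mul, sq]
  intro i hi
  rw [(Finset.mem_filter.1 hi).2, Finset.sum_boole]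
  simp only [eq_comm]

/-- Cauchy–Schwarz over the at most `(⌊L⌋₊ + 1) ^ 3` unit cells meeting the cube -/
theorem sq_le_Qc {L : ℝ} (hL : 0 ≤ L) {N : ℕ} (x : Fin N → Pt) (hx : ∀ i, x i ∈ cube L) :
    (N : ℝ) ^ 2 ≤ (L + 1) ^ 3 * Qc 1 0 x := by
  set s : Finset (Fin 3 → ℤ) := Fintype.piFinset fun _ => Finset.Icc (0 : ℤ) ⌊L⌋₊ with hs
  have hmem : ∀ i, cl 1 0 (x i) ∈ s := fun i => by
    rw [hs, Fintype.mem_piFinset]
    intro k
    obtain ⟨h3, h4⟩ := hx i k
    simp only [cl, Pi.zero_apply, add_zero, Nat.cast_one, Int.ediv_one, Finset.mem_Icc]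
    refine ⟨Int.floor_nonneg.2 h3, ?_⟩
    rw [Int.natCast_floor_eq_floor hL]
    exact Int.floor_mono h4
  have hc : (s.card : ℝ) ≤ (L + 1) ^ 3 := by
    rw [hs, Fintype.card_piFinset]
    simp only [Int.card_Icc, sub_zero, Finset.prod_const, Finset.card_univ, Fintype.card_fin]
    have h1 : ((⌊L⌋₊ : ℤ) + 1).toNat = ⌊L⌋₊ + 1 := by omega
    rw [h1]
    push_cast
    have := Nat.floor_le hL
    gcongr
  have hN : (N : ℝ) = ∑ q ∈ s, ((Finset.univ.filter fun i => cl 1 0 (x i) = q).card : ℝ) := by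
    have := Finset.card_eq_sum_card_fiberwise (s := (Finset.univ : Finset (Fin N))) (t := s)
      (f := fun i => cl 1 0 (x i)) (fun i _ => hmem i)
    rw [Finset.card_univ, Fintype.card_fin] at this
    exact_mod_cast this
  rw [Qc_eq_sum 1 0 x s hmem]
  calc (N : ℝ) ^ 2 = (∑ q ∈ s, ((Finset.univ.filter fun i => cl 1 0 (x i) = q).card : ℝ)) ^ 2 := by
        rw [← hN]
    _ ≤ s.card * ∑ q ∈ s, ((Finset.univ.filter fun i => cl 1 0 (x i) = q).card : ℝ) ^ 2 :=
        sq_sum_le_card_mul_sum_sq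
    _ ≤ _ := mul_le_mul_of_nonneg_right hc (Finset.sum_nonneg fun _ _ => sq_nonneg _)

end Crest.Agent.R149
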