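import Crest.Agent.R149.Pack

/-!
# Row 149: clusters
-/

set_option autoImplicit false
open MeasureTheory Set Filter Topology Crest.ProbabilityR.Continuum
open scoped ENNReal

namespace Crest.Agent.R149

namespace ClusterAux

/-- all distances in `[1, C]` -/
def P (C : ℝ) (X : Finset Pt) : Prop := ∀ x ∈ X, ∀ y ∈ X, x ≠ y → 1 ≤ dist x y ∧ dist x y ≤ C

theorem card_le {C : ℝ} (hC : C ≤ 3) {X : Finset Pt} (h : P C X) : X.card ≤ packingNumber 6 := by
  rcases X.eq_empty_or_nonempty with rfl | ⟨x₀, hx₀⟩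
  · simp
  have := card_le_of_sep X id (WithLp.toLp 2 (fun _ => (3 : ℝ)) - x₀) (L := 6) one_pos
    (fun x hx k => ?_) (fun i hi j hj hij => (h i hi j hj hij).1)
  · simpa using this
  have h1 : dist x x₀ ≤ 3 := by
    by_cases e : x = x₀
    · rw [e, dist_self]; norm_num
    · exact (h x hx x₀ hx₀ e).2.trans hC
  have h2 : dist (x k) (x₀ k) ≤ dist x x₀ := PiLp.dist_apply_le x x₀ k
  rw [Real.dist_eq] at h2
  have h3 := abs_le.1 (h2.trans h1)
  simp only [id, PiLp.add_apply, PiLp.sub_apply]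
  constructor <;> linarith [h3.1, h3.2]

open Classical in
/-- the largest cardinality -/
noncomputable def nn (C : ℝ) : ℕ :=
  Nat.findGreatest (fun n => ∃ X : Finset Pt, P C X ∧ X.card = n) (packingNumber 6)

theorem le_nn {C : ℝ} (hC : C ≤ 3) {X : Finset Pt} (h : P C X) : X.card ≤ nn C := by
  classical
  unfold nn
  convert Nat.le_findGreatest (P := fun n => ∃ X : Finset Pt, P C X ∧ X.card = n)
    (card_le hC h) ⟨X, h, rfl⟩

theorem exists_nn (C : ℝ) : ∃ X : Finset Pt, P C X ∧ X.card = nn C := by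
  classical
  unfold nn
  convert Nat.findGreatest_spec (P := fun n => ∃ X : Finset Pt, P C X ∧ X.card = n)
    (Nat.zero_le (packingNumber 6)) ⟨∅, fun x hx => by simp at hx, rfl⟩

theorem nn_le (C : ℝ) : nn C ≤ packingNumber 6 := by
  classical
  unfold nn
  convert Nat.findGreatest_le (P := fun n => ∃ X : Finset Pt, P C X ∧ X.card = n) _

theorem two_le_nn {C : ℝ} (h1 : 1 ≤ C) (hC : C ≤ 3) : 2 ≤ nn C := by
  classical
  let e : Pt := EuclideanSpace.single (0 : Fin 3) (1 : ℝ)
  have he : dist (0 : Pt) e = 1 := by simp [e]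
  have hne : (0 : Pt) ≠ e := fun h => by rw [← h] at he; simp at he
  have := le_nn hC (X := {0, e}) (fun x hx y hy hxy => by
    simp only [Finset.mem_insert, Finset.mem_singleton] at hx hy
    rcases hx with rfl | rfl <;> rcases hy with rfl | rfl
    · exact absurd rfl hxy
    · rw [he]; exact ⟨le_rfl, h1⟩
    · rw [dist_comm, he]; exact ⟨le_rfl, h1⟩
    · exact absurd rfl hxy)
  rwa [Finset.card_pair hne] at this

end ClusterAux

/-- a maximal `σ`-separated subfamily -/
theorem exists_centres {ι : Type*} (T : Finset ι) (x : ι → Pt) {σ : ℝ} (hσ : 0 ≤ σ) :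
    ∃ S ⊆ T, (∀ i ∈ S, ∀ j ∈ S, i ≠ j → σ < dist (x i) (x j)) ∧
      ∀ i ∈ T, ∃ j ∈ S, dist (x i) (x j) ≤ σ := by
  classical
  let Sep : Finset ι → Prop := fun S => ∀ i ∈ S, ∀ j ∈ S, i ≠ j → σ < dist (x i) (x j)
  obtain ⟨S, hS, hmax⟩ := Finset.exists_max_image (T.powerset.filter Sep) Finset.card
    ⟨∅, by simp [Sep]⟩
  rw [Finset.mem_filter, Finset.mem_powerset] at hS
  refine ⟨S, hS.1, hS.2, fun i hi => ?_⟩
  by_cases hiS : i ∈ S
  · exact ⟨i, hiS, by rw [dist_self]; exact hσ⟩
  by_contra hcon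
  push Not at hcon
  have := hmax (insert i S) (by
    rw [Finset.mem_filter, Finset.mem_powerset]
    refine ⟨Finset.insert_subset hi hS.1, fun a ha b hb hab => ?_⟩
    rcases Finset.mem_insert.1 ha with rfl | ha' <;> rcases Finset.mem_insert.1 hb with rfl | hb'
    · exact absurd rfl hab
    · exact hcon b hb'
    · rw [dist_comm]; exact hcon a ha'
    · exact hS.2 a ha' b hb' hab)
  rw [Finset.card_insert_of_notMem hiS] at this
  omega

/-- Let `nn C` be the largest cardinality of a finite set with all distances in `[1, C]`; for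
`C ≤ 3` it is at most `packingNumber 6` (`card_le_of_sep`), it is monotone, and `nn 2 ≥ 2`.  By
pigeonhole on the values `C = 2 + k / (packingNumber 6 + 1)` there are `2 ≤ C₁ < C₂ ≤ 3` with
`nn C₁ = nn C₂ =: n`.  Take `C = C₂`, an optimal set for `C₁` rescaled by `1 + ρ₀` with `ρ₀ > 0`
so small that `(1 + ρ₀) C₁ ≤ C₂ - ρ₀`. -/
theorem exists_clu : ∃ n C ρ₀, Clu n C ρ₀ := by
  classical
  set N := packingNumber 6 with hN
  have key : ∀ k k' : ℕ, k < k' → k' ≤ N + 1 →
      ClusterAux.nn (2 + (k : ℝ) / (N + 1)) = ClusterAux.nn (2 + (k' : ℝ) / (N + 1)) →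
      ∃ n C ρ₀, Clu n C ρ₀ := by
    intro k k' hkk hk' heq
    have hN0 : (0 : ℝ) < N + 1 := by positivity
    set C₁ : ℝ := 2 + (k : ℝ) / (N + 1) with hC₁
    set C₂ : ℝ := 2 + (k' : ℝ) / (N + 1) with hC₂
    have h1 : 2 ≤ C₁ := by rw [hC₁]; have : (0 : ℝ) ≤ (k : ℝ) / (N + 1) := by positivity
                           linarith
    have h2 : C₁ < C₂ := by
      have : (k : ℝ) / (N + 1) < (k' : ℝ) / (N + 1) :=
        div_lt_div_of_pos_right (by exact_mod_cast hkk) hN0
      linarith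
    have h3 : C₂ ≤ 3 := by
      have : (k' : ℝ) / (N + 1) ≤ 1 := by
        rw [div_le_one hN0]; exact_mod_cast hk'
      linarith
    obtain ⟨X, hX, hc⟩ := ClusterAux.exists_nn C₁
    set ρ₀ : ℝ := (C₂ - C₁) / 4 with hρ
    have hρ0 : 0 < ρ₀ := by rw [hρ]; linarith
    refine ⟨ClusterAux.nn C₁, C₂, ρ₀, ClusterAux.two_le_nn (by linarith) (by linarith), by linarith,
      h3, hρ0, by rw [hρ]; linarith, ?_, fun Z hZ => heq ▸ ClusterAux.le_nn h3 hZ⟩
    rw [← hc]
    refine ⟨fun i => (1 + ρ₀) • ((X.equivFin.symm i : X) : Pt), fun i j hij => ?_⟩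
    have hne : ((X.equivFin.symm i : X) : Pt) ≠ (X.equivFin.symm j : X) := fun h =>
      hij (X.equivFin.symm.injective (Subtype.ext h))
    obtain ⟨a, b⟩ := hX _ (X.equivFin.symm i).2 _ (X.equivFin.symm j).2 hne
    rw [dist_smul₀, Real.norm_eq_abs, abs_of_pos (by linarith)]
    constructor
    · nlinarith
    · have : (1 + ρ₀) * C₁ ≤ C₂ - ρ₀ := by nlinarith
      nlinarith
  obtain ⟨k, hk, k', hk', hne, heq⟩ := Finset.exists_ne_map_eq_of_card_lt_of_maps_to
    (s := Finset.range (N + 2)) (t := Finset.range (N + 1)) (by simp)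
    (f := fun k : ℕ => ClusterAux.nn (2 + (k : ℝ) / (N + 1)))
    (fun k _ => by
      simp only [Finset.coe_range, Set.mem_Iio]
      exact Nat.lt_succ_of_le (ClusterAux.nn_le _))
  rw [Finset.mem_range] at hk hk'
  rcases lt_or_gt_of_ne hne with h | h
  · exact key k k' h (by omega) heq
  · exact key k' k h (by omega) heq.symm

/-- Take centres `S` (`exists_centres` with `σ = 1 - 2 τ`); `S.card ≤ packingNumber (L / σ)`.
The points `i ∈ T` with `dist (x i) (x j) ≤ σ` for a fixed centre `j` are within `C ε` of `x j`,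
so their mutual distances are `≤ 2 C ε ≤ σ`, hence in `[ε, C ε]`: at most `n` points
(rescale by `ε⁻¹` and use `Clu.max`). -/
theorem card_le_of_badfree {n : ℕ} {C ρ₀ : ℝ} (hc : Clu n C ρ₀) {ε τ L : ℝ} (hε : 0 < ε)
    (hτ : 2 * C * ε ≤ 1 - 2 * τ) {ι : Type*} (T : Finset ι) (x : ι → Pt) (v : Pt)
    (h : ∀ i ∈ T, x i + v ∈ cube L)
    (hs : ∀ i ∈ T, ∀ j ∈ T, i ≠ j →
      (ε ≤ dist (x i) (x j) ∧ dist (x i) (x j) ≤ C * ε) ∨ 1 - 2 * τ < dist (x i) (x j)) :
    T.card ≤ n * packingNumber (L / (1 - 2 * τ)) := by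
  classical
  have hC := hc.hC
  have hCε : 0 < C * ε := by positivity
  set σ := 1 - 2 * τ with hσ
  have hσ0 : 0 < σ := by linarith
  obtain ⟨S, hST, hsep, hcov⟩ := exists_centres T x hσ0.le
  have hS : S.card ≤ packingNumber (L / σ) :=
    card_le_of_sep S x v hσ0 (fun i hi => h i (hST hi))
      (fun i hi j hj hij => (hsep i hi j hj hij).le)
  have hfib : ∀ j ∈ S, (T.filter fun i => dist (x i) (x j) ≤ σ).card ≤ n := by
    intro j hj
    set U := T.filter fun i => dist (x i) (x j) ≤ σ with hU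
    have hnear : ∀ i ∈ U, dist (x i) (x j) ≤ C * ε := by
      intro i hi
      rw [hU, Finset.mem_filter] at hi
      by_cases e : i = j
      · rw [e, dist_self]; exact hCε.le
      · rcases hs i hi.1 j (hST hj) e with a | a
        · exact a.2
        · exact absurd hi.2 (not_le.2 a)
    have hmut : ∀ i ∈ U, ∀ i' ∈ U, i ≠ i' →
        ε ≤ dist (x i) (x i') ∧ dist (x i) (x i') ≤ C * ε := by
      intro i hi i' hi' hne
      rcases hs i (Finset.mem_filter.1 hi).1 i' (Finset.mem_filter.1 hi').1 hne with a | a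
      · exact a
      · exfalso
        have := dist_triangle_right (x i) (x i') (x j)
        linarith [hnear i hi, hnear i' hi']
    have hd : ∀ i i', dist (ε⁻¹ • x i) (ε⁻¹ • x i') = dist (x i) (x i') / ε := by
      intro i i'
      rw [dist_smul₀, Real.norm_eq_abs, abs_of_pos (inv_pos.2 hε), inv_mul_eq_div]
    have hinj : Set.InjOn (fun i => ε⁻¹ • x i) U := by
      intro i hi i' hi' e
      by_contra hne
      have a := (hmut i hi i' hi' hne).1
      have b := hd i i'
      simp only at e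
      rw [e, dist_self, eq_comm, div_eq_zero_iff] at b
      rcases b with b | b <;> linarith
    rw [← Finset.card_image_of_injOn hinj]
    refine hc.max _ fun a ha b hb hab => ?_
    obtain ⟨i, hi, rfl⟩ := Finset.mem_image.1 ha
    obtain ⟨i', hi', rfl⟩ := Finset.mem_image.1 hb
    have := hmut i hi i' hi' (fun e => hab (by rw [e]))
    rw [hd, le_div_iff₀ hε, div_le_iff₀ hε, one_mul]
    exact this
  calc T.card ≤ (S.biUnion fun j => T.filter fun i => dist (x i) (x j) ≤ σ).card := by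
        refine Finset.card_le_card fun i hi => ?_
        obtain ⟨j, hj, hd⟩ := hcov i hi
        exact Finset.mem_biUnion.2 ⟨j, hj, Finset.mem_filter.2 ⟨hi, hd⟩⟩
    _ ≤ S.card * n := Finset.card_biUnion_le_card_mul _ _ _ hfib
    _ ≤ n * packingNumber (L / σ) := by rw [mul_comm]; exact Nat.mul_le_mul_left _ hS

end Crest.Agent.R149
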