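import Crest.Agent.R149.KacB

/-!
# Row 149: comparison of free energies
-/

set_option autoImplicit false
open MeasureTheory Set Filter Topology Crest.ProbabilityR.Continuum
open scoped ENNReal

namespace Crest.Agent.R149

namespace CompareAux

theorem two_energy_sub {φ φ' χ : ℝ → ℝ} (he : ∀ r, φ' r = φ r - χ r) {N : ℕ} (x : Fin N → Pt) :
    2 * energy φ' x = 2 * energy φ x - 2 * energy χ x := by
  simp only [energy, he, Finset.sum_sub_distrib]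
  ring

theorem two_energy_eq (χ : ℝ → ℝ) {N : ℕ} (x : Fin N → Pt) :
    2 * energy χ x = ∑ i, ∑ j, χ (dist (x i) (x j)) - N * χ 0 := by
  rw [two_energy, eq_sub_iff_add_eq]
  have : (N : ℝ) * χ 0 = ∑ i : Fin N, ∑ j : Fin N, if i = j then χ 0 else 0 := by simp
  rw [this, ← Finset.sum_add_distrib]
  refine Finset.sum_congr rfl fun i _ => ?_
  rw [← Finset.sum_add_distrib]
  refine Finset.sum_congr rfl fun j _ => ?_
  split_ifs with h
  · simp [h]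
  · simp

theorem two_energy_le {χ : ℝ → ℝ} {A : ℝ} (h0 : ∀ r, 0 ≤ χ r) (hs : Sch χ A) {N : ℕ}
    (x : Fin N → Pt) : 2 * energy χ x ≤ A * Qc 1 0 x := by
  rw [two_energy_eq]
  have := hs N x
  have : 0 ≤ (N : ℝ) * χ 0 := mul_nonneg (Nat.cast_nonneg _) (h0 0)
  linarith

theorem tendsto_sq {ρ : ℝ} (hρ : 0 ≤ ρ) (c : ℝ) :
    Tendsto (fun L : ℝ => (⌊ρ * L ^ 3⌋₊ : ℝ) ^ 2 / (L + c) ^ 3 / L ^ 3) atTop (𝓝 (ρ ^ 2)) := by
  have h1 : Tendsto (fun L : ℝ => (1 + c / L)⁻¹) atTop (𝓝 1) := by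
    have := ((tendsto_const_nhds (x := c)).div_atTop tendsto_id).const_add 1
    simpa using this.inv₀ (by simp)
  have h2 := ((tendsto_floor hρ).pow 2).mul (h1.pow 3)
  rw [one_pow, mul_one] at h2
  refine h2.congr' ?_
  filter_upwards [eventually_gt_atTop 0, eventually_gt_atTop (-c)] with L hL hc
  have : L + c ≠ 0 := by linarith
  field_simp

end CompareAux

open CompareAux

/-- `2 U = ∑_{i ≠ j} φ₀ - ∑_{i ≠ j} χ ≥ (2 A Q - B N) - A Q` (`two_energy`) -/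
theorem Pair.energy_ge {φ₀ χ : ℝ → ℝ} {A B : ℝ} (h : Pair φ₀ χ A B) {N : ℕ} (x : Fin N → Pt) :
    A * Qc 1 0 x - B * N ≤ 2 * energy (fun r => φ₀ r - χ r) x := by
  rw [two_energy_sub (φ := φ₀) (χ := χ) (fun _ => rfl)]
  have h1 := two_energy_le h.nonneg h.sch x
  have h2 : 2 * A * Qc 1 0 x - B * N ≤ 2 * energy φ₀ x := by
    rw [two_energy]
    refine (h.ss N x).trans (Finset.sum_le_sum fun i _ => Finset.sum_le_sum fun j _ => ?_)
    by_cases hij : i = j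
    · simp [hij]
    · rw [if_neg hij]
      split_ifs
      · exact le_rfl
      · exact h.nonneg₀ _
  linarith

theorem Pair.good {φ₀ χ : ℝ → ℝ} {A B : ℝ} (h : Pair φ₀ χ A B) : Good (fun r => φ₀ r - χ r) := by
  refine ⟨⟨h.meas₀.sub h.meas, B / 2, fun N x => ?_⟩, fun r hr => ?_⟩
  · have := h.energy_ge x
    have := mul_nonneg h.hA.le (Qc_nonneg 1 0 x)
    linarith
  · rw [h.far₀ r hr]
    linarith [h.nonneg r]

/-- `sq_le_Qc`, `F_ge`, `TD.ge_of_eventually` -/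
theorem Pair.coarse {φ₀ χ : ℝ → ℝ} {A B : ℝ} (h : Pair φ₀ χ A B) {g : ℝ → ℝ → ℝ}
    (hg : TD (fun r => φ₀ r - χ r) g) : Coarse g (A / 2) (B / A) := by
  intro β hβ r hr
  have hA := h.hA
  refine hg.ge_of_eventually hβ hr (u := fun L =>
    β / 2 * (A * ((⌊r * L ^ 3⌋₊ : ℝ) ^ 2 / (L + 1) ^ 3) - B * ⌊r * L ^ 3⌋₊) - L ^ 3) ?_ ?_
  · have h1 := ((((tendsto_sq hr 1).const_mul A).sub ((tendsto_floor hr).const_mul B)).const_mul
      (β / 2)).sub_const 1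
    rw [show β * (A / 2) * (r * (r - B / A)) - 1 = β / 2 * (A * r ^ 2 - B * r) - 1 by
      field_simp]
    refine h1.congr' ?_
    filter_upwards [eventually_gt_atTop 0] with L hL
    field_simp
  · filter_upwards [eventually_gt_atTop 0] with L hL
    refine F_ge h.good.toStab hβ hL fun x hx => ?_
    have h1 := h.energy_ge x
    have h2 : (⌊r * L ^ 3⌋₊ : ℝ) ^ 2 / (L + 1) ^ 3 ≤ Qc 1 0 x := by
      rw [div_le_iff₀' (by positivity)]
      exact sq_le_Qc hL.le x hx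
    have h3 := mul_le_mul_of_nonneg_left h2 hA.le
    nlinarith

theorem TD.mono {φ φ' : ℝ → ℝ} (hφ : Stab φ) (hφ' : Stab φ') {g g' : ℝ → ℝ → ℝ} (h : TD φ g)
    (h' : TD φ' g') (hle : ∀ r, φ' r ≤ φ r) {β ρ : ℝ} (hβ : 0 < β) (hρ : 0 ≤ ρ) :
    g' β ρ ≤ g β ρ := by
  have := h'.le_of_eventually h hβ hβ hρ (u := fun _ => 0) (c := 0) (by simp) ?_
  · simpa using this
  · filter_upwards [eventually_gt_atTop 0] with L hL
    refine F_compare hφ' hφ hβ hβ hL fun x _ => ?_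
    rw [sub_zero]
    exact mul_le_mul_of_nonneg_left (Finset.sum_le_sum fun _ _ => hle _) hβ.le

theorem TD.neg_one_le {φ : ℝ → ℝ} (hφ : Stab φ) (h0 : ∀ r, 0 ≤ φ r) {g : ℝ → ℝ → ℝ} (h : TD φ g)
    {β ρ : ℝ} (hβ : 0 < β) (hρ : 0 ≤ ρ) : -1 ≤ g β ρ := by
  refine h.ge_of_eventually hβ hρ (u := fun L => 0 - L ^ 3) ?_ ?_
  · refine tendsto_const_nhds.congr' ?_
    filter_upwards [eventually_gt_atTop 0] with L hL
    field_simp
    ring
  · filter_upwards [eventually_gt_atTop 0] with L hL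
    exact F_ge hφ hβ hL fun x _ => mul_nonneg hβ.le (Finset.sum_nonneg fun _ _ => h0 _)

/-- `U' = U - a / 2 (∑ i j, kac - N kac R 0) ≤ U - a N ^ 2 / (2 (L + 2 R) ^ 3) + a N / vB R`
(`kac_sum_ge`, `kac_le`), then `F_compare` and `TD.le_of_eventually`. -/
theorem up_step {φ φ' : ℝ → ℝ} (hφ : Stab φ) (hφ' : Stab φ') {a R : ℝ} (ha : 0 ≤ a) (hR : 0 < R)
    (he : ∀ r, φ' r = φ r - a * kac R r) {g g' : ℝ → ℝ → ℝ} (h : TD φ g) (h' : TD φ' g') :
    Up g g' a (a / vB R) := by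
  intro β hβ ρ hρ
  have := h'.le_of_eventually h hβ hβ hρ (c := -(β * (a * ρ ^ 2 / 2 - a / vB R * ρ)))
    (u := fun L => -(β * (a * ((⌊ρ * L ^ 3⌋₊ : ℝ) ^ 2 / (L + 2 * R) ^ 3) / 2
      - a / vB R * ⌊ρ * L ^ 3⌋₊))) ?_ ?_
  · linarith
  · have h1 := (((((tendsto_sq hρ (2 * R)).const_mul a).div_const 2).sub
      ((tendsto_floor hρ).const_mul (a / vB R))).const_mul β).neg
    refine h1.congr fun L => ?_
    ring
  · filter_upwards [eventually_gt_atTop 0] with L hL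
    refine F_compare hφ' hφ hβ hβ hL fun x hx => ?_
    have h1 := two_energy_sub (χ := fun r => a * kac R r) he x
    rw [two_energy_eq (fun r => a * kac R r)] at h1
    simp only [← Finset.mul_sum] at h1
    have h2 := mul_le_mul_of_nonneg_left (kac_sum_ge hR hL.le x hx) ha
    have h3 : (⌊ρ * L ^ 3⌋₊ : ℝ) * (a * kac R 0) ≤ a / vB R * ⌊ρ * L ^ 3⌋₊ := by
      rw [mul_comm, div_eq_mul_one_div a]
      gcongr
      exact kac_le hR 0
    have h4 : 0 ≤ a / vB R * ⌊ρ * L ^ 3⌋₊ := by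
      have := vB_pos hR
      positivity
    have h5 : energy φ' x + (a * ((⌊ρ * L ^ 3⌋₊ : ℝ) ^ 2 / (L + 2 * R) ^ 3) / 2
      - a / vB R * ⌊ρ * L ^ 3⌋₊) ≤ energy φ x := by linarith
    have h6 := mul_le_mul_of_nonneg_left h5 hβ.le
    linarith

/-- `2 U' ≥ 2 U - θ A Q ≥ 2 U - θ (2 U + B N)`, so `g' β ρ ≥ g (β (1 - θ)) ρ - θ B ρ` for
`β ≤ 2`; moreover `T ≥ 0` (take `r = 0`). -/
theorem low_tail {φ₀ χ χ' φ' : ℝ → ℝ} {A B θ ζ : ℝ} (h : Pair φ₀ χ A B) (hφ' : Stab φ')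
    (h0 : ∀ r, 0 ≤ χ' r) (hs : Sch χ' (θ * A)) (hθ : 0 ≤ θ) (hθ' : θ < 1) (hζ : θ * B ≤ ζ)
    (he : ∀ r, φ' r = φ₀ r - χ r - χ' r) {g g' : ℝ → ℝ → ℝ} (hg : TD (fun r => φ₀ r - χ r) g)
    (hg' : TD φ' g') : RawLow g g' 0 θ ζ := by
  intro β hβ1 hβ2 μ ρ hρ T hT
  have hβ : 0 < β := by linarith
  have hβ' : 0 < β * (1 - θ) := mul_pos hβ (sub_pos.2 hθ')
  have hθB : 0 ≤ θ * B := mul_nonneg hθ h.hB
  have hT0 : 0 ≤ T := by simpa [hg.fe.zero _ hβ'] using hT 0 le_rfl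
  have h1 := hg.le_of_eventually hg' hβ' hβ hρ (c := β * θ * B / 2 * ρ)
    (u := fun L => β * θ * B / 2 * ⌊ρ * L ^ 3⌋₊) ?_ ?_
  · have h2 := hT ρ hρ
    have h3 : β * θ * B / 2 * ρ ≤ ζ * ρ := by
      refine mul_le_mul_of_nonneg_right ?_ hρ
      nlinarith
    have h4 : 0 ≤ ζ * T := mul_nonneg (hθB.trans hζ) hT0
    nlinarith
  · simpa only [mul_div_assoc] using (tendsto_floor hρ).const_mul (β * θ * B / 2)
  · filter_upwards [eventually_gt_atTop 0] with L hL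
    refine F_compare h.good.toStab hφ' hβ' hβ hL fun x _ => ?_
    have h2 := two_energy_sub (φ := fun r => φ₀ r - χ r) he x
    have h3 := two_energy_le h0 hs x
    have h4 := mul_le_mul_of_nonneg_left (h.energy_ge x) hθ
    have h5 : (1 - θ) * energy (fun r => φ₀ r - χ r) x - θ * B / 2 * ⌊ρ * L ^ 3⌋₊
        ≤ energy φ' x := by linarith
    have h6 := mul_le_mul_of_nonneg_left h5 hβ.le
    linarith

end Crest.Agent.R149
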