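import Crest.Agent.R149.Defs

/-!
# Row 149: explicit cores
-/

set_option autoImplicit false
open MeasureTheory Set Filter Topology Crest.ProbabilityR.Continuum
open scoped ENNReal

namespace Crest.Agent.R149

/-- `φ₀ r = K * min 1 (max 0 (min (max ((ε (1 + ρ₀ / 2) - r) / (ε ρ₀ / 2))
((r - ε (C - ρ₀ / 2)) / (ε ρ₀ / 2))) ((1 - τ - r) / τ)))` -/
theorem exists_core_bdd {C ρ₀ ε τ K : ℝ} (hρ : 0 < ρ₀) (hC : 2 ≤ C) (hε : 0 < ε) (hτ : 0 < τ)
    (hτ' : τ ≤ 1 / 4) (hετ : C * ε ≤ τ / 8) (hK : 0 ≤ K) :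
    ∃ φ₀, Core φ₀ C ρ₀ ε τ K ∧ Continuous φ₀ ∧ ∀ r, φ₀ r ≤ K := by
  have hd : 0 < ε * ρ₀ / 2 := by positivity
  have hετ' : ε ≤ τ / 16 := by nlinarith
  let u : ℝ → ℝ := fun r => (ε * (1 + ρ₀ / 2) - r) / (ε * ρ₀ / 2)
  let v : ℝ → ℝ := fun r => (r - ε * (C - ρ₀ / 2)) / (ε * ρ₀ / 2)
  let w : ℝ → ℝ := fun r => (1 - τ - r) / τ
  have hcont : Continuous fun r => K * min 1 (max 0 (min (max (u r) (v r)) (w r))) := by
    simp only [u, v, w]
    fun_prop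
  have hzero : ∀ r, min (max (u r) (v r)) (w r) ≤ 0 →
      K * min 1 (max 0 (min (max (u r) (v r)) (w r))) = 0 := by
    intro r h
    rw [max_eq_left h, min_eq_right zero_le_one, mul_zero]
  have hone : ∀ r, 1 ≤ max (u r) (v r) → 1 ≤ w r →
      K ≤ K * min 1 (max 0 (min (max (u r) (v r)) (w r))) := by
    intro r h1 h2
    rw [min_eq_left (le_max_of_le_right (le_min h1 h2)), mul_one]
  refine ⟨fun r => K * min 1 (max 0 (min (max (u r) (v r)) (w r))),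
    ⟨hcont.measurable, fun r => mul_nonneg hK (le_min zero_le_one (le_max_left _ _)),
      fun r h1 h2 => hzero r (min_le_of_left_le (max_le ?_ ?_)),
      fun r h => hzero r (min_le_of_right_le ?_),
      fun r h0 h => hone r (le_max_of_le_left ?_) ?_,
      fun r h0 h => hone r (le_max_of_le_right ?_) ?_⟩, hcont,
    fun r => mul_le_of_le_one_right hK (min_le_left _ _)⟩
  · exact div_nonpos_of_nonpos_of_nonneg (by linarith) hd.le
  · exact div_nonpos_of_nonpos_of_nonneg (by linarith) hd.le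
  · exact div_nonpos_of_nonpos_of_nonneg (by linarith) hτ.le
  · exact (one_le_div hd).2 (by linarith)
  · exact (one_le_div hτ).2 (by linarith)
  · exact (one_le_div hd).2 (by linarith)
  · exact (one_le_div hτ).2 (by linarith)

/-- add `max (1 / r - 1 / ε) 0` (for `r > 0`; this vanishes for `r ≥ ε` and for `r ≤ 0`) to the
bounded core -/
theorem exists_core_div {C ρ₀ ε τ K : ℝ} (hρ : 0 < ρ₀) (hC : 2 ≤ C) (hε : 0 < ε) (hτ : 0 < τ)
    (hτ' : τ ≤ 1 / 4) (hετ : C * ε ≤ τ / 8) (hK : 0 ≤ K) :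
    ∃ φ₀, Core φ₀ C ρ₀ ε τ K ∧ (∀ a, 0 < a → ∃ M, ∀ r, a ≤ r → φ₀ r ≤ M) ∧
      Tendsto φ₀ (𝓝[>] 0) atTop := by
  obtain ⟨φ, hφ, -, hle⟩ := exists_core_bdd hρ hC hε hτ hτ' hετ hK
  have hετ' : ε ≤ τ / 16 := by nlinarith
  have hz : ∀ r, ε ≤ r → max (r⁻¹ - ε⁻¹) 0 = 0 := fun r hr =>
    max_eq_right (sub_nonpos.2 (inv_anti₀ hε hr))
  refine ⟨fun r => φ r + max (r⁻¹ - ε⁻¹) 0,
    ⟨hφ.meas.add ((measurable_inv.sub_const _).max measurable_const),
      fun r => add_nonneg (hφ.nonneg r) (le_max_right _ _),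
      fun r h1 h2 => ?_, fun r h => ?_,
      fun r h0 h => (hφ.core r h0 h).trans (le_add_of_nonneg_right (le_max_right _ _)),
      fun r h0 h => (hφ.gap r h0 h).trans (le_add_of_nonneg_right (le_max_right _ _))⟩,
    fun a ha => ⟨K + a⁻¹, fun r hr => add_le_add (hle r) (max_le ?_ (by positivity))⟩, ?_⟩
  · rw [hφ.shell r h1 h2, hz r (by nlinarith [mul_pos hε hρ]), add_zero]
  · rw [hφ.far r h, hz r (by linarith), add_zero]
  · have h1 : r⁻¹ ≤ a⁻¹ := inv_anti₀ ha hr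
    have h2 : 0 ≤ ε⁻¹ := by positivity
    linarith
  · refine tendsto_atTop_mono (f := fun r : ℝ => r⁻¹ + -ε⁻¹) (fun r => ?_)
      (tendsto_atTop_add_const_right _ _ tendsto_inv_nhdsGT_zero)
    have h1 := hφ.nonneg r
    have h2 := le_max_left (r⁻¹ - ε⁻¹) 0
    linarith

end Crest.Agent.R149
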