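import Mathlib
import Crest.Prelude.Def_PairPotential
import Crest.Prelude.Def_UnitPacking
import Crest.Agent.R149.AbsStep

/-!
# Row 149: definitions

Overview of the proof.  The potential is `φ = φ₀ - ∑ₖ aₖ · kac Rₖ`, where `φ₀ ≥ 0` is a finite
range "core" (`Core`) that allows clusters of at most `n` particles, and `kac R` is a Kac
potential (normalised overlap of two balls of radius `R`).  `g β ρ` is `β` times the free energy
per volume (`TD φ g`).  Each added Kac potential acts on `g` like a Lebowitz–Penrose (van der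
Waals–Maxwell) step up to a small error (`Up`, `RawLow`); an abstract invariant (`Inv`, file
`AbsStep`) survives all steps and yields a triple point, hence a kink in `β`.
-/

set_option autoImplicit false
open MeasureTheory Set Filter Topology Crest.ProbabilityR.Continuum
open scoped ENNReal

namespace Crest.Agent.R149

/-- sum of a pair function over ordered pairs of distinct indices -/
noncomputable def En {ι : Type} [Fintype ι] [DecidableEq ι] (ψ : Pt → Pt → ℝ) (x : ι → Pt) : ℝ :=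
  ∑ i, ∑ j, if i = j then 0 else ψ (x i) (x j)

/-- the exponential, with values in `ℝ≥0∞` -/
noncomputable def eE (t : ℝ) : ℝ≥0∞ := ENNReal.ofReal (Real.exp t)

/-- configurational integral over configurations indexed by `ι` with all points in `A` -/
noncomputable def Y (ψ : Pt → Pt → ℝ) (A : Set Pt) (ι : Type) [Fintype ι] [DecidableEq ι] : ℝ≥0∞ :=
  ∫⁻ x : ι → Pt in Set.pi univ (fun _ => A), eE (-En ψ x)

/-- canonical partition function of `N` particles in `A` -/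
noncomputable def W (ψ : Pt → Pt → ℝ) (A : Set Pt) (N : ℕ) : ℝ≥0∞ :=
  Y ψ A (Fin N) / (N.factorial : ℝ≥0∞)

/-- grand canonical partition function -/
noncomputable def Xi (ψ : Pt → Pt → ℝ) (z : ℝ≥0∞) (A : Set Pt) : ℝ≥0∞ :=
  ∑' N : ℕ, z ^ N * W ψ A N

/-- the pair function of the radial potential `φ` at inverse temperature `β` (ordered pairs) -/
noncomputable def rad (φ : ℝ → ℝ) (β : ℝ) : Pt → Pt → ℝ := fun x y => β * φ (dist x y) / 2

/-- measurable and stable -/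
structure Stab (φ : ℝ → ℝ) : Prop where
  meas : Measurable φ
  stable : ∃ B : ℝ, ∀ (N : ℕ) (x : Fin N → Pt), -B * N ≤ energy φ x

/-- measurable, stable, and nonpositive beyond distance `1` -/
structure Good (φ : ℝ → ℝ) : Prop extends Stab φ where
  nonpos : ∀ r, 1 ≤ r → φ r ≤ 0

/-- minus the logarithm of the partition function in the cube -/
noncomputable def F (φ : ℝ → ℝ) (β L : ℝ) (N : ℕ) : ℝ := -Real.log (partitionFn φ L N β)

/-- `g` is the thermodynamic limit of `F / L ^ 3` -/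
structure TD (φ : ℝ → ℝ) (g : ℝ → ℝ → ℝ) : Prop where
  fe : FE g
  lim : ∀ β, 0 < β → ∀ ρ, 0 ≤ ρ →
    Tendsto (fun L : ℝ => F φ β L ⌊ρ * L ^ 3⌋₊ / L ^ 3) atTop (𝓝 (g β ρ))
  pt : ∀ β, 0 < β → ∀ s : ℕ, 2 ≤ s → ∀ N : ℕ,
    g β ((N : ℝ) / (s : ℝ) ^ 3) ≤ F φ β ((s : ℝ) - 1) N / (s : ℝ) ^ 3

/-- the label of the cell containing `x` in the grid of mesh `l` shifted by `t` -/
noncomputable def cl (l : ℕ) (t : Fin 3 → ℤ) (x : Pt) : Fin 3 → ℤ :=
  fun k => (⌊x k⌋ + t k) / (l : ℤ)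

/-- the number of ordered pairs (diagonal included) in the same cell: `∑_q n_q ^ 2` -/
noncomputable def Qc (l : ℕ) (t : Fin 3 → ℤ) {ι : Type} [Fintype ι] (x : ι → Pt) : ℝ :=
  ∑ i, ∑ j, if cl l t (x i) = cl l t (x j) then 1 else 0

/-- the volume of a ball of radius `R ≥ 0` -/
noncomputable def vB (R : ℝ) : ℝ := R ^ 3 * (Real.pi * 4 / 3)

/-- the Kac potential: normalised overlap of two balls of radius `R` at distance `r` -/
noncomputable def kac (R r : ℝ) : ℝ :=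
  (volume (Metric.ball (0 : Pt) R ∩
    Metric.ball (EuclideanSpace.single (0 : Fin 3) r : Pt) R)).toReal / vB R ^ 2

/-- superstability, using only pairs in a common unit cell -/
def SS (φ₀ : ℝ → ℝ) (A B : ℝ) : Prop :=
  ∀ (N : ℕ) (x : Fin N → Pt), 2 * A * Qc 1 0 x - B * N ≤
    ∑ i, ∑ j, if i ≠ j ∧ cl 1 0 (x i) = cl 1 0 (x j) then φ₀ (dist (x i) (x j)) else 0

/-- Schur bound by unit cells (diagonal included) -/
def Sch (χ : ℝ → ℝ) (A : ℝ) : Prop :=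
  ∀ (N : ℕ) (x : Fin N → Pt), ∑ i, ∑ j, χ (dist (x i) (x j)) ≤ A * Qc 1 0 x

/-- a superstable repulsive part `φ₀` and an attractive part `χ` dominated by it -/
structure Pair (φ₀ χ : ℝ → ℝ) (A B : ℝ) : Prop where
  meas₀ : Measurable φ₀
  meas : Measurable χ
  nonneg₀ : ∀ r, 0 ≤ φ₀ r
  far₀ : ∀ r, 1 ≤ r → φ₀ r = 0
  nonneg : ∀ r, 0 ≤ χ r
  ss : SS φ₀ A B
  sch : Sch χ A
  hA : 0 < A
  hB : 0 ≤ B

/-- the core potential: zero on a shell and far away, at least `K` elsewhere (up to margins) -/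
structure Core (φ₀ : ℝ → ℝ) (C ρ₀ ε τ K : ℝ) : Prop where
  meas : Measurable φ₀
  nonneg : ∀ r, 0 ≤ φ₀ r
  shell : ∀ r, ε * (1 + ρ₀ / 2) ≤ r → r ≤ ε * (C - ρ₀ / 2) → φ₀ r = 0
  far : ∀ r, 1 - τ ≤ r → φ₀ r = 0
  core : ∀ r, 0 ≤ r → r < ε → K ≤ φ₀ r
  gap : ∀ r, C * ε < r → r ≤ 1 - 2 * τ → K ≤ φ₀ r

/-- cluster data: `n` is the largest size of a set with distances in `[1, C]`, attained with
margin `ρ₀` -/
structure Clu (n : ℕ) (C ρ₀ : ℝ) : Prop where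
  two : 2 ≤ n
  hC : 2 ≤ C
  hC' : C ≤ 3
  pos : 0 < ρ₀
  small : ρ₀ ≤ 1 / 4
  ex : ∃ z : Fin n → Pt, ∀ i j, i ≠ j → 1 + ρ₀ ≤ dist (z i) (z j) ∧ dist (z i) (z j) ≤ C - ρ₀
  max : ∀ X : Finset Pt, (∀ x ∈ X, ∀ y ∈ X, x ≠ y → 1 ≤ dist x y ∧ dist x y ≤ C) → X.card ≤ n

/-- the packing density -/
structure Dens (p : ℝ) : Prop where
  pos : 0 < p
  lim : Tendsto (fun L : ℝ => (packingNumber L : ℝ) / L ^ 3) atTop (𝓝 p)

/-- the lower bound of a Kac step before cleaning up -/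
def RawLow (g g' : ℝ → ℝ → ℝ) (a θ ζ : ℝ) : Prop :=
  ∀ β, 1 / 2 ≤ β → β ≤ 2 → ∀ μ ρ, 0 ≤ ρ → ∀ T,
    (∀ r, 0 ≤ r → (μ + ζ) * r + β * a * (1 + ζ) * r ^ 2 / 2 - g (β * (1 - θ)) r ≤ T) →
    μ * ρ - g' β ρ ≤ (1 + ζ) * T + ζ

/-- the coarse quadratic lower bound -/
def Coarse (g : ℝ → ℝ → ℝ) (A b : ℝ) : Prop :=
  ∀ β, 0 < β → ∀ r, 0 ≤ r → β * A * (r * (r - b)) - 1 ≤ g β r

/-- the shape of the (normalised) free energy of the core, up to `η` -/
structure Init (g : ℝ → ℝ → ℝ) (n M η : ℝ) : Prop where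
  low₀ : ∀ β, 1 / 2 ≤ β → β ≤ 2 → ∀ r, 0 ≤ r → -η ≤ g β r
  low₁ : ∀ β, 1 / 2 ≤ β → β ≤ 2 → ∀ r, 0 ≤ r → r ≤ n → r - 1 - η ≤ g β r
  low₂ : ∀ β, 1 / 2 ≤ β → β ≤ 2 → ∀ r, n ≤ r → n - 1 + M * (r - n) - η ≤ g β r
  st₁ : ∃ r, 0 ≤ r ∧ |r - 1| ≤ η ∧ ∀ β, 0 < β → g β r ≤ η
  st₂ : ∃ r, 0 ≤ r ∧ |r - n| ≤ η ∧ ∀ β, 0 < β → g β r ≤ n - 1 + η

/-- normalisation of the free energy: density in units of `p`, free energy in units of `Λ p` -/
noncomputable def nrm (g : ℝ → ℝ → ℝ) (p Λ : ℝ) : ℝ → ℝ → ℝ := fun β r => g β (p * r) / (Λ * p)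

end Crest.Agent.R149
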