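import Crest.Agent.R149.Defs

/-!
# Row 149: Fubini for configurations
-/

set_option autoImplicit false
open MeasureTheory Set Filter Topology Crest.ProbabilityR.Continuum
open scoped ENNReal

namespace Crest.Agent.R149

namespace FubiniAux

theorem lintegral_fin_prod {n : ℕ} (f : Fin n → Pt → ℝ≥0∞) (hf : ∀ i, Measurable (f i)) :
    ∫⁻ x : Fin n → Pt, ∏ i, f i (x i) = ∏ i, ∫⁻ z, f i z := by
  induction n with
  | zero => simp [volume_pi]
  | succ n ih =>
    have h := (volume_preserving_piFinSuccAbove (fun _ : Fin (n + 1) => Pt) 0).symm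
    rw [← h.lintegral_comp_emb (MeasurableEquiv.measurableEmbedding _)]
    simp only [MeasurableEquiv.piFinSuccAbove_symm_apply, Fin.insertNthEquiv,
      Fin.prod_univ_succ, Fin.insertNth_zero, Equiv.coe_fn_mk, Fin.cons_succ,
      Fin.zero_succAbove, cast_eq, Fin.cons_zero]
    rw [← ih (fun i => f i.succ) fun i => hf _, Measure.volume_eq_prod,
      ← lintegral_prod_mul (hf 0).aemeasurable]
    exact (Finset.measurable_prod _ fun i _ =>
      (hf _).comp (measurable_pi_apply i)).aemeasurable

end FubiniAux

/-- product integrands (induction on `Fin n` with `measurePreserving_piFinSuccAbove`, as in the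
proof of `MeasureTheory.integral_fin_nat_prod_eq_prod`, then reindex) -/
theorem lintegral_fintype_prod {ι : Type} [Fintype ι] (f : ι → Pt → ℝ≥0∞)
    (hf : ∀ i, Measurable (f i)) :
    ∫⁻ x : ι → Pt, ∏ i, f i (x i) = ∏ i, ∫⁻ z, f i z := by
  let e := (Fintype.equivFin ι).symm
  have h := volume_measurePreserving_piCongrLeft (fun _ : ι => Pt) e
  rw [← h.lintegral_comp_emb (MeasurableEquiv.measurableEmbedding _)]
  simp_rw [← e.prod_comp, MeasurableEquiv.coe_piCongrLeft, Equiv.piCongrLeft_apply_apply]
  exact FubiniAux.lintegral_fin_prod (fun i => f (e i)) fun i => hf _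

/-- splitting the coordinates (`MeasurableEquiv.piEquivPiSubtypeProd`,
`volume_preserving_piEquivPiSubtypeProd`, `lintegral_prod_mul`) -/
theorem lintegral_split {ι : Type} [Fintype ι] (p : ι → Prop) [DecidablePred p]
    (f : ({i // p i} → Pt) → ℝ≥0∞) (g : ({i // ¬p i} → Pt) → ℝ≥0∞) (hf : Measurable f)
    (hg : Measurable g) :
    ∫⁻ x : ι → Pt, f (fun i => x i) * g (fun i => x i) = (∫⁻ y, f y) * ∫⁻ y, g y := by
  have h := volume_preserving_piEquivPiSubtypeProd (fun _ : ι => Pt) p
  rw [← lintegral_prod_mul hf.aemeasurable hg.aemeasurable, ← Measure.volume_eq_prod,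
    ← h.lintegral_comp_emb (MeasurableEquiv.measurableEmbedding _)]
  rfl

/-- first integrate the particles outside `p`, each with its own kernel depending on the
particles in `p` -/
theorem lintegral_centre {ι : Type} [Fintype ι] (p : ι → Prop) [DecidablePred p]
    (G : ({i // p i} → Pt) → ℝ≥0∞) (k : {i // ¬p i} → ({i // p i} → Pt) → Pt → ℝ≥0∞)
    (hG : Measurable G) (hk : ∀ i, Measurable (Function.uncurry (k i))) :
    ∫⁻ x : ι → Pt, G (fun i => x i) * ∏ i : {i // ¬p i}, k i (fun j => x j) (x i) =
      ∫⁻ y, G y * ∏ i : {i // ¬p i}, ∫⁻ z, k i y z := by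
  have h := volume_preserving_piEquivPiSubtypeProd (fun _ : ι => Pt) p
  have hm : Measurable fun w : ({i // p i} → Pt) × ({i // ¬p i} → Pt) =>
      G w.1 * ∏ i : {i // ¬p i}, k i w.1 (w.2 i) :=
    (hG.comp measurable_fst).mul (Finset.measurable_prod _ fun i _ =>
      (hk i).comp (measurable_fst.prodMk ((measurable_pi_apply i).comp measurable_snd)))
  calc _ = ∫⁻ w : ({i // p i} → Pt) × ({i // ¬p i} → Pt),
        G w.1 * ∏ i : {i // ¬p i}, k i w.1 (w.2 i) := by
        rw [← h.lintegral_comp_emb (MeasurableEquiv.measurableEmbedding _)]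
        rfl
    _ = _ := by
        rw [Measure.volume_eq_prod, lintegral_prod _ hm.aemeasurable]
        refine lintegral_congr fun y => ?_
        have hky : ∀ i, Measurable (k i y) := fun i => (hk i).comp measurable_prodMk_left
        rw [← lintegral_fintype_prod (fun i => k i y) hky, ← lintegral_const_mul]
        exact Finset.measurable_prod _ fun i _ => (hky i).comp (measurable_pi_apply i)

end Crest.Agent.R149
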