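import Crest.Agent.R149.Link

/-!
# Row 149: the Kac potential
-/

set_option autoImplicit false
open MeasureTheory Set Filter Topology Crest.ProbabilityR.Continuum
open scoped ENNReal

namespace Crest.Agent.R149

theorem volume_ball (x : Pt) {R : ℝ} (hR : 0 ≤ R) :
    volume (Metric.ball x R) = ENNReal.ofReal (vB R) := by
  rw [EuclideanSpace.volume_ball_fin_three, vB, ENNReal.ofReal_mul (pow_nonneg hR 3),
    ENNReal.ofReal_pow hR]

theorem volume_closedBall (x : Pt) {R : ℝ} (hR : 0 ≤ R) :
    volume (Metric.closedBall x R) = ENNReal.ofReal (vB R) := by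
  rw [EuclideanSpace.volume_closedBall_fin_three, vB, ENNReal.ofReal_mul (pow_nonneg hR 3),
    ENNReal.ofReal_pow hR]

theorem vB_pos {R : ℝ} (hR : 0 < R) : 0 < vB R := by
  unfold vB
  have := Real.pi_pos
  positivity

theorem vB_ge {R : ℝ} (hR : 0 ≤ R) : 4 * R ^ 3 ≤ vB R := by
  unfold vB
  have := Real.pi_gt_three
  have h3 := pow_nonneg hR 3
  nlinarith

theorem vB_le {R : ℝ} (hR : 0 ≤ R) : vB R ≤ 5 * R ^ 3 := by
  unfold vB
  have := Real.pi_lt_d2
  have h3 := pow_nonneg hR 3
  nlinarith

theorem kac_nonneg (R r : ℝ) : 0 ≤ kac R r := by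
  unfold kac
  positivity

theorem kac_le {R : ℝ} (hR : 0 < R) (r : ℝ) : kac R r ≤ 1 / vB R := by
  have hv := vB_pos hR
  have h1 : (volume (Metric.ball (0 : Pt) R ∩
      Metric.ball (EuclideanSpace.single (0 : Fin 3) r : Pt) R)).toReal ≤ vB R :=
    ENNReal.toReal_le_of_le_ofReal hv.le
      ((measure_mono inter_subset_left).trans (volume_ball 0 hR.le).le)
  rw [kac, div_le_div_iff₀ (by positivity) hv]
  nlinarith

theorem kac_eq_zero {R r : ℝ} (h : 2 * R ≤ r) : kac R r = 0 := by
  have : Metric.ball (0 : Pt) R ∩ Metric.ball (EuclideanSpace.single (0 : Fin 3) r : Pt) R = ∅ := by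
    refine Set.disjoint_iff_inter_eq_empty.1 (Metric.ball_disjoint_ball ?_)
    rw [dist_zero_left, PiLp.norm_single, Real.norm_eq_abs]
    linarith [le_abs_self r]
  rw [kac, this]
  simp

/-- the ball of radius `1 / 4` around the midpoint lies in both balls -/
theorem kac_ge {R r : ℝ} (hR : 1 ≤ R) (h0 : 0 ≤ r) (h1 : r ≤ 3 / 2) :
    vB (1 / 4) / vB R ^ 2 ≤ kac R r := by
  have hsub : Metric.ball (EuclideanSpace.single (0 : Fin 3) (r / 2) : Pt) (1 / 4) ⊆
      Metric.ball (0 : Pt) R ∩ Metric.ball (EuclideanSpace.single (0 : Fin 3) r : Pt) R := by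
    refine subset_inter (Metric.ball_subset_ball' ?_) (Metric.ball_subset_ball' ?_)
    · rw [dist_zero_right, PiLp.norm_single, Real.norm_eq_abs,
        abs_of_nonneg (by linarith)]
      linarith
    · rw [PiLp.dist_single_same, Real.dist_eq, abs_of_nonpos (by linarith)]
      linarith
  unfold kac
  refine div_le_div_of_nonneg_right ?_ (sq_nonneg _)
  have h2 := ENNReal.toReal_mono
    ((measure_mono inter_subset_left).trans_lt (measure_ball_lt_top (μ := volume))).ne
    (measure_mono hsub)
  rwa [volume_ball _ (by norm_num), ENNReal.toReal_ofReal (vB_pos (by norm_num)).le] at h2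

theorem KacAAux.ov_le {R : ℝ} (c c' : Pt) (hd : dist c c' ≤ R) :
    (volume (Metric.ball (0 : Pt) R ∩ Metric.ball c R)).toReal ≤
      (volume (Metric.ball (0 : Pt) R ∩ Metric.ball c' R)).toReal +
        (vB R - vB (R - dist c c')) := by
  have h0 : 0 ≤ dist c c' := dist_nonneg
  have hsub : Metric.ball (0 : Pt) R ∩ Metric.ball c R ⊆
      (Metric.ball (0 : Pt) R ∩ Metric.ball c' R) ∪
        (Metric.ball c R \ Metric.ball c (R - dist c c')) := by
    rintro z ⟨h1, h2⟩
    by_cases h3 : z ∈ Metric.ball c (R - dist c c')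
    · exact Or.inl ⟨h1, Metric.ball_subset_ball' (by linarith) h3⟩
    · exact Or.inr ⟨h2, h3⟩
  have hv : ∀ s : ℝ, 0 ≤ s → 0 ≤ vB s := fun s hs =>
    le_trans (by positivity) (vB_ge hs)
  have h1 : volume.real (Metric.ball c R \ Metric.ball c (R - dist c c')) =
      vB R - vB (R - dist c c') := by
    rw [measureReal_sdiff (Metric.ball_subset_ball (by linarith)) measurableSet_ball
      measure_ball_lt_top.ne, Measure.real, Measure.real, volume_ball _ (by linarith),
      volume_ball _ (by linarith), ENNReal.toReal_ofReal (hv _ (by linarith)),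
      ENNReal.toReal_ofReal (hv _ (by linarith))]
  rw [← h1]
  refine (measureReal_mono hsub ?_).trans (measureReal_union_le _ _)
  exact (measure_union_lt_top ((measure_mono inter_subset_left).trans_lt measure_ball_lt_top)
    ((measure_mono sdiff_subset).trans_lt measure_ball_lt_top)).ne

/-- Lipschitz: `B(0,R) ∩ B(r e,R) ⊆ (B(0,R) ∩ B(r' e,R)) ∪ (B(r e,R) \ B(r e,R - |r - r'|))`;
or `continuousAt_of_dominated` (spheres are null sets). -/
theorem kac_continuous {R : ℝ} (hR : 0 < R) : Continuous (kac R) := by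
  refine Continuous.div_const ?_ _
  refine continuous_iff_continuousAt.2 fun r => ?_
  rw [ContinuousAt, tendsto_iff_dist_tendsto_zero]
  have hc : Continuous fun r' : ℝ => vB R - vB (R - dist r' r) := by
    unfold vB; fun_prop
  have ht : Tendsto (fun r' : ℝ => vB R - vB (R - dist r' r)) (𝓝 r) (𝓝 0) := by
    simpa using hc.tendsto r
  refine squeeze_zero' (Eventually.of_forall fun _ => dist_nonneg) ?_ ht
  filter_upwards [Metric.ball_mem_nhds r hR] with r' hr'
  have hd : dist r' r ≤ R := (Metric.mem_ball.1 hr').le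
  have e1 : dist (EuclideanSpace.single (0 : Fin 3) r' : Pt) (EuclideanSpace.single 0 r) =
      dist r' r := PiLp.dist_single_same _ _ _ _ _
  have h1 := KacAAux.ov_le (R := R) (EuclideanSpace.single (0 : Fin 3) r' : Pt)
    (EuclideanSpace.single 0 r) (by rw [e1]; exact hd)
  have h2 := KacAAux.ov_le (R := R) (EuclideanSpace.single (0 : Fin 3) r : Pt)
    (EuclideanSpace.single 0 r') (by rw [dist_comm, e1]; exact hd)
  rw [e1] at h1
  rw [dist_comm (EuclideanSpace.single (0 : Fin 3) r : Pt), e1] at h2
  rw [Real.dist_eq, abs_le]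
  constructor <;> linarith

/-- translate by `-x`, then apply the reflection exchanging `y - x` and `dist x y • e₀`
(`Submodule.reflection_sub`, `LinearIsometryEquiv.measurePreserving`) -/
theorem kac_dist (R : ℝ) (x y : Pt) :
    kac R (dist x y) = (volume (Metric.ball x R ∩ Metric.ball y R)).toReal / vB R ^ 2 := by
  set w : Pt := EuclideanSpace.single (0 : Fin 3) (dist x y) with hw
  have hn : ‖y - x‖ = ‖w‖ := by
    rw [hw, PiLp.norm_single, Real.norm_of_nonneg dist_nonneg, dist_comm, dist_eq_norm]
  let f : Pt ≃ₗᵢ[ℝ] Pt := Submodule.reflection (ℝ ∙ (y - x - w))ᗮ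
  have hf : f (y - x) = w := Submodule.reflection_sub hn
  have hmp : MeasurePreserving (fun z : Pt => f (z - x)) volume volume :=
    f.measurePreserving.comp (measurePreserving_sub_right volume x)
  have e : Metric.ball x R ∩ Metric.ball y R =
      (fun z : Pt => f (z - x)) ⁻¹' (Metric.ball 0 R ∩ Metric.ball w R) := by
    ext z
    simp only [mem_inter_iff, mem_preimage, Metric.mem_ball]
    rw [← hf, f.dist_map, dist_sub_right, dist_zero_right, f.norm_map, ← dist_eq_norm]
  rw [kac, e, hmp.measure_preimage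
    (measurableSet_ball.inter measurableSet_ball).nullMeasurableSet]

end Crest.Agent.R149
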