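import Crest.Agent.R149.Cluster
import Crest.Agent.R149.KacA
import Crest.Agent.R149.Fubini

/-!
# Row 149: the entropy cost of clustering
-/

set_option autoImplicit false
open MeasureTheory Set Filter Topology Crest.ProbabilityR.Continuum
open scoped ENNReal

namespace Crest.Agent.R149

namespace EntropyAux

/-- membership as an opaque predicate (fixes the `Fintype` instance of the subtype) -/
def mem {N : ℕ} (S : Finset (Fin N)) (i : Fin N) : Prop := i ∈ S

instance {N : ℕ} (S : Finset (Fin N)) : DecidablePred (mem S) :=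
  fun i => inferInstanceAs (Decidable (i ∈ S))

theorem card_mem {N : ℕ} (S : Finset (Fin N)) : Fintype.card {i // mem S i} = S.card :=
  Fintype.card_of_subtype (p := mem S) S fun _ => Iff.rfl

/-- the kernel of one non-centre particle -/
noncomputable def ker (r : ℝ) (c : ℝ≥0∞) {ι : Type} [Fintype ι] (y : ι → Pt) (z : Pt) : ℝ≥0∞ :=
  ∑ j, ((if dist z (y j) ≤ r then 1 else 0) + c * (if dist z (y j) ≤ 1 then 1 else 0))

theorem meas_ker (r : ℝ) (c : ℝ≥0∞) {ι : Type} [Fintype ι] :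
    Measurable (Function.uncurry (ker r c (ι := ι))) := by
  have h : ∀ (j : ι) (t : ℝ), Measurable fun q : (ι → Pt) × Pt =>
      (if dist q.2 (q.1 j) ≤ t then (1 : ℝ≥0∞) else 0) := fun j t =>
    Measurable.ite (measurableSet_le (by fun_prop) measurable_const) measurable_const
      measurable_const
  exact Finset.measurable_sum _ fun j _ => (h j r).add ((h j 1).const_mul c)

theorem lint_ball (a : Pt) {t : ℝ} (ht : 0 ≤ t) :
    ∫⁻ z, (if dist z a ≤ t then (1 : ℝ≥0∞) else 0) = ENNReal.ofReal (vB t) := by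
  rw [← volume_closedBall a ht, ← lintegral_indicator_one Metric.isClosed_closedBall.measurableSet]
  refine lintegral_congr fun z => ?_
  by_cases hz : dist z a ≤ t
  · rw [if_pos hz, Set.indicator_of_mem (Metric.mem_closedBall.2 hz), Pi.one_apply]
  · rw [if_neg hz, Set.indicator_of_notMem (fun h => hz (Metric.mem_closedBall.1 h))]

theorem lint_ker {r t κ : ℝ} (hr : 0 ≤ r) (hκ : vB r + Real.exp t * vB 1 ≤ κ) {ι : Type}
    [Fintype ι] (y : ι → Pt) :
    ∫⁻ z, ker r (eE t) y z ≤ ENNReal.ofReal (Fintype.card ι * κ) := by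
  have h : ∀ (j : ι) (t : ℝ), Measurable fun z : Pt =>
      (if dist z (y j) ≤ t then (1 : ℝ≥0∞) else 0) := fun j t =>
    Measurable.ite (measurableSet_le (by fun_prop) measurable_const) measurable_const
      measurable_const
  have h0 : 0 ≤ vB r := le_trans (by positivity) (vB_ge hr)
  have h1 : 0 ≤ vB 1 := (vB_pos one_pos).le
  unfold ker
  rw [lintegral_finsetSum _ (f := fun j z => (if dist z (y j) ≤ r then (1 : ℝ≥0∞) else 0) +
      eE t * (if dist z (y j) ≤ 1 then 1 else 0)) fun j _ => (h j r).add ((h j 1).const_mul _)]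
  have h2 : ∀ j : ι, ∫⁻ z, ((if dist z (y j) ≤ r then (1 : ℝ≥0∞) else 0) +
      eE t * (if dist z (y j) ≤ 1 then 1 else 0)) ≤ ENNReal.ofReal κ := by
    intro j
    rw [lintegral_add_left (h j r), lintegral_const_mul _ (h j 1), lint_ball _ hr,
      lint_ball _ zero_le_one, eE, ← ENNReal.ofReal_mul (Real.exp_pos _).le,
      ← ENNReal.ofReal_add h0 (by positivity)]
    exact ENNReal.ofReal_le_ofReal hκ
  refine (Finset.sum_le_sum fun j _ => h2 j).trans (le_of_eq ?_)
  rw [Finset.sum_const, Finset.card_univ, nsmul_eq_mul, ENNReal.ofReal_mul (Nat.cast_nonneg _),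
    ENNReal.ofReal_natCast]

theorem energy_ge {φ : ℝ → ℝ} (h0 : ∀ r, 0 ≤ φ r) {N : ℕ} (x : Fin N → Pt) (S : Finset (Fin N))
    (c : Fin N → Fin N) (hc : ∀ i, c i ∈ S) :
    ∑ i ∈ Sᶜ, φ (dist (x i) (x (c i))) ≤ energy φ x := by
  set a : Fin N → Fin N → ℝ := fun i j => if i = j then 0 else φ (dist (x i) (x j)) with ha
  have ha0 : ∀ i j, 0 ≤ a i j := fun i j => by
    simp only [ha]; split_ifs
    · exact le_rfl
    · exact h0 _
  have hne : ∀ i ∈ Sᶜ, i ≠ c i := fun i hi e => (Finset.mem_compl.1 hi) (e ▸ hc i)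
  have h1 : ∑ i ∈ Sᶜ, φ (dist (x i) (x (c i))) ≤ ∑ i ∈ Sᶜ, ∑ j, a i j := by
    refine Finset.sum_le_sum fun i hi => ?_
    refine le_trans (le_of_eq ?_) (Finset.single_le_sum (fun j _ => ha0 i j) (Finset.mem_univ (c i)))
    simp only [ha, if_neg (hne i hi)]
  have h2 : ∑ i ∈ Sᶜ, φ (dist (x i) (x (c i))) ≤ ∑ i ∈ S, ∑ j, a i j := by
    rw [Finset.sum_comm]
    refine le_trans (Finset.sum_le_sum fun j hj => ?_) (Finset.sum_le_sum_of_subset_of_nonneg
      (Finset.subset_univ Sᶜ) fun j _ _ => Finset.sum_nonneg fun i _ => ha0 i j)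
    refine le_trans (le_of_eq ?_) (Finset.single_le_sum (fun i _ => ha0 i j) (hc j))
    simp only [ha, if_neg (hne j hj).symm, dist_comm]
  have h3 := two_energy φ x
  have h4 := Finset.sum_add_sum_compl S fun i => ∑ j, a i j
  linarith

theorem pointwise {φ₀ : ℝ → ℝ} {C ρ₀ ε τ K : ℝ} (h : Core φ₀ C ρ₀ ε τ K)
    (hτ : 0 < τ) (hτ' : τ ≤ 1 / 4) (_hK : 0 ≤ K) {β L : ℝ} (hβ : 1 / 2 ≤ β) {N : ℕ}
    (x : Fin N → Pt) (hx : ∀ i, x i ∈ cube L) :
    ∃ S : Finset (Fin N), S.card ≤ packingNumber (L / (1 - 2 * τ)) ∧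
      eE (-En (rad φ₀ β) x) ≤
        ∏ i : {i // ¬ mem S i}, ker (C * ε) (eE (-K / 2)) (fun j : {i // mem S i} => x j) (x i) := by
  obtain ⟨S, -, h1, h2⟩ := exists_centres Finset.univ x (σ := 1 - 2 * τ) (by linarith)
  choose c hc hd using fun i => h2 i (Finset.mem_univ i)
  refine ⟨S, card_le_of_sep S x 0 (by linarith) (fun i _ => by simpa using hx i)
    fun i hi j hj hij => (h1 i hi j hj hij).le, ?_⟩
  have h3 := energy_ge h.nonneg x S c hc
  have h4 : -En (rad φ₀ β) x ≤ ∑ i ∈ Sᶜ, -(β * φ₀ (dist (x i) (x (c i)))) := by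
    rw [En_rad, Finset.sum_neg_distrib, ← Finset.mul_sum]
    exact neg_le_neg (mul_le_mul_of_nonneg_left h3 (by linarith))
  refine (eE_mono h4).trans ?_
  rw [eE_sum, Finset.prod_subtype Sᶜ (p := fun i => ¬ mem S i) (fun i => Finset.mem_compl)]
  refine Finset.prod_le_prod' fun i _ => ?_
  refine le_trans ?_ (Finset.single_le_sum (f := fun j : {i // mem S i} =>
    ((if dist (x i) (x j) ≤ C * ε then (1 : ℝ≥0∞) else 0) +
      eE (-K / 2) * (if dist (x i) (x j) ≤ 1 then 1 else 0))) (fun j _ => zero_le)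
    (Finset.mem_univ ⟨c i, hc i⟩))
  simp only
  have h5 := h.nonneg (dist (x i) (x (c i)))
  by_cases h6 : dist (x i) (x (c i)) ≤ C * ε
  · rw [if_pos h6]
    refine le_trans ?_ le_self_add
    rw [← eE_zero]
    exact eE_mono (neg_nonpos.2 (mul_nonneg (by linarith) h5))
  · rw [if_neg h6, if_pos ((hd i).trans (by linarith)), zero_add, mul_one]
    refine eE_mono ?_
    have := h.gap _ (not_le.1 h6) (hd i)
    nlinarith

theorem lint_S {r t κ L : ℝ} (hr : 0 ≤ r) (hκ : vB r + Real.exp t * vB 1 ≤ κ) (hκ0 : 0 ≤ κ)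
    (hL : 0 ≤ L) {N : ℕ} (S : Finset (Fin N)) :
    ∫⁻ x : Fin N → Pt, (Set.pi univ fun _ : {i // mem S i} => cube L).indicator 1 (fun i => x i) *
      ∏ i : {i // ¬ mem S i}, ker r (eE t) (fun j : {i // mem S i} => x j) (x i) ≤
      ENNReal.ofReal ((L ^ 3) ^ S.card * (S.card * κ) ^ (N - S.card)) := by
  have hm : MeasurableSet (Set.pi univ fun _ : {i // mem S i} => cube L) :=
    MeasurableSet.univ_pi fun _ => measurableSet_cube L
  rw [lintegral_centre (mem S) ((Set.pi univ fun _ : {i // mem S i} => cube L).indicator 1)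
    (fun _ => ker r (eE t)) (measurable_one.indicator hm) fun _ => meas_ker _ _]
  have h1 : ∀ y : {i // mem S i} → Pt, ∏ _i : {i // ¬ mem S i}, ∫⁻ z, ker r (eE t) y z ≤
      ENNReal.ofReal ((S.card * κ) ^ (N - S.card)) := by
    intro y
    refine (Finset.prod_le_prod' fun _ _ => lint_ker hr hκ y).trans (le_of_eq ?_)
    rw [Finset.prod_const, Finset.card_univ, Fintype.card_subtype_compl, Fintype.card_fin,
      card_mem, ENNReal.ofReal_pow (by positivity)]
  refine (lintegral_mono fun y => mul_le_mul_right (h1 y) _).trans (le_of_eq ?_)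
  rw [lintegral_mul_const _ (measurable_one.indicator hm), lintegral_indicator_one hm,
    volume_pi_pi, Finset.prod_const, Finset.card_univ, card_mem, volume_cube hL,
    ENNReal.ofReal_mul (by positivity), ENNReal.ofReal_pow (by positivity) S.card]

theorem count {V κ : ℝ} (hV : 0 ≤ V) (hκ0 : 0 < κ) (hκ1 : κ ≤ 1) (N P : ℕ) :
    ∑ S : Finset (Fin N), (if S.card ≤ P then V ^ S.card * (S.card * κ) ^ (N - S.card) else 0) ≤
      Real.exp (3 * V + ((N : ℝ) - P) * Real.log κ) * N.factorial := by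
  have h1 := Finset.sum_powerset_apply_card
    (fun m => if m ≤ P then V ^ m * (m * κ) ^ (N - m) else 0) (x := (Finset.univ : Finset (Fin N)))
  rw [Finset.powerset_univ, Finset.card_univ, Fintype.card_fin] at h1
  rw [h1]
  have hlog : Real.log κ ≤ 0 := Real.log_nonpos hκ0.le hκ1
  have h2 : ∀ m ∈ Finset.range (N + 1),
      N.choose m • (if m ≤ P then V ^ m * (m * κ) ^ (N - m) else 0) ≤
        (Real.exp 1 * V) ^ m / m.factorial *
          (Real.exp (((N : ℝ) - P) * Real.log κ) * N.factorial) := by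
    intro m hm
    have hmN : m ≤ N := Nat.lt_succ_iff.1 (Finset.mem_range.1 hm)
    split_ifs with hP
    · have e1 : κ ^ (N - m) ≤ Real.exp (((N : ℝ) - P) * Real.log κ) := by
        rw [← Real.exp_log (pow_pos hκ0 _), Real.log_pow, Nat.cast_sub hmN]
        refine Real.exp_le_exp.2 (mul_le_mul_of_nonpos_right ?_ hlog)
        have : (m : ℝ) ≤ P := by exact_mod_cast hP
        linarith
      have e2 : (m : ℝ) ^ (N - m) / (N - m).factorial ≤ Real.exp 1 ^ m := by
        rw [← Real.exp_nat_mul, mul_one]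
        exact Real.pow_div_factorial_le_exp _ (Nat.cast_nonneg _) _
      have e3 := mul_le_mul e2 e1 (by positivity) (by positivity)
      have e4 := mul_le_mul_of_nonneg_left e3
        (show (0 : ℝ) ≤ V ^ m / m.factorial * N.factorial by positivity)
      rw [nsmul_eq_mul, Nat.cast_choose ℝ hmN]
      refine le_trans (le_of_eq ?_) (e4.trans (le_of_eq ?_))
      · rw [mul_pow]; field_simp
      · rw [mul_pow]; ring
    · rw [smul_zero]; positivity
  refine (Finset.sum_le_sum h2).trans ?_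
  rw [← Finset.sum_mul, Real.exp_add, mul_assoc]
  refine mul_le_mul_of_nonneg_right ((Real.sum_le_exp_of_nonneg (by positivity) _).trans
    (Real.exp_le_exp.2 (mul_le_mul_of_nonneg_right ?_ hV))) (by positivity)
  have := Real.exp_one_lt_d9
  linarith

end EntropyAux

open EntropyAux in
/-- Let `σ = 1 - 2 τ`, `P = packingNumber (L / σ)`, `V = L ^ 3`.  For `x` in the cube choose
centres `S` (`exists_centres`), `|S| ≤ P` (`card_le_of_sep`), and for `i ∉ S` a centre `c i` with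
`dist ≤ σ`.  As `φ₀ ≥ 0`, `energy ≥ ∑_{i ∉ S} φ₀ (dist (x i) (x (c i)))` (use `two_energy`: the
ordered pairs `(i, c i)` and `(c i, i)` are all distinct), hence
`exp (-β U) ≤ ∏_{i ∉ S} k (x|S) (x i)`, `k y z = ∑_{j ∈ S} (1[dist z (y j) ≤ C ε] +
exp (-K / 2) 1[dist z (y j) ≤ 1])` (`Core.gap`), and `∫ k y z dz ≤ |S| κ`.  Summing over all `S`
with `|S| ≤ P` and using `lintegral_centre`,
`W ≤ ∑_{m ≤ P} V ^ m / m! * (m κ) ^ (N - m) / (N - m)! ≤ ∑_m (e V) ^ m / m! * exp ((N - P) log κ)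
≤ exp (3 V + (N - P) log κ)`. -/
theorem Core.entropy {φ₀ : ℝ → ℝ} {C ρ₀ ε τ K : ℝ} (h : Core φ₀ C ρ₀ ε τ K) (hCε : 0 ≤ C * ε)
    (hτ : 0 < τ) (hτ' : τ ≤ 1 / 4) (hK : 0 ≤ K) {κ : ℝ}
    (hκ : vB (C * ε) + Real.exp (-K / 2) * vB 1 ≤ κ) (hκ' : κ ≤ 1) {β L : ℝ} (hβ : 1 / 2 ≤ β)
    (hL : 0 < L) (N : ℕ) :
    ((N : ℝ) - packingNumber (L / (1 - 2 * τ))) * (-Real.log κ) - 3 * L ^ 3 ≤ F φ₀ β L N := by
  set P := packingNumber (L / (1 - 2 * τ)) with hP
  have hκ0 : 0 < κ := by
    have h0 : 0 ≤ vB (C * ε) := le_trans (by positivity) (vB_ge hCε)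
    have h1 := mul_pos (Real.exp_pos (-K / 2)) (vB_pos one_pos)
    linarith
  obtain ⟨H, hH⟩ : ∃ H : Finset (Fin N) → (Fin N → Pt) → ℝ≥0∞, ∀ S x, H S x =
    (Set.pi univ fun _ : {i // mem S i} => cube L).indicator 1 (fun i => x i) *
      ∏ i : {i // ¬ mem S i}, ker (C * ε) (eE (-K / 2)) (fun j : {i // mem S i} => x j) (x i) :=
    ⟨_, fun _ _ => rfl⟩
  have hHm : ∀ S, Measurable (H S) := by
    intro S
    rw [funext (hH S)]
    have hm : MeasurableSet (Set.pi univ fun _ : {i // mem S i} => cube L) :=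
      MeasurableSet.univ_pi fun _ => measurableSet_cube L
    have hr : Measurable fun (x : Fin N → Pt) (j : {i // mem S i}) => x j := by fun_prop
    refine ((measurable_one.indicator hm).comp hr).mul (Finset.measurable_prod _ fun i _ => ?_)
    exact (meas_ker _ _).comp (hr.prodMk (measurable_pi_apply (i : Fin N)))
  have h1 : Y (rad φ₀ β) (cube L) (Fin N) ≤
      ∫⁻ x, ∑ S ∈ Finset.univ.filter (fun S : Finset (Fin N) => S.card ≤ P), H S x := by
    rw [Y, ← lintegral_indicator (MeasurableSet.univ_pi fun _ => measurableSet_cube L)]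
    refine lintegral_mono fun x => ?_
    by_cases hx : x ∈ Set.pi univ fun _ : Fin N => cube L
    · rw [Set.indicator_of_mem hx]
      obtain ⟨S, hS, h2⟩ := pointwise h hτ hτ' hK hβ x fun i => hx i (mem_univ i)
      refine le_trans ?_ (Finset.single_le_sum (f := fun S => H S x) (fun _ _ => zero_le)
        (Finset.mem_filter.2 ⟨Finset.mem_univ S, hS⟩))
      have h3 : (fun i : {i // mem S i} => x i) ∈ Set.pi univ fun _ : {i // mem S i} => cube L :=
        fun i _ => hx i (mem_univ _)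
      rw [hH, Set.indicator_of_mem h3, Pi.one_apply, one_mul]
      exact h2
    · rw [Set.indicator_of_notMem hx]
      exact zero_le
  rw [lintegral_finsetSum _ fun S _ => hHm S] at h1
  have h2 : Y (rad φ₀ β) (cube L) (Fin N) ≤
      eE (3 * L ^ 3 + ((N : ℝ) - P) * Real.log κ) * N.factorial := by
    refine h1.trans ((Finset.sum_le_sum fun S _ => (lintegral_congr (hH S)).le.trans
      (lint_S hCε hκ hκ0.le hL.le S)).trans ?_)
    rw [← ENNReal.ofReal_sum_of_nonneg fun S _ => by positivity, Finset.sum_filter, eE,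
      ← ENNReal.ofReal_natCast, ← ENNReal.ofReal_mul (Real.exp_pos _).le]
    exact ENNReal.ofReal_le_ofReal (count (by positivity) hκ0 hκ' N P)
  have h3 : W (rad φ₀ β) (cube L) N ≤ eE (3 * L ^ 3 + ((N : ℝ) - P) * Real.log κ) :=
    ENNReal.div_le_of_le_mul h2
  rw [W_cube (h.good hτ.le).toStab (by linarith) hL, eE_le_iff] at h3
  linarith

/-- `TD.ge_of_eventually`, `tendsto_floor`, `Dens.tendsto_div` -/
theorem Core.entropy_lim {φ₀ : ℝ → ℝ} {C ρ₀ ε τ K : ℝ} (h : Core φ₀ C ρ₀ ε τ K)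
    (hCε : 0 ≤ C * ε) (hτ : 0 < τ) (hτ' : τ ≤ 1 / 4) (hK : 0 ≤ K) {κ : ℝ}
    (hκ : vB (C * ε) + Real.exp (-K / 2) * vB 1 ≤ κ) (hκ' : κ ≤ 1) {p : ℝ} (hp : Dens p)
    {g : ℝ → ℝ → ℝ} (hg : TD φ₀ g) {β ρ : ℝ} (hβ : 1 / 2 ≤ β) (hρ : 0 ≤ ρ) :
    (ρ - p / (1 - 2 * τ) ^ 3) * (-Real.log κ) - 3 ≤ g β ρ := by
  refine hg.ge_of_eventually (by linarith) hρ (u := fun L => ((⌊ρ * L ^ 3⌋₊ : ℝ) -
    packingNumber (L / (1 - 2 * τ))) * (-Real.log κ) - 3 * L ^ 3) ?_ ?_
  · refine ((((tendsto_floor hρ).sub (hp.tendsto_div (σ := 1 - 2 * τ) (by linarith))).mul_const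
      (-Real.log κ)).sub_const 3).congr' ?_
    filter_upwards [eventually_gt_atTop 0] with L hL
    field_simp
  · filter_upwards [eventually_gt_atTop 0] with L hL
    exact h.entropy hCε hτ hτ' hK hκ hκ' hβ hL _

end Crest.Agent.R149
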