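import Crest.Agent.R149.Cluster
import Crest.Agent.R149.Cells

/-!
# Row 149: superstability of the core
-/

set_option autoImplicit false
open MeasureTheory Set Filter Topology Crest.ProbabilityR.Continuum
open scoped ENNReal

namespace Crest.Agent.R149

namespace TuranAux

theorem turan_card {ι : Type*} [DecidableEq ι] (bad : ι → ι → Prop) [DecidableRel bad]
    (hs : ∀ i j, bad i j → bad j i) (α : ℕ) : ∀ S : Finset ι,
    (∀ T ⊆ S, (∀ i ∈ T, ∀ j ∈ T, i ≠ j → ¬bad i j) → T.card ≤ α) →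
    (S.card : ℝ) ^ 2 ≤ α * ∑ i ∈ S, ((S.filter fun j => i = j ∨ bad i j).card : ℝ) := by
  induction α with
  | zero =>
    intro S h
    rcases S.eq_empty_or_nonempty with rfl | ⟨v, hv⟩
    · simp
    · have := h {v} (Finset.singleton_subset_iff.2 hv) (by simp)
      simp at this
  | succ α ih =>
    intro S h
    rcases S.eq_empty_or_nonempty with rfl | hne
    · simp
    obtain ⟨v, hv, hmin⟩ := S.exists_min_image
      (fun i => ((S.filter fun j => i = j ∨ bad i j).card : ℝ)) hne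
    set S' := S.filter fun j => ¬(v = j ∨ bad v j) with hS'
    have h1 := ih S' fun T hT hind => by
      have hvT : v ∉ T := fun hvT => (Finset.mem_filter.1 (hT hvT)).2 (Or.inl rfl)
      have := h (insert v T) (Finset.insert_subset hv (hT.trans (Finset.filter_subset _ _)))
        fun i hi j hj hij => by
          rcases Finset.mem_insert.1 hi with rfl | hi'
          · rcases Finset.mem_insert.1 hj with rfl | hj'
            · exact absurd rfl hij
            · exact fun hb => (Finset.mem_filter.1 (hT hj')).2 (Or.inr hb)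
          · rcases Finset.mem_insert.1 hj with rfl | hj'
            · exact fun hb => (Finset.mem_filter.1 (hT hi')).2 (Or.inr (hs _ _ hb))
            · exact hind i hi' j hj' hij
      rw [Finset.card_insert_of_notMem hvT] at this
      omega
    set d : ℝ := ((S.filter fun j => v = j ∨ bad v j).card : ℝ) with hd
    set E' : ℝ := ∑ i ∈ S', ((S'.filter fun j => i = j ∨ bad i j).card : ℝ) with hE'
    have hcard : (S.card : ℝ) = d + S'.card := by
      rw [hd, hS', ← Nat.cast_add, Finset.card_filter_add_card_filter_not]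
    have hE : d * d + E' ≤ ∑ i ∈ S, ((S.filter fun j => i = j ∨ bad i j).card : ℝ) := by
      rw [← Finset.sum_filter_add_sum_filter_not S fun j => v = j ∨ bad v j]
      refine add_le_add ?_ (Finset.sum_le_sum fun i _ => ?_)
      · have := Finset.card_nsmul_le_sum (S.filter fun j => v = j ∨ bad v j)
          (fun i => ((S.filter fun j => i = j ∨ bad i j).card : ℝ)) d
          fun i hi => hmin i (Finset.mem_filter.1 hi).1
        rwa [nsmul_eq_mul] at this
      · exact Nat.cast_le.2 (Finset.card_le_card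
          (Finset.filter_subset_filter _ (Finset.filter_subset _ _)))
    have hE0 : 0 ≤ E' := Finset.sum_nonneg fun _ _ => Nat.cast_nonneg _
    refine le_trans ?_ (mul_le_mul_of_nonneg_left hE (Nat.cast_nonneg _))
    rw [hcard]
    push_cast
    rcases Nat.eq_zero_or_pos α with rfl | hα
    · have h2 : (S'.card : ℝ) = 0 := by
        simp only [CharP.cast_eq_zero, zero_mul] at h1
        exact pow_eq_zero_iff (two_ne_zero) |>.1 (le_antisymm h1 (sq_nonneg _))
      rw [h2]
      simp only [CharP.cast_eq_zero]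
      nlinarith
    · have hα' : (0 : ℝ) < α := by exact_mod_cast hα
      refine le_of_mul_le_mul_left ?_ hα'
      nlinarith [sq_nonneg (α * d - S'.card), mul_le_mul_of_nonneg_left h1 hα'.le]

/-- bad distances -/
def Bad (C ε τ r : ℝ) : Prop := r < ε ∨ (C * ε < r ∧ r ≤ 1 - 2 * τ)

theorem le_of_bad {φ₀ : ℝ → ℝ} {C ρ₀ ε τ K r : ℝ} (h : Core φ₀ C ρ₀ ε τ K) (hr : 0 ≤ r)
    (hb : Bad C ε τ r) : K ≤ φ₀ r :=
  hb.elim (h.core r hr) fun hb => h.gap r hb.1 hb.2

theorem of_not_bad {C ε τ r : ℝ} (hb : ¬Bad C ε τ r) : (ε ≤ r ∧ r ≤ C * ε) ∨ 1 - 2 * τ < r := by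
  rw [Bad, not_or, not_and_or, not_lt, not_lt, not_le] at hb
  exact hb.2.imp_left fun h => ⟨hb.1, h⟩

end TuranAux

open TuranAux

/-- Turán / Caro–Wei: if independent sets have at most `α` elements then the number `D` of
ordered adjacent pairs satisfies `|S| ^ 2 ≤ α (D + |S|)`.  (Caro–Wei: there is an independent set
of size `≥ ∑ 1 / (dᵢ + 1)` — remove a vertex of minimal degree and its neighbours and induct —
then Cauchy–Schwarz; or use Mathlib's Turán theorem for the complement graph.) -/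
theorem turan {ι : Type*} [DecidableEq ι] (S : Finset ι) (bad : ι → ι → Prop) [DecidableRel bad]
    (hs : ∀ i j, bad i j → bad j i) (α : ℕ)
    (h : ∀ T ⊆ S, (∀ i ∈ T, ∀ j ∈ T, i ≠ j → ¬bad i j) → T.card ≤ α) :
    (S.card : ℝ) ^ 2 ≤
      α * ((∑ i ∈ S, ∑ j ∈ S, if i ≠ j ∧ bad i j then (1 : ℝ) else 0) + S.card) := by
  refine (turan_card bad hs α S h).trans (le_of_eq ?_)
  congr 1
  rw [Finset.card_eq_sum_ones S, Nat.cast_sum, ← Finset.sum_add_distrib]
  refine Finset.sum_congr rfl fun i hi => ?_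
  rw [Finset.card_filter, Nat.cast_sum, Nat.cast_one]
  have e : (1 : ℝ) = ∑ j ∈ S, if i = j then (1 : ℝ) else 0 := by simp [hi]
  refine Eq.trans ?_ (congrArg _ e.symm)
  rw [← Finset.sum_add_distrib]
  refine Finset.sum_congr rfl fun j _ => ?_
  by_cases h1 : i = j <;> by_cases h2 : bad i j <;> simp [h1, h2]

open Classical in
theorem TuranAux.core_turan {n : ℕ} {C ρ₀ : ℝ} (hc : Clu n C ρ₀) {ε τ L : ℝ} (hε : 0 < ε)
    (hτ' : τ ≤ 1 / 4) (hετ : C * ε ≤ τ / 8) {N : ℕ} (S : Finset (Fin N)) (x : Fin N → Pt) (v : Pt)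
    (h : ∀ i ∈ S, x i + v ∈ cube L) :
    (S.card : ℝ) ^ 2 ≤ (n * packingNumber (L / (1 - 2 * τ))) *
      ((∑ i ∈ S, ∑ j ∈ S, if i ≠ j ∧ Bad C ε τ (dist (x i) (x j)) then (1 : ℝ) else 0) +
        S.card) := by
  have := turan S (fun i j => Bad C ε τ (dist (x i) (x j))) (fun i j h => by rwa [dist_comm])
    (n * packingNumber (L / (1 - 2 * τ))) fun T hT hind =>
      card_le_of_badfree hc hε (by linarith) T x v (fun i hi => h i (hT hi))
        fun i hi j hj hij => of_not_bad (hind i hi j hj hij)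
  exact_mod_cast this

/-- A pair is bad if its distance is `< ε` or in `(C ε, 1 - 2 τ]`; bad pairs have `φ₀ ≥ K`.  In
each unit cell bad-free sets have at most `α = n * packingNumber 2` elements
(`card_le_of_badfree`, `cell_translate`, `packingNumber_mono`), so `turan` gives
`K D_q ≥ 2 A α D_q ≥ 2 A (n_q ^ 2 - α n_q)`; sum over the cells (`Qc_eq_sum`). -/
theorem Core.ss {n : ℕ} {C ρ₀ : ℝ} (hc : Clu n C ρ₀) {φ₀ : ℝ → ℝ} {ε τ K A : ℝ}
    (h : Core φ₀ C ρ₀ ε τ K) (hε : 0 < ε) (hτ : 0 < τ) (hτ' : τ ≤ 1 / 4) (hετ : C * ε ≤ τ / 8)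
    (hA : 0 ≤ A) (hK : 2 * A * (n * packingNumber 2) ≤ K) :
    SS φ₀ A (2 * A * (n * packingNumber 2)) := by
  classical
  intro N x
  set α : ℝ := n * packingNumber 2 with hα
  have hα0 : 0 ≤ α := by positivity
  set s := Finset.univ.image fun i => cl 1 0 (x i) with hs
  have hmem : ∀ i, cl 1 0 (x i) ∈ s := fun i => Finset.mem_image_of_mem _ (Finset.mem_univ i)
  have hN : (N : ℝ) = ∑ q ∈ s, ((Finset.univ.filter fun i => cl 1 0 (x i) = q).card : ℝ) := by
    rw [← Nat.cast_sum, ← Finset.card_eq_sum_card_fiberwise fun i _ => hmem i]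
    simp
  rw [Qc_eq_sum 1 0 x s hmem, hN, Finset.mul_sum, Finset.mul_sum, ← Finset.sum_sub_distrib,
    ← Finset.sum_fiberwise_of_maps_to (g := fun i => cl 1 0 (x i)) fun i _ => hmem i]
  refine Finset.sum_le_sum fun q _ => ?_
  set S := Finset.univ.filter fun i => cl 1 0 (x i) = q with hS
  obtain ⟨v, hv⟩ := cell_translate (l := 1) le_rfl 0 q
  have h1 := core_turan hc hε hτ' hετ S x v fun i hi => hv _ (Finset.mem_filter.1 hi).2
  set D : ℝ := ∑ i ∈ S, ∑ j ∈ S, if i ≠ j ∧ Bad C ε τ (dist (x i) (x j)) then (1 : ℝ) else 0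
    with hD
  have hD0 : 0 ≤ D := Finset.sum_nonneg fun i _ => Finset.sum_nonneg fun j _ => by positivity
  have h2 : (n : ℝ) * packingNumber (((1 : ℕ) : ℝ) / (1 - 2 * τ)) ≤ α := by
    refine mul_le_mul_of_nonneg_left (Nat.cast_le.2 (packingNumber_mono ?_)) (Nat.cast_nonneg _)
    rw [div_le_iff₀ (by linarith)]
    push_cast
    linarith
  have h3 : (S.card : ℝ) ^ 2 ≤ α * (D + S.card) :=
    h1.trans (mul_le_mul_of_nonneg_right h2 (by positivity))
  have h4 : K * D ≤ ∑ i ∈ S, ∑ j, if i ≠ j ∧ cl 1 0 (x i) = cl 1 0 (x j) then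
      φ₀ (dist (x i) (x j)) else 0 := by
    rw [hD, Finset.mul_sum]
    refine Finset.sum_le_sum fun i hi => ?_
    rw [Finset.mul_sum]
    refine le_trans (Finset.sum_le_sum fun j hj => ?_)
      (Finset.sum_le_sum_of_subset_of_nonneg (Finset.subset_univ S) fun j _ _ => ?_)
    · have e : cl 1 0 (x i) = cl 1 0 (x j) :=
        (Finset.mem_filter.1 hi).2.trans (Finset.mem_filter.1 hj).2.symm
      by_cases hb : i ≠ j ∧ Bad C ε τ (dist (x i) (x j))
      · rw [if_pos hb, if_pos ⟨hb.1, e⟩, mul_one]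
        exact le_of_bad h dist_nonneg hb.2
      · rw [if_neg hb, mul_zero]
        split_ifs
        · exact h.nonneg _
        · exact le_rfl
    · split_ifs
      · exact h.nonneg _
      · exact le_rfl
  have h5 := mul_le_mul_of_nonneg_right hK hD0
  have h6 := mul_le_mul_of_nonneg_left h3 hA
  have _ := hτ
  linarith

/-- `turan` for all indices with `α = n * packingNumber (L / (1 - 2 τ))` gives `D ≥ N - α`. -/
theorem Core.energy_ge {n : ℕ} {C ρ₀ : ℝ} (hc : Clu n C ρ₀) {φ₀ : ℝ → ℝ} {ε τ K : ℝ}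
    (h : Core φ₀ C ρ₀ ε τ K) (hε : 0 < ε) (hτ : 0 < τ) (hτ' : τ ≤ 1 / 4) (hετ : C * ε ≤ τ / 8)
    (hK : 0 ≤ K) {L : ℝ} {N : ℕ} (x : Fin N → Pt) (hx : ∀ i, x i ∈ cube L) :
    K * (N - n * packingNumber (L / (1 - 2 * τ))) ≤ 2 * energy φ₀ x := by
  classical
  have _ := hτ
  have h1 := core_turan hc hε hτ' hετ Finset.univ x 0 fun i _ => by simpa using hx i
  rw [Finset.card_univ, Fintype.card_fin] at h1
  set α : ℝ := n * packingNumber (L / (1 - 2 * τ)) with hα
  have hα0 : 0 ≤ α := by positivity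
  set D : ℝ := ∑ i, ∑ j, if i ≠ j ∧ Bad C ε τ (dist (x i) (x j)) then (1 : ℝ) else 0 with hD
  have hD0 : 0 ≤ D := Finset.sum_nonneg fun i _ => Finset.sum_nonneg fun j _ => by positivity
  have h2 : N - α ≤ D := by
    by_contra hlt
    have hlt' : D < N - α := not_le.1 hlt
    nlinarith [mul_le_mul_of_nonneg_left hlt'.le hα0]
  refine (mul_le_mul_of_nonneg_left h2 hK).trans ?_
  rw [two_energy, hD, Finset.mul_sum]
  refine Finset.sum_le_sum fun i _ => ?_
  rw [Finset.mul_sum]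
  refine Finset.sum_le_sum fun j _ => ?_
  by_cases hb : i ≠ j ∧ Bad C ε τ (dist (x i) (x j))
  · rw [if_pos hb, if_neg hb.1, mul_one]
    exact le_of_bad h dist_nonneg hb.2
  · rw [if_neg hb, mul_zero]
    split_ifs
    · exact le_rfl
    · exact h.nonneg _

/-- `F_ge`, `TD.ge_of_eventually`, `tendsto_floor`, `Dens.tendsto_div` -/
theorem Core.steep {n : ℕ} {C ρ₀ : ℝ} (hc : Clu n C ρ₀) {φ₀ : ℝ → ℝ} {ε τ K : ℝ}
    (h : Core φ₀ C ρ₀ ε τ K) (hε : 0 < ε) (hτ : 0 < τ) (hτ' : τ ≤ 1 / 4) (hετ : C * ε ≤ τ / 8)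
    (hK : 0 ≤ K) {p : ℝ} (hp : Dens p) {g : ℝ → ℝ → ℝ} (hg : TD φ₀ g) {β ρ : ℝ} (hβ : 0 < β)
    (hρ : 0 ≤ ρ) : β * K / 2 * (ρ - n * (p / (1 - 2 * τ) ^ 3)) - 1 ≤ g β ρ := by
  refine hg.ge_of_eventually hβ hρ (u := fun L => β * K / 2 *
    (⌊ρ * L ^ 3⌋₊ - n * packingNumber (L / (1 - 2 * τ))) - L ^ 3) ?_ ?_
  · have h1 := ((((tendsto_floor hρ).sub ((hp.tendsto_div (σ := 1 - 2 * τ)
      (by linarith)).const_mul (n : ℝ))).const_mul (β * K / 2))).sub_const 1
    refine h1.congr' ?_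
    filter_upwards [eventually_gt_atTop 0] with L hL
    field_simp
  · filter_upwards [eventually_gt_atTop 0] with L hL
    refine F_ge (h.good hτ.le).toStab hβ hL fun x hx => ?_
    have := mul_le_mul_of_nonneg_left (h.energy_ge hc hε hτ hτ' hετ hK x hx) hβ.le
    linarith

end Crest.Agent.R149
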