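import Crest.Agent.R149.States
import Crest.Agent.R149.Entropy
import Crest.Agent.R149.Turan
import Crest.Agent.R149.Compare

/-!
# Row 149: choice of the parameters of the core
-/

set_option autoImplicit false
open MeasureTheory Set Filter Topology Crest.ProbabilityR.Continuum
open scoped ENNReal

namespace Crest.Agent.R149

namespace InitPAux

theorem stab {φ₀ : ℝ → ℝ} {C ρ₀ ε τ K : ℝ} (h : Core φ₀ C ρ₀ ε τ K) : Stab φ₀ :=
  ⟨h.meas, 0, fun N x => by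
    simp only [neg_zero, zero_mul]
    exact Finset.sum_nonneg fun _ _ => h.nonneg _⟩

theorem vB_pos {R : ℝ} (hR : 0 < R) : 0 < vB R := by
  unfold vB; have := Real.pi_pos; positivity

theorem vB_mul (a b : ℝ) : vB (a * b) = a ^ 3 * vB b := by
  unfold vB; ring

theorem log_vB_exp {Λ c : ℝ} (hc : 0 < c) :
    Real.log (vB (Real.exp (-Λ / 3) * c)) = -Λ + Real.log (vB c) := by
  rw [vB_mul, Real.log_mul (by positivity) (vB_pos hc).ne', Real.log_pow, Real.log_exp]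
  push_cast; ring

theorem q_bounds {τ δ : ℝ} (hτ : 0 < τ) (hτ' : τ ≤ 1 / 4) (hδ : 48 * τ ≤ δ) :
    1 ≤ 1 / (1 - 2 * τ) ^ 3 ∧ 1 / (1 - 2 * τ) ^ 3 ≤ 1 + δ := by
  have h1 : 0 < 1 - 2 * τ := by linarith
  have h2 : (1 - 2 * τ) ^ 3 ≤ 1 := pow_le_one₀ h1.le (by linarith)
  have h3 : (1 / 2 : ℝ) ^ 3 ≤ (1 - 2 * τ) ^ 3 := pow_le_pow_left₀ (by norm_num) (by linarith) 3
  have h4 : 1 - 6 * τ ≤ (1 - 2 * τ) ^ 3 := by nlinarith [mul_pos hτ hτ]
  have h5 : 0 < (1 - 2 * τ) ^ 3 := by positivity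
  constructor
  · rw [le_div_iff₀ h5]; linarith
  · rw [div_le_iff₀ h5]
    have hδ0 : 0 < δ := by linarith
    have : δ * (1 / 2 : ℝ) ^ 3 ≤ δ * (1 - 2 * τ) ^ 3 := mul_le_mul_of_nonneg_left h3 hδ0.le
    nlinarith

/-- the middle range -/
theorem mid {G r q δ η c₀ Λ p N : ℝ} (hp : 0 < p) (hΛ : 0 < Λ) (hq : 1 ≤ q) (hqδ : q ≤ 1 + δ)
    (hδ : δ ≤ η / 8) (hη : 0 < η) (hc₀ : 0 ≤ c₀) (h1 : 24 ≤ Λ * p * η) (h2 : 8 * N * c₀ ≤ Λ * η)
    (hr : r ≤ N) (g1 : -1 ≤ G) (g2 : (p * r - p * q) * (Λ - c₀) - 3 ≤ G) :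
    r - 1 - η / 2 ≤ G / (Λ * p) := by
  have hΛp : 0 < Λ * p := by positivity
  rw [le_div_iff₀ hΛp]
  rcases le_total r q with h | h
  · have : r - 1 - η / 2 ≤ -(η / 8) := by linarith
    have := mul_le_mul_of_nonneg_right this hΛp.le
    nlinarith
  · have a1 : (r - q) * c₀ ≤ N * c₀ := mul_le_mul_of_nonneg_right (by linarith) hc₀
    have a2 : p * ((r - q) * c₀) ≤ p * (Λ * η / 8) :=
      mul_le_mul_of_nonneg_left (by linarith) hp.le
    have a3 : r - 1 - η / 8 ≤ r - q := by linarith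
    have a4 := mul_le_mul_of_nonneg_right a3 hΛp.le
    nlinarith

/-- the steep range -/
theorem high {G r q δ η Λ p n M K β : ℝ} (hp : 0 < p) (hΛ : 0 < Λ) (hqδ : q ≤ 1 + δ)
    (hδ : 0 < δ) (hn : 0 < n) (hM : 0 ≤ M) (h1 : 24 ≤ Λ * p * η) (hβ : 1 / 2 ≤ β)
    (hK : 8 * Λ * (M + 1 / δ) ≤ K) (hr : n + 2 * (n * δ) ≤ r)
    (g1 : β * K / 2 * (p * r - n * (p * q)) - 1 ≤ G) :
    n - 1 + M * (r - n) - η ≤ G / (Λ * p) := by
  have hΛp : 0 < Λ * p := by positivity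
  have hnδ : 0 < n * δ := by positivity
  have hK0 : 0 ≤ K := le_trans (by positivity) hK
  have a1 : n * q ≤ n + n * δ := by nlinarith
  have a2 : (r - n) / 2 ≤ r - n * q := by linarith
  have a3 : 0 ≤ r - n := by linarith
  have a4 : K / 4 ≤ β * K / 2 := by nlinarith
  have a5 : K / 4 * (p * ((r - n) / 2)) ≤ β * K / 2 * (p * r - n * (p * q)) := by
    refine mul_le_mul a4 ?_ (by positivity) (by linarith)
    have := mul_le_mul_of_nonneg_left a2 hp.le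
    linarith
  have a6 : n ≤ 1 / δ * (r - n) := by
    rw [one_div, ← div_eq_inv_mul, le_div_iff₀ hδ]; linarith
  have a7 : 8 * Λ * (M + 1 / δ) * (p * (r - n)) ≤ K * (p * (r - n)) :=
    mul_le_mul_of_nonneg_right hK (by positivity)
  have a8 := mul_le_mul_of_nonneg_right a6 hΛp.le
  rw [le_div_iff₀ hΛp]
  nlinarith

end InitPAux

set_option maxHeartbeats 400000 in
open InitPAux in
/-- Choose `τ ∈ (0, 1/4]` so small that `q := 1 / (1 - 2 τ) ^ 3` satisfies `q - 1 ≤ η / 4`,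
`2 n (q - 1) ≤ 1` and `2 n (q - 1) M ≤ η / 4`; put `ξ = n (q - 1) > 0`.  Then take `Λ` large and
`ε = exp (-Λ / 3)` (so `vB (c ε) = vB c * exp (-Λ)`), and finally `K` large:
`A Λ ≤ K`, `exp (-K / 2) vB 1 ≤ vB (C ε)`, `16 Λ M ≤ K`, `16 Λ (n - 1) ≤ 2 ξ K`.
With `κ = 2 vB (C ε)`, `-log κ = Λ - log (2 vB C)`.
* `low₀`: `TD.neg_one_le`, `1 / (Λ p) ≤ η / 4`.
* for `r ≤ n + 1`, `nrm g p Λ β r ≥ r - 1 - η / 2 - ..`: if `r ≤ q` use `low₀`, else
  `Core.entropy_lim`: `≥ (r - q) (1 - log (2 vB C) / Λ) - 3 / (Λ p)`.  This gives `low₁`, and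
  `low₂` for `r ≤ n + 2 ξ`; for `r ≥ n + 2 ξ`, `r - n q ≥ (r - n) / 2` and `Core.steep` gives
  `≥ K (r - n) / (8 Λ) - 1 / (Λ p) ≥ M (r - n) + (n - 1) - η`.
* `st₁`, `st₂`: `Core.state` with `single_W` / `Core.cluster_W` and small `γ`; `r = m q' / p`,
  `nrm g p Λ β r ≤ (q' / p) b / Λ`, `b / Λ → 0`, respectively `→ n - 1`, as `Λ → ∞`. -/
theorem exists_params {n : ℕ} {C ρ₀ : ℝ} (hc : Clu n C ρ₀) {p : ℝ} (hp : Dens p) {M η A : ℝ}
    (hM : 0 ≤ M) (hη : 0 < η) (hA : 0 ≤ A) :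
    ∃ τ ε K Λ : ℝ, 0 < τ ∧ τ ≤ 1 / 4 ∧ 0 < ε ∧ C * ε ≤ τ / 8 ∧ 1 ≤ Λ ∧ 1 ≤ Λ * p ∧ A * Λ ≤ K ∧
      ∀ φ₀ g, Core φ₀ C ρ₀ ε τ K → TD φ₀ g → Init (nrm g p Λ) n M η := by
  have hn : (2 : ℝ) ≤ n := by exact_mod_cast hc.two
  have hp0 := hp.pos
  have hC := hc.hC
  have hρ₀ := hc.pos
  obtain ⟨δ, hδ, hδ1, hδ2, hδ3⟩ : ∃ δ : ℝ, 0 < δ ∧ δ ≤ η / 8 ∧ 2 * (n * δ) ≤ 1 ∧
      2 * (n * δ) * M ≤ η / 8 := by
    refine ⟨min (η / 8) (min (1 / (2 * n)) (η / (16 * n * (M + 1)))), by positivity,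
      min_le_left _ _, ?_, ?_⟩
    · have h : min (η / 8) (min (1 / (2 * (n : ℝ))) (η / (16 * n * (M + 1)))) ≤ 1 / (2 * n) :=
        (min_le_right _ _).trans (min_le_left _ _)
      rw [le_div_iff₀ (by positivity)] at h
      linarith
    · have h : min (η / 8) (min (1 / (2 * (n : ℝ))) (η / (16 * n * (M + 1)))) ≤
          η / (16 * n * (M + 1)) := (min_le_right _ _).trans (min_le_right _ _)
      have h0 : 0 < min (η / 8) (min (1 / (2 * (n : ℝ))) (η / (16 * n * (M + 1)))) := by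
        positivity
      rw [le_div_iff₀ (by positivity)] at h
      generalize min (η / 8) (min (1 / (2 * (n : ℝ))) (η / (16 * n * (M + 1)))) = d at h h0
      have : 0 < (n : ℝ) * d := by positivity
      nlinarith
  obtain ⟨τ, hτ, hτ', hτδ⟩ : ∃ τ : ℝ, 0 < τ ∧ τ ≤ 1 / 4 ∧ 48 * τ ≤ δ :=
    ⟨min (1 / 4) (δ / 48), by positivity, min_le_left _ _, by
      have := min_le_right (1 / 4 : ℝ) (δ / 48); linarith⟩
  obtain ⟨hq1, hq2⟩ := q_bounds hτ hτ' hτδ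
  set c₀ := Real.log 2 + Real.log (vB C) with hc₀
  have hvC : 1 ≤ vB C := by
    unfold vB
    have h1 : (1 : ℝ) ≤ C ^ 3 := one_le_pow₀ (by linarith)
    have := Real.pi_gt_three
    nlinarith
  have hc₀0 : 0 ≤ c₀ := add_nonneg (Real.log_nonneg (by norm_num)) (Real.log_nonneg hvC)
  set b₁ := -Real.log (vB (τ / 4)) with hb₁
  set c₂ := Real.log n.factorial - Real.log (vB (τ / 8)) -
    ((n : ℝ) - 1) * Real.log (vB (ρ₀ / 4)) with hc₂
  obtain ⟨Λ, ⟨⟨⟨hΛ1, hΛ2⟩, hΛ3, hΛ4⟩, ⟨hΛ5, hΛ6⟩, hΛ7, hΛ8⟩⟩ :=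
    ((((eventually_ge_atTop (1 : ℝ)).and (eventually_ge_atTop (1 / p))).and
      ((eventually_ge_atTop (24 / (p * η))).and (eventually_ge_atTop (24 * C / τ)))).and
      (((eventually_ge_atTop c₀).and (eventually_ge_atTop (8 * (n + 1) * c₀ / η))).and
      ((eventually_ge_atTop (2 * |b₁| / η)).and (eventually_ge_atTop (4 * |c₂| / η))))).exists
  have hΛ0 : 0 < Λ := by linarith
  rw [div_le_iff₀ hp0] at hΛ2
  rw [div_le_iff₀ (by positivity)] at hΛ3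
  rw [div_le_iff₀ hτ] at hΛ4
  rw [div_le_iff₀ hη] at hΛ6 hΛ7 hΛ8
  have hΛp : 0 < Λ * p := by positivity
  have hΛ3' : 24 ≤ Λ * p * η := by linarith
  set ε := Real.exp (-Λ / 3) with hεd
  have hε : 0 < ε := Real.exp_pos _
  have hεΛ : ε * Λ ≤ 3 := by
    have h1 : Λ / 3 + 1 ≤ Real.exp (Λ / 3) := Real.add_one_le_exp _
    have h2 : ε * Real.exp (Λ / 3) = 1 := by
      rw [hεd, ← Real.exp_add]; simp [neg_div]
    have h3 := mul_le_mul_of_nonneg_left h1 hε.le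
    linarith
  have hετ : C * ε ≤ τ / 8 := by
    have h0 := mul_le_mul_of_nonneg_left hεΛ (show 0 ≤ C by linarith)
    have h1 : C * ε * Λ ≤ τ / 8 * Λ := by linarith
    exact le_of_mul_le_mul_right h1 hΛ0
  set K := Λ * (A + 2 + 8 * (M + 1 / δ)) with hKd
  have hMδ : 0 ≤ M + 1 / δ := by positivity
  have hK0 : 0 ≤ K := by positivity
  have hAΛ : 0 ≤ A * Λ := by positivity
  have hMΛ : 0 ≤ Λ * (M + 1 / δ) := by positivity
  have hKA : A * Λ ≤ K := by rw [hKd]; linarith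
  have hK2 : 2 * Λ ≤ K := by rw [hKd]; linarith
  have hK3 : 8 * Λ * (M + 1 / δ) ≤ K := by rw [hKd]; linarith
  clear_value K
  have hε3 : ε ^ 3 = Real.exp (-Λ) := by
    rw [hεd, ← Real.exp_nat_mul]; congr 1; push_cast; ring
  have hvCε : 0 < vB (C * ε) := vB_pos (by positivity)
  have hlogκ : -Real.log (2 * vB (C * ε)) = Λ - c₀ := by
    rw [Real.log_mul (by norm_num) hvCε.ne', mul_comm C ε, hεd, log_vB_exp (by linarith), hc₀]
    ring
  have hκ1 : 2 * vB (C * ε) ≤ 1 := by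
    rw [← Real.log_nonpos_iff (by positivity)]
    linarith
  have hκ : vB (C * ε) + Real.exp (-K / 2) * vB 1 ≤ 2 * vB (C * ε) := by
    have h1 : Real.exp (-K / 2) ≤ ε ^ 3 := by
      rw [hε3]; exact Real.exp_le_exp.2 (by linarith)
    have h2 : vB (C * ε) = C ^ 3 * (ε ^ 3 * vB 1) := by unfold vB; ring
    have h3 : (1 : ℝ) ≤ C ^ 3 := one_le_pow₀ (by linarith)
    have h4 := vB_pos (R := 1) one_pos
    have h5 : Real.exp (-K / 2) * vB 1 ≤ ε ^ 3 * vB 1 := mul_le_mul_of_nonneg_right h1 h4.le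
    have h6 : 0 ≤ ε ^ 3 * vB 1 := by positivity
    have h7 := mul_le_mul_of_nonneg_right h3 h6
    linarith
  refine ⟨τ, ε, K, Λ, hτ, hτ', hε, hετ, hΛ1, hΛ2, hKA, fun φ₀ g h hg => ?_⟩
  have l0 : ∀ β, 1 / 2 ≤ β → ∀ r, 0 ≤ r → -1 ≤ g β (p * r) := fun β hβ r hr =>
    hg.neg_one_le (stab h) h.nonneg (by linarith) (by positivity)
  have l1 : ∀ β, 1 / 2 ≤ β → ∀ r : ℝ, 0 ≤ r → r ≤ n + 1 → r - 1 - η / 2 ≤ nrm g p Λ β r := by
    intro β hβ r hr hr'
    have e := h.entropy_lim (by positivity) hτ hτ' hK0 hκ hκ1 hp hg hβ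
      (show 0 ≤ p * r by positivity)
    rw [hlogκ, div_eq_mul_one_div p] at e
    exact mid hp0 hΛ0 hq1 hq2 hδ1 hη hc₀0 hΛ3' hΛ6 hr' (l0 β hβ r hr) e
  obtain ⟨γ, hγ, hγ1, hγ2⟩ : ∃ γ : ℝ, 0 < γ ∧ γ ≤ 1 ∧ n * γ ≤ η / 2 := by
    refine ⟨min 1 (η / (2 * n)), by positivity, min_le_left _ _, ?_⟩
    have := min_le_right (1 : ℝ) (η / (2 * n))
    rw [le_div_iff₀ (by positivity)] at this
    linarith
  have key : ∀ q : ℝ, |q - p| ≤ p * γ → |q / p - 1| ≤ γ := by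
    intro q hq
    have : q / p - 1 = (q - p) / p := by field_simp
    rw [this, abs_div, abs_of_pos hp0, div_le_iff₀ hp0]
    linarith
  refine ⟨fun β hβ _ r hr => ?_, fun β hβ _ r hr hr' => ?_, fun β hβ _ r hr => ?_, ?_, ?_⟩
  · have := l0 β hβ r hr
    unfold nrm
    rw [le_div_iff₀ hΛp]
    linarith
  · have := l1 β hβ r hr (by linarith)
    linarith
  · rcases le_total r (n + 2 * (n * δ)) with hr' | hr'
    · have h1 := l1 β hβ r (by linarith) (by linarith)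
      have h2 : M * (r - n) ≤ M * (2 * (n * δ)) := mul_le_mul_of_nonneg_left (by linarith) hM
      linarith
    · have e := h.steep hc hε hτ hτ' hετ hK0 hp hg (show 0 < β by linarith)
        (show 0 ≤ p * r by have : 0 ≤ r := by linarith
                           positivity)
      rw [div_eq_mul_one_div p] at e
      exact high hp0 hΛ0 hq2 hδ (by linarith) hM hΛ3' hβ hK3 hr' e
  · obtain ⟨q, hq0, hq, hq'⟩ := h.state hτ hτ' hp hg 1 (b := b₁)
      (fun β _ => single_W _ hτ) (show 0 < p * γ by positivity)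
    have k := key q hq
    have k' := abs_le.1 k
    refine ⟨q / p, by positivity, k.trans (by linarith [mul_le_mul_of_nonneg_right hn hγ.le]), fun β hβ => ?_⟩
    have e := hq' β hβ
    have e1 : p * (q / p) = ((1 : ℕ) : ℝ) * q := by field_simp; simp
    unfold nrm
    rw [e1, div_le_iff₀ hΛp]
    have e2 : q ≤ 2 * p := by
      have : q / p ≤ 2 := by linarith
      rwa [div_le_iff₀ hp0] at this
    have e3 : q * b₁ ≤ 2 * p * |b₁| :=
      (mul_le_mul_of_nonneg_left (le_abs_self _) hq0).trans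
        (mul_le_mul_of_nonneg_right e2 (abs_nonneg _))
    have e4 := mul_le_mul_of_nonneg_left hΛ7 hp0.le
    linarith
  · obtain ⟨q, hq0, hq, hq'⟩ := h.state hτ hτ' hp hg n
      (fun β _ => h.cluster_W hc hε hτ hετ β) (show 0 < p * γ by positivity)
    have k := key q hq
    have k' := abs_le.1 k
    refine ⟨n * (q / p), by positivity, ?_, fun β hβ => ?_⟩
    · rw [← mul_sub_one, abs_mul, abs_of_nonneg (by linarith : (0 : ℝ) ≤ n)]
      have := mul_le_mul_of_nonneg_left k (by linarith : (0 : ℝ) ≤ n)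
      linarith
    have e := hq' β hβ
    have e0 : Real.log (vB (ε * ρ₀ / 4)) = -Λ + Real.log (vB (ρ₀ / 4)) := by
      rw [mul_div_assoc, hεd, log_vB_exp (by positivity)]
    have e0' : Real.log n.factorial - Real.log (vB (τ / 8)) -
        ((n : ℝ) - 1) * Real.log (vB (ε * ρ₀ / 4)) = (n - 1) * Λ + c₂ := by
      rw [e0, hc₂]; ring
    rw [e0'] at e
    have e1 : p * (n * (q / p)) = n * q := by field_simp
    unfold nrm
    rw [e1, div_le_iff₀ hΛp]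
    have e2 : q ≤ (1 + γ) * p := by
      have : q / p ≤ 1 + γ := by linarith
      rwa [div_le_iff₀ hp0] at this
    have e2' : q ≤ 2 * p := by linarith [mul_le_mul_of_nonneg_right hγ1 hp0.le]
    have e3 : q * c₂ ≤ 2 * p * |c₂| :=
      (mul_le_mul_of_nonneg_left (le_abs_self _) hq0).trans
        (mul_le_mul_of_nonneg_right e2' (abs_nonneg _))
    have e4 := mul_le_mul_of_nonneg_left hΛ8 hp0.le
    have e5 : q * ((n - 1) * Λ) ≤ (1 + γ) * p * ((n - 1) * Λ) :=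
      mul_le_mul_of_nonneg_right e2 (mul_nonneg (by linarith) hΛ0.le)
    have e6 : (n - 1) * γ ≤ η / 2 := by linarith
    have e7 := mul_le_mul_of_nonneg_right e6 hΛp.le
    linarith

end Crest.Agent.R149
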