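import Crest.Agent.R149.KacA
import Crest.Agent.R149.Cells

/-!
# Row 149: the two quadratic bounds for the Kac potential
-/

set_option autoImplicit false
open MeasureTheory Set Filter Topology Crest.ProbabilityR.Continuum
open scoped ENNReal

namespace Crest.Agent.R149

namespace KacBAux

/-- indicator of a ball -/
noncomputable def ind (R : ℝ) (y z : Pt) : ℝ := (Metric.ball y R).indicator (fun _ => (1 : ℝ)) z

theorem ind_eq (R : ℝ) (y z : Pt) : ind R y z = if dist z y < R then 1 else 0 := by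
  by_cases h : dist z y < R <;> simp [ind, h]

theorem ind_mul (R : ℝ) (y y' z : Pt) : ind R y z * ind R y' z =
    (Metric.ball y R ∩ Metric.ball y' R).indicator (fun _ => (1 : ℝ)) z := by
  simp only [ind]
  by_cases h : z ∈ Metric.ball y R <;> by_cases h' : z ∈ Metric.ball y' R <;> simp [h, h']

theorem integrable_ind (R : ℝ) (y : Pt) : Integrable (ind R y) :=
  (integrable_indicator_iff Metric.isOpen_ball.measurableSet).2
    (integrableOn_const (measure_ball_lt_top).ne)

theorem integral_ind {R : ℝ} (hR : 0 < R) (y : Pt) : ∫ z, ind R y z = vB R := by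
  unfold ind
  rw [integral_indicator_const _ Metric.isOpen_ball.measurableSet, Measure.real,
    volume_ball y hR.le, ENNReal.toReal_ofReal (vB_pos hR).le, smul_eq_mul, mul_one]

theorem integrable_ind_mul (R : ℝ) (y y' : Pt) : Integrable fun z => ind R y z * ind R y' z := by
  simp only [ind_mul]
  exact (integrable_indicator_iff
    (Metric.isOpen_ball.measurableSet.inter Metric.isOpen_ball.measurableSet)).2
    (integrableOn_const ((measure_mono Set.inter_subset_left).trans_lt measure_ball_lt_top).ne)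

theorem kac_eq (R : ℝ) (y y' : Pt) :
    kac R (dist y y') = (∫ z, ind R y z * ind R y' z) / vB R ^ 2 := by
  simp only [ind_mul]
  rw [kac_dist, integral_indicator_const _
    (Metric.isOpen_ball.measurableSet.inter Metric.isOpen_ball.measurableSet), Measure.real,
    smul_eq_mul, mul_one]

theorem integrable_sq (R : ℝ) {N : ℕ} (x : Fin N → Pt) :
    Integrable fun z => ∑ i, ∑ j, ind R (x i) z * ind R (x j) z :=
  integrable_finsetSum _ fun _ _ => integrable_finsetSum _ fun _ _ => integrable_ind_mul _ _ _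

theorem sum_kac_eq (R : ℝ) {N : ℕ} (x : Fin N → Pt) :
    ∑ i, ∑ j, kac R (dist (x i) (x j)) =
      (∫ z, ∑ i, ∑ j, ind R (x i) z * ind R (x j) z) / vB R ^ 2 := by
  rw [integral_finsetSum _ fun _ _ => integrable_finsetSum _ fun _ _ => integrable_ind_mul _ _ _,
    Finset.sum_div]
  refine Finset.sum_congr rfl fun i _ => ?_
  rw [integral_finsetSum _ fun _ _ => integrable_ind_mul _ _ _, Finset.sum_div]
  exact Finset.sum_congr rfl fun j _ => kac_eq R _ _

theorem card_sq_le {ι κ : Type*} [DecidableEq κ] (S : Finset ι) (f : ι → κ) :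
    (S.card : ℝ) ^ 2 ≤ (S.image f).card * ∑ i ∈ S, ∑ j ∈ S, if f i = f j then (1 : ℝ) else 0 := by
  have h1 : (S.card : ℝ) = ∑ q ∈ S.image f, ((S.filter fun i => f i = q).card : ℝ) := by
    rw [Finset.card_eq_sum_card_image f S]; push_cast; rfl
  have h2 : (∑ i ∈ S, ∑ j ∈ S, if f i = f j then (1 : ℝ) else 0) =
      ∑ q ∈ S.image f, ((S.filter fun i => f i = q).card : ℝ) ^ 2 := by
    rw [Finset.sum_comp (fun q => ∑ j ∈ S, if q = f j then (1 : ℝ) else 0) f]
    refine Finset.sum_congr rfl fun q _ => ?_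
    rw [Finset.sum_boole, nsmul_eq_mul, sq]
    simp only [eq_comm]
  rw [h1, h2]
  exact sq_sum_le_card_mul_sum_sq

theorem card_cells_le {R : ℝ} (hR : 0 < R) {l : ℕ} (hl : 1 ≤ l) (t : Fin 3 → ℤ) (z : Pt)
    (T : Finset (Fin 3 → ℤ)) (hT : ∀ q ∈ T, ∃ y, dist z y < R ∧ cl l t y = q) :
    (T.card : ℝ) * (l : ℝ) ^ 3 ≤ vB (R + 2 * l) := by
  have hR' : 0 < R + 2 * l := by positivity
  have h1 : volume (⋃ q ∈ T, {x : Pt | cl l t x = q}) = ∑ q ∈ T, volume {x : Pt | cl l t x = q} := by
    refine measure_biUnion_finset (fun q _ q' _ hne => ?_) fun q _ => measurableSet_cell l t q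
    exact Set.disjoint_left.2 fun x hx hx' => hne (hx.symm.trans hx')
  have h2 : (⋃ q ∈ T, {x : Pt | cl l t x = q}) ⊆ Metric.closedBall z (R + 2 * l) := by
    intro w hw
    simp only [Set.mem_iUnion, Set.mem_ofPred_eq] at hw
    obtain ⟨q, hq, hw⟩ := hw
    obtain ⟨y, hy, hyq⟩ := hT q hq
    have h3 := dist_le_of_cl hl (hw.trans hyq.symm)
    have h4 := dist_triangle_right w z y
    rw [Metric.mem_closedBall]
    linarith
  have h3 := measure_mono (μ := volume) h2
  rw [h1, volume_closedBall z hR'.le] at h3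
  simp only [volume_cell hl, Finset.sum_const, nsmul_eq_mul] at h3
  rw [← ENNReal.ofReal_natCast, ← ENNReal.ofReal_mul (Nat.cast_nonneg _),
    ENNReal.ofReal_le_ofReal_iff (vB_pos hR').le] at h3
  exact h3

theorem pointwise {R : ℝ} (hR : 0 < R) {l : ℕ} (hl : 1 ≤ l) (t : Fin 3 → ℤ) {N : ℕ}
    (x : Fin N → Pt) (z : Pt) :
    ∑ i, ∑ j, ind R (x i) z * ind R (x j) z ≤ vB (R + 2 * l) / (l : ℝ) ^ 3 *
      ∑ i, ∑ j, (if cl l t (x i) = cl l t (x j) then (1 : ℝ) else 0) * ind R (x i) z := by
  classical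
  set S : Finset (Fin N) := Finset.univ.filter fun i => dist z (x i) < R with hS
  have hl' : (0 : ℝ) < (l : ℝ) ^ 3 := by positivity
  have h1 : ∑ i, ∑ j, ind R (x i) z * ind R (x j) z = (S.card : ℝ) ^ 2 := by
    rw [← Finset.sum_mul_sum, ← sq]
    simp only [ind_eq, Finset.sum_boole, hS]
  have h2 := card_sq_le S fun i => cl l t (x i)
  have h3 : ((S.image fun i => cl l t (x i)).card : ℝ) ≤ vB (R + 2 * l) / (l : ℝ) ^ 3 := by
    rw [le_div_iff₀ hl']
    refine card_cells_le hR hl t z _ fun q hq => ?_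
    obtain ⟨i, hi, rfl⟩ := Finset.mem_image.1 hq
    exact ⟨x i, (Finset.mem_filter.1 hi).2, rfl⟩
  have h4 : (∑ i ∈ S, ∑ j ∈ S, if cl l t (x i) = cl l t (x j) then (1 : ℝ) else 0) ≤
      ∑ i, ∑ j, (if cl l t (x i) = cl l t (x j) then (1 : ℝ) else 0) * ind R (x i) z := by
    rw [hS, Finset.sum_filter]
    refine Finset.sum_le_sum fun i _ => ?_
    rw [ind_eq]
    split_ifs with hi
    · simp only [mul_one]
      exact Finset.sum_le_sum_of_subset_of_nonneg (Finset.subset_univ _) fun j _ _ => by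
        split_ifs <;> norm_num
    · simp
  have h5 : 0 ≤ ∑ i ∈ S, ∑ j ∈ S, if cl l t (x i) = cl l t (x j) then (1 : ℝ) else 0 :=
    Finset.sum_nonneg fun i _ => Finset.sum_nonneg fun j _ => by split_ifs <;> norm_num
  rw [h1]
  exact h2.trans (mul_le_mul h3 h4 h5 ((Nat.cast_nonneg _).trans h3))

end KacBAux

open KacBAux

/-- Schur bound.  With `H z = #{i | z ∈ B(x i, R)}`, `∑ i j, vol (B(x i) ∩ B(x j)) = ∫ H ^ 2`.
For fixed `z`, the cells of the `x i` with `z ∈ B(x i, R)` are disjoint, have volume `l ^ 3`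
(`volume_cell`) and lie in the closed ball `B(z, R + 2 l)` (`dist_le_of_cl`), so there are at most
`M = vB (R + 2 l) / l ^ 3` of them; Cauchy–Schwarz gives
`H z ^ 2 ≤ M * #{(i, j) in the same cell, z ∈ B(x i, R)}`, whose integral is
`M * vB R * Qc l t x`. -/
theorem kac_schur {R : ℝ} (hR : 0 < R) {l : ℕ} (hl : 1 ≤ l) (t : Fin 3 → ℤ) {N : ℕ}
    (x : Fin N → Pt) :
    ∑ i, ∑ j, kac R (dist (x i) (x j)) ≤ (1 + 2 * l / R) ^ 3 / (l : ℝ) ^ 3 * Qc l t x := by
  have hv := vB_pos hR
  have hl' : (0 : ℝ) < l := by exact_mod_cast hl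
  have hi : ∀ i j, Integrable fun z =>
      (if cl l t (x i) = cl l t (x j) then (1 : ℝ) else 0) * ind R (x i) z :=
    fun i j => (integrable_ind R (x i)).const_mul _
  have h1 : ∫ z, ∑ i, ∑ j, (if cl l t (x i) = cl l t (x j) then (1 : ℝ) else 0) * ind R (x i) z =
      Qc l t x * vB R := by
    rw [integral_finsetSum _ fun i _ => integrable_finsetSum _ fun j _ => hi i j, Qc,
      Finset.sum_mul]
    refine Finset.sum_congr rfl fun i _ => ?_
    rw [integral_finsetSum _ fun j _ => hi i j, Finset.sum_mul]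
    refine Finset.sum_congr rfl fun j _ => ?_
    rw [integral_const_mul, integral_ind hR]
  have h2 := integral_mono (integrable_sq R x)
    ((integrable_finsetSum _ fun i _ => integrable_finsetSum _ fun j _ => hi i j).const_mul
      (vB (R + 2 * l) / (l : ℝ) ^ 3)) (pointwise hR hl t x)
  rw [integral_const_mul, h1] at h2
  rw [sum_kac_eq, div_le_iff₀ (by positivity)]
  refine h2.trans_eq ?_
  unfold vB
  field_simp

theorem kac_sch {R : ℝ} (hR : 1 ≤ R) : Sch (kac R) 27 := by
  intro N x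
  have hR' : 0 < R := by linarith
  refine (kac_schur hR' le_rfl 0 x).trans (mul_le_mul_of_nonneg_right ?_ (Qc_nonneg _ _ _))
  have h1 : 2 / R ≤ 2 := by rw [div_le_iff₀ hR']; linarith
  have h2 : 0 ≤ 2 / R := by positivity
  have h3 : (1 + 2 / R) ^ 3 ≤ 3 ^ 3 := pow_le_pow_left₀ (by linarith) (by linarith) 3
  simp only [Nat.cast_one, mul_one, one_pow, div_one]
  linarith

/-- `H` vanishes outside the cube `[-R, L + R] ^ 3` of volume `V = (L + 2 R) ^ 3` and
`∫ H = N vB R`; integrate `H ^ 2 ≥ 2 c H - c ^ 2` over that cube with `c = N vB R / V`. -/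
theorem kac_sum_ge {R L : ℝ} (hR : 0 < R) (hL : 0 ≤ L) {N : ℕ} (x : Fin N → Pt)
    (hx : ∀ i, x i ∈ cube L) :
    (N : ℝ) ^ 2 / (L + 2 * R) ^ 3 ≤ ∑ i, ∑ j, kac R (dist (x i) (x j)) := by
  have hv := vB_pos hR
  have hL' : 0 < L + 2 * R := by linarith
  have hV : 0 < (L + 2 * R) ^ 3 := by positivity
  set v : Pt := WithLp.toLp 2 fun _ => R with hvdef
  set A : Set Pt := (fun z => z + v) ⁻¹' cube (L + 2 * R) with hA
  have hAm : MeasurableSet A := (measurableSet_cube _).preimage (measurable_add_const v)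
  have hAv : volume A = ENNReal.ofReal ((L + 2 * R) ^ 3) := by
    rw [hA, measure_preimage_add_right, volume_cube hL'.le]
  set c : ℝ := N * vB R / (L + 2 * R) ^ 3 with hc
  have hiA : Integrable (A.indicator fun _ => (1 : ℝ)) :=
    (integrable_indicator_iff hAm).2 (integrableOn_const (by rw [hAv]; exact ENNReal.ofReal_ne_top))
  have hiH : Integrable fun z => ∑ i, ind R (x i) z :=
    integrable_finsetSum _ fun i _ => integrable_ind R (x i)
  have hpt : ∀ z, 2 * c * (∑ i, ind R (x i) z) - c ^ 2 * A.indicator (fun _ => (1 : ℝ)) z ≤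
      ∑ i, ∑ j, ind R (x i) z * ind R (x j) z := fun z => by
    rw [← Finset.sum_mul_sum]
    by_cases hz : z ∈ A
    · rw [Set.indicator_of_mem hz]
      nlinarith [sq_nonneg (∑ i, ind R (x i) z - c)]
    · have h0 : ∑ i, ind R (x i) z = 0 := by
        refine Finset.sum_eq_zero fun i _ => ?_
        rw [ind_eq, if_neg]
        intro hd
        refine hz fun k => ?_
        have h1 := (PiLp.dist_apply_le z (x i) k).trans_lt hd
        rw [Real.dist_eq, abs_lt] at h1
        have h2 := hx i k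
        have h3 : (z + v) k = z k + R := by simp [hvdef]
        rw [h3]
        constructor <;> linarith [h1.1, h1.2, h2.1, h2.2]
      rw [Set.indicator_of_notMem hz, h0]
      simp
  have h1 := integral_mono ((hiH.const_mul (2 * c)).sub (hiA.const_mul (c ^ 2)))
    (integrable_sq R x) hpt
  have h2 : ∫ z, ∑ i, ind R (x i) z = N * vB R := by
    rw [integral_finsetSum _ fun i _ => integrable_ind R (x i)]
    simp [integral_ind hR]
  have h3 : ∫ z, A.indicator (fun _ => (1 : ℝ)) z = (L + 2 * R) ^ 3 := by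
    rw [integral_indicator_const _ hAm, Measure.real, hAv, ENNReal.toReal_ofReal hV.le, smul_eq_mul,
      mul_one]
  simp only [Pi.sub_apply] at h1
  rw [integral_sub (hiH.const_mul (2 * c)) (hiA.const_mul (c ^ 2)), integral_const_mul,
    integral_const_mul, h2, h3] at h1
  rw [sum_kac_eq, le_div_iff₀ (by positivity)]
  refine le_trans (le_of_eq ?_) h1
  rw [hc]
  field_simp
  ring

end Crest.Agent.R149
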