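import Crest.Agent.R149.Basic

/-!
# Row 149: the link with `partitionFn`
-/

set_option autoImplicit false
open MeasureTheory Set Filter Topology Crest.ProbabilityR.Continuum
open scoped ENNReal

namespace Crest.Agent.R149

namespace LinkAux

theorem cube_eq (L : ℝ) :
    cube L = (WithLp.ofLp : Pt → (Fin 3 → ℝ)) ⁻¹' Set.pi univ (fun _ => Icc (0 : ℝ) L) := by
  ext x
  exact ⟨fun h k _ => h k, fun h k => h k (mem_univ k)⟩

theorem eE_rpow (t a : ℝ) : eE t ^ a = eE (a * t) := by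
  unfold eE
  rw [ENNReal.ofReal_rpow_of_pos (Real.exp_pos t), ← Real.exp_mul, mul_comm]

theorem En_free {N : ℕ} (x : Fin N → Pt) : En (fun _ _ => (0 : ℝ)) x = 0 := by
  simp [En]

theorem part_eq (φ : ℝ → ℝ) (β L : ℝ) (N : ℕ)
    (hm : Measurable fun x : Fin N → Pt => En (rad φ β) x) :
    partitionFn φ L N β = (W (rad φ β) (cube L) N).toReal := by
  have e : (fun x : Fin N → Pt => Real.exp (-β * energy φ x)) =
      fun x => Real.exp (-En (rad φ β) x) := by
    funext x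
    rw [En_rad, neg_mul]
  have hm' : Measurable fun x : Fin N → Pt => Real.exp (-En (rad φ β) x) :=
    Real.measurable_exp.comp hm.neg
  unfold partitionFn W Y
  rw [e, integral_eq_lintegral_of_nonneg_ae (Eventually.of_forall fun x => (Real.exp_pos _).le)
    hm'.aestronglyMeasurable, ENNReal.toReal_div,
    ENNReal.toReal_natCast, one_div, mul_comm, div_eq_mul_inv]
  rfl

end LinkAux

open LinkAux

theorem measurableSet_cube (L : ℝ) : MeasurableSet (cube L) := by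
  rw [cube_eq]
  exact (PiLp.volume_preserving_ofLp (Fin 3)).measurable
    (MeasurableSet.univ_pi fun _ => measurableSet_Icc)

/-- (`EuclideanSpace.volume_preserving_measurableEquiv` / `PiLp.volume_preserving_ofLp`) -/
theorem volume_cube {L : ℝ} (hL : 0 ≤ L) : volume (cube L) = ENNReal.ofReal (L ^ 3) := by
  rw [cube_eq, (PiLp.volume_preserving_ofLp (Fin 3)).measure_preimage
    (MeasurableSet.univ_pi fun _ => measurableSet_Icc).nullMeasurableSet, volume_pi_pi]
  simp only [Real.volume_Icc, sub_zero, Finset.prod_const, Finset.card_univ, Fintype.card_fin]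
  rw [ENNReal.ofReal_pow hL]

theorem cube_mono {L L' : ℝ} (h : L ≤ L') : cube L ⊆ cube L' := by
  intro x hx k
  exact ⟨(hx k).1, (hx k).2.trans h⟩

/-- The integrand is positive, measurable and bounded (stability) on a set of finite positive
measure, so `partitionFn` is positive and equals `(W ..).toReal`
(`integral_eq_lintegral_of_nonneg_ae`). -/
theorem W_cube {φ : ℝ → ℝ} (hφ : Stab φ) {β L : ℝ} (hβ : 0 < β) (hL : 0 < L) (N : ℕ) :
    W (rad φ β) (cube L) N = eE (-F φ β L N) := by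
  have hm : Measurable fun x : Fin N → Pt => En (rad φ β) x :=
    measurable_En (measurable_rad hφ.meas β)
  have h0 : W (rad φ β) (cube L) N ≠ 0 := by
    unfold W Y
    refine (ENNReal.div_pos (ne_of_gt ?_) (ENNReal.natCast_ne_top _)).ne'
    have hm' : Measurable fun x : Fin N → Pt => eE (-En (rad φ β) x) := measurable_eE.comp hm.neg
    rw [setLIntegral_pos_iff hm']
    have hs : Function.support (fun x : Fin N → Pt => eE (-En (rad φ β) x)) = univ :=
      Set.eq_univ_of_forall fun x => eE_ne_zero _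
    rw [hs, univ_inter, volume_pi_pi, volume_cube hL.le, Finset.prod_const]
    exact ENNReal.pow_pos (ENNReal.ofReal_pos.2 (pow_pos hL 3)) _
  have h1 : W (rad φ β) (cube L) N ≠ ⊤ := by
    obtain ⟨B, hB⟩ := hφ.stable
    have h2 := W_le_of_En (ψ := rad φ β) (ψ' := fun _ _ => 0) (measurableSet_cube L) (N := N)
      (c := β * (B * N)) (fun x _ => by
        rw [En_free, En_rad]
        have := mul_le_mul_of_nonneg_left (hB N x) hβ.le
        linarith)
    rw [W_free, volume_cube hL.le] at h2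
    refine ne_top_of_le_ne_top ?_
      (h2.trans (mul_le_mul_right (pow_div_factorial_le (pow_pos hL 3).le N) _))
    exact ENNReal.mul_ne_top (eE_ne_top _) (eE_ne_top _)
  unfold F
  rw [neg_neg, part_eq φ β L N hm, eE_log (ENNReal.toReal_pos h0 h1), ENNReal.ofReal_toReal h1]

theorem F_zero (φ : ℝ → ℝ) (β L : ℝ) : F φ β L 0 = 0 := by
  unfold F
  rw [part_eq φ β L 0 Subsingleton.measurable, W_zero, ENNReal.toReal_one, Real.log_one, neg_zero]

theorem F_anti {φ : ℝ → ℝ} (hφ : Stab φ) {β L L' : ℝ} (hβ : 0 < β) (hL : 0 < L) (h : L ≤ L')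
    (N : ℕ) : F φ β L' N ≤ F φ β L N := by
  have h1 := W_mono_set (rad φ β) (cube_mono h) N
  rw [W_cube hφ hβ hL, W_cube hφ hβ (hL.trans_le h), eE_le_iff] at h1
  linarith

theorem F_compare {φ φ' : ℝ → ℝ} (hφ : Stab φ) (hφ' : Stab φ') {β β' L c : ℝ} (hβ : 0 < β)
    (hβ' : 0 < β') (hL : 0 < L) {N : ℕ}
    (h : ∀ x : Fin N → Pt, (∀ i, x i ∈ cube L) → β * energy φ x - c ≤ β' * energy φ' x) :
    F φ β L N - c ≤ F φ' β' L N := by
  have h1 := W_le_of_En (ψ := rad φ' β') (ψ' := rad φ β) (measurableSet_cube L) (N := N) (c := c)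
    (fun x hx => by rw [En_rad, En_rad]; exact h x hx)
  rw [W_cube hφ hβ hL, W_cube hφ' hβ' hL, ← eE_add, eE_le_iff] at h1
  linarith

/-- compare with the ideal gas (`W_free`, `pow_div_factorial_le`) -/
theorem F_ge {φ : ℝ → ℝ} (hφ : Stab φ) {β L c : ℝ} (hβ : 0 < β) (hL : 0 < L) {N : ℕ}
    (h : ∀ x : Fin N → Pt, (∀ i, x i ∈ cube L) → c ≤ β * energy φ x) :
    c - L ^ 3 ≤ F φ β L N := by
  have h1 := W_le_of_En (ψ := rad φ β) (ψ' := fun _ _ => 0) (measurableSet_cube L) (N := N)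
    (c := -c) (fun x hx => by
      rw [En_free, En_rad]
      have := h x hx
      linarith)
  rw [W_free, volume_cube hL.le, W_cube hφ hβ hL] at h1
  have h2 := h1.trans (mul_le_mul_right (pow_div_factorial_le (pow_pos hL 3).le N) _)
  rw [← eE_add, eE_le_iff] at h2
  linarith

/-- Hölder (`ENNReal.lintegral_mul_norm_pow_le` or `ENNReal.lintegral_mul_le_Lp_mul_Lq`) -/
theorem F_concave {φ : ℝ → ℝ} (hφ : Stab φ) {L : ℝ} (hL : 0 < L) (N : ℕ) :
    ConcaveOn ℝ (Ioi 0) (fun β => F φ β L N) := by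
  have hY : ∀ β, 0 < β → Y (rad φ β) (cube L) (Fin N) =
      eE (Real.log N.factorial - F φ β L N) := by
    intro β hβ
    rw [Y_eq_W, Fintype.card_fin, W_cube hφ hβ hL, sub_eq_add_neg, eE_add,
      eE_log (Nat.cast_pos.2 N.factorial_pos), ENNReal.ofReal_natCast]
  have hm : ∀ β, Measurable fun x : Fin N → Pt => eE (-En (rad φ β) x) := fun β =>
    measurable_eE.comp (measurable_En (measurable_rad hφ.meas β)).neg
  refine ⟨convex_Ioi 0, fun β₁ h₁ β₂ h₂ a b ha hb hab => ?_⟩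
  have h3 : 0 < a • β₁ + b • β₂ := convex_Ioi (0 : ℝ) h₁ h₂ ha hb hab
  have h4 : Y (rad φ (a • β₁ + b • β₂)) (cube L) (Fin N) ≤
      Y (rad φ β₁) (cube L) (Fin N) ^ a * Y (rad φ β₂) (cube L) (Fin N) ^ b := by
    unfold Y
    refine le_trans (le_of_eq ?_) (ENNReal.lintegral_mul_norm_pow_le (hm β₁).aemeasurable
      (hm β₂).aemeasurable ha hb hab)
    refine lintegral_congr fun x => ?_
    rw [eE_rpow, eE_rpow, ← eE_add, En_rad, En_rad, En_rad, smul_eq_mul, smul_eq_mul]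
    congr 1
    ring
  rw [hY _ h3, hY _ h₁, hY _ h₂, eE_rpow, eE_rpow, ← eE_add, eE_le_iff] at h4
  have h5 : Real.log N.factorial = a * Real.log N.factorial + b * Real.log N.factorial := by
    rw [← add_mul, hab, one_mul]
  simp only [smul_eq_mul] at h4 ⊢
  linarith

theorem tendsto_floor {ρ : ℝ} (hρ : 0 ≤ ρ) :
    Tendsto (fun L : ℝ => (⌊ρ * L ^ 3⌋₊ : ℝ) / L ^ 3) atTop (𝓝 ρ) := by
  exact (tendsto_nat_floor_mul_div_atTop hρ).comp (tendsto_pow_atTop three_ne_zero)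

theorem good_of_nonneg {φ : ℝ → ℝ} (hm : Measurable φ) (h0 : ∀ r, 0 ≤ φ r)
    (h1 : ∀ r, 1 ≤ r → φ r = 0) : Good φ := by
  refine ⟨⟨hm, 0, fun N x => ?_⟩, fun r hr => (h1 r hr).le⟩
  rw [neg_zero, zero_mul]
  exact Finset.sum_nonneg fun _ _ => h0 _

theorem Core.good {φ₀ : ℝ → ℝ} {C ρ₀ ε τ K : ℝ} (h : Core φ₀ C ρ₀ ε τ K) (hτ : 0 ≤ τ) :
    Good φ₀ :=
  good_of_nonneg h.meas h.nonneg fun r hr => h.far r (by linarith)

/-- passing a finite volume comparison to the limit -/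
theorem TD.le_of_eventually {φ φ' : ℝ → ℝ} {g g' : ℝ → ℝ → ℝ} (h : TD φ g) (h' : TD φ' g')
    {β β' ρ c : ℝ} (hβ : 0 < β) (hβ' : 0 < β') (hρ : 0 ≤ ρ) {u : ℝ → ℝ}
    (hu : Tendsto (fun L => u L / L ^ 3) atTop (𝓝 c))
    (hF : ∀ᶠ L : ℝ in atTop, F φ β L ⌊ρ * L ^ 3⌋₊ - u L ≤ F φ' β' L ⌊ρ * L ^ 3⌋₊) :
    g β ρ - c ≤ g' β' ρ := by
  refine le_of_tendsto_of_tendsto ((h.lim β hβ ρ hρ).sub hu) (h'.lim β' hβ' ρ hρ) ?_
  filter_upwards [hF, eventually_gt_atTop (0 : ℝ)] with L hL hL0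
  rw [← sub_div]
  exact div_le_div_of_nonneg_right hL (pow_pos hL0 3).le

theorem TD.ge_of_eventually {φ : ℝ → ℝ} {g : ℝ → ℝ → ℝ} (h : TD φ g) {β ρ c : ℝ} (hβ : 0 < β)
    (hρ : 0 ≤ ρ) {u : ℝ → ℝ} (hu : Tendsto (fun L => u L / L ^ 3) atTop (𝓝 c))
    (hF : ∀ᶠ L : ℝ in atTop, u L ≤ F φ β L ⌊ρ * L ^ 3⌋₊) : c ≤ g β ρ := by
  refine le_of_tendsto_of_tendsto hu (h.lim β hβ ρ hρ) ?_
  filter_upwards [hF, eventually_gt_atTop (0 : ℝ)] with L hL hL0
  exact div_le_div_of_nonneg_right hL (pow_pos hL0 3).le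

end Crest.Agent.R149
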