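import Crest.Agent.R149.Compare

/-!
# Row 149: decoupling the cells (energy level)
-/

set_option autoImplicit false
open MeasureTheory Set Filter Topology Crest.ProbabilityR.Continuum
open scoped ENNReal

namespace Crest.Agent.R149

/-- the decoupled pair function: `ψ - c` inside a cell, `0` across cells -/
noncomputable def dec (l : ℕ) (t : Fin 3 → ℤ) (ψ : Pt → Pt → ℝ) (c : ℝ) : Pt → Pt → ℝ :=
  fun x y => if cl l t x = cl l t y then ψ x y - c else 0

theorem measurable_dec (l : ℕ) (t : Fin 3 → ℤ) {ψ : Pt → Pt → ℝ}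
    (hψ : Measurable (Function.uncurry ψ)) (c : ℝ) :
    Measurable (Function.uncurry (dec l t ψ c)) := by
  have h := measurableSet_same_cell l t
  have e : Function.uncurry (dec l t ψ c) = fun z : Pt × Pt =>
      if cl l t z.1 = cl l t z.2 then Function.uncurry ψ z - c else 0 := by
    funext z
    rfl
  rw [e]
  exact Measurable.ite h (hψ.sub measurable_const) measurable_const

/-- inside one cell -/
theorem En_dec_cell (l : ℕ) (t q : Fin 3 → ℤ) (ψ : Pt → Pt → ℝ) (c : ℝ) {N : ℕ} (x : Fin N → Pt)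
    (hx : ∀ i, cl l t (x i) = q) : En (dec l t ψ c) x = En ψ x - c * ((N : ℝ) ^ 2 - N) := by
  have h1 : ∑ i : Fin N, ∑ j : Fin N, (if i = j then (0 : ℝ) else 1) = (N : ℝ) ^ 2 - N := by
    have : ∀ i j : Fin N, (if i = j then (0 : ℝ) else 1) = 1 - (if i = j then 1 else 0) := by
      intro i j
      split_ifs <;> simp
    simp only [this, Finset.sum_sub_distrib, Finset.sum_ite_eq, Finset.mem_univ, if_true,
      Finset.sum_const, Finset.card_univ, Fintype.card_fin, nsmul_eq_mul, mul_one]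
    ring
  rw [← h1]
  simp only [En, dec, hx, if_true, Finset.mul_sum, ← Finset.sum_sub_distrib]
  refine Finset.sum_congr rfl fun i _ => Finset.sum_congr rfl fun j _ => ?_
  split_ifs <;> simp

/-- Choose `t` by `exists_shift`.  Let `U₁ = ∑_{i ≠ j, same l-cell} (φ₀ - χ)` and
`X = ∑_{different l-cells} χ ≤ θ A Q`, `Q = Qc 1 0 x`.  Since unit cells lie in `l`-cells
(`cl_of_unit`), `U₁ ≥ (2 A Q - B N) - A Q`, so `X ≤ θ (U₁ + B N)`.  Dropping the cross terms of
`φ₀ ≥ 0` and using `kac_schur`,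
`2 U' ≥ U₁ - X - a κ Qc l t x ≥ (1 - θ) U₁ - θ B N - a κ (#{i ≠ j in the same l-cell} + N)`. -/
theorem low_energy {φ₀ χ φ' : ℝ → ℝ} {A B : ℝ} (h : Pair φ₀ χ A B) {R' : ℝ} (hR' : 0 ≤ R')
    (h1 : ∀ r, R' < r → χ r = 0) {a R : ℝ} (ha : 0 ≤ a) (hR : 0 < R)
    (he : ∀ r, φ' r = φ₀ r - χ r - a * kac R r) {l : ℕ} (hl : 1 ≤ l) {θ : ℝ}
    (hθ : 3 * (R' + 1) / l ≤ θ) {κ : ℝ} (hκ : (1 + 2 * l / R) ^ 3 / (l : ℝ) ^ 3 ≤ κ) {β : ℝ}
    (hβ : 0 < β) {N : ℕ} (x : Fin N → Pt) :
    ∃ t : Fin 3 → ℤ, (∀ k, 0 ≤ t k ∧ t k < l) ∧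
      En (dec l t (rad (fun r => φ₀ r - χ r) (β * (1 - θ))) (β * a * κ / 2)) x -
        β * (θ * B + a * κ) / 2 * N ≤ β * energy φ' x := by
  obtain ⟨t, ht, hX⟩ := exists_shift hl h.nonneg hR' h1 x
  refine ⟨t, ht, ?_⟩
  have hl' : (0 : ℝ) < l := by exact_mod_cast hl
  have hθ0 : 0 ≤ θ := le_trans (by positivity) hθ
  set U₁ : ℝ := ∑ i, ∑ j, if i ≠ j ∧ cl l t (x i) = cl l t (x j) then
    φ₀ (dist (x i) (x j)) - χ (dist (x i) (x j)) else 0 with hU₁
  set X : ℝ := ∑ i, ∑ j, if cl l t (x i) = cl l t (x j) then 0 else χ (dist (x i) (x j)) with hXdef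
  set P : ℝ := ∑ i, ∑ j, if i ≠ j ∧ cl l t (x i) = cl l t (x j) then 1 else 0 with hP
  set S : ℝ := ∑ i, ∑ j, χ (dist (x i) (x j)) with hS
  set K : ℝ := ∑ i, ∑ j, kac R (dist (x i) (x j)) with hK
  have hS0 : 0 ≤ S := Finset.sum_nonneg fun i _ => Finset.sum_nonneg fun j _ => h.nonneg _
  have hSQ : S ≤ A * Qc 1 0 x := h.sch N x
  have hQ : Qc l t x = P + N := by
    have : (N : ℝ) = ∑ i : Fin N, ∑ j : Fin N, if i = j then (1 : ℝ) else 0 := by simp
    rw [this, hP, Qc, ← Finset.sum_add_distrib]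
    refine Finset.sum_congr rfl fun i _ => ?_
    rw [← Finset.sum_add_distrib]
    refine Finset.sum_congr rfl fun j _ => ?_
    by_cases hij : i = j
    · subst hij; simp
    · simp [hij]
  have hU : A * Qc 1 0 x - B * N ≤ U₁ := by
    have h2 := h.ss N x
    have h3 : (∑ i, ∑ j, if i ≠ j ∧ cl 1 0 (x i) = cl 1 0 (x j) then
        φ₀ (dist (x i) (x j)) else 0) - S ≤ U₁ := by
      rw [hS, hU₁, ← Finset.sum_sub_distrib]
      refine Finset.sum_le_sum fun i _ => ?_
      rw [← Finset.sum_sub_distrib]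
      refine Finset.sum_le_sum fun j _ => ?_
      have a1 := h.nonneg₀ (dist (x i) (x j))
      have a2 := h.nonneg (dist (x i) (x j))
      by_cases c1 : i ≠ j ∧ cl 1 0 (x i) = cl 1 0 (x j)
      · rw [if_pos c1, if_pos ⟨c1.1, cl_of_unit l t c1.2⟩]
      · rw [if_neg c1]
        split_ifs <;> linarith
    linarith
  have hX' : X ≤ θ * (U₁ + B * N) := by
    calc X ≤ 3 * (R' + 1) / l * S := hX
      _ ≤ θ * S := mul_le_mul_of_nonneg_right hθ hS0
      _ ≤ θ * (U₁ + B * N) := mul_le_mul_of_nonneg_left (by linarith) hθ0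
  have hK' : K ≤ κ * (P + N) := by
    rw [← hQ]
    exact (kac_schur hR hl t x).trans (mul_le_mul_of_nonneg_right hκ (Qc_nonneg l t x))
  have hE : U₁ - X - a * K ≤ 2 * energy φ' x := by
    rw [two_energy, hU₁, hXdef, hK, Finset.mul_sum, ← Finset.sum_sub_distrib,
      ← Finset.sum_sub_distrib]
    refine Finset.sum_le_sum fun i _ => ?_
    rw [Finset.mul_sum, ← Finset.sum_sub_distrib, ← Finset.sum_sub_distrib]
    refine Finset.sum_le_sum fun j _ => ?_
    have a1 := h.nonneg₀ (dist (x i) (x j))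
    have a3 := mul_nonneg ha (kac_nonneg R (dist (x i) (x j)))
    by_cases hij : i = j
    · subst hij
      simp only [ne_eq, not_true_eq_false, false_and, if_false, if_true]
      linarith
    · rw [if_neg hij, he]
      by_cases c : cl l t (x i) = cl l t (x j)
      · rw [if_pos ⟨hij, c⟩, if_pos c]
        linarith
      · rw [if_neg fun h' => c h'.2, if_neg c]
        linarith
  have hEn : En (dec l t (rad (fun r => φ₀ r - χ r) (β * (1 - θ))) (β * a * κ / 2)) x =
      β * (1 - θ) / 2 * U₁ - β * a * κ / 2 * P := by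
    rw [hU₁, hP, En, Finset.mul_sum, Finset.mul_sum, ← Finset.sum_sub_distrib]
    refine Finset.sum_congr rfl fun i _ => ?_
    rw [Finset.mul_sum, Finset.mul_sum, ← Finset.sum_sub_distrib]
    refine Finset.sum_congr rfl fun j _ => ?_
    by_cases hij : i = j
    · simp [hij]
    · rw [if_neg hij]
      by_cases c : cl l t (x i) = cl l t (x j)
      · rw [if_pos ⟨hij, c⟩, if_pos ⟨hij, c⟩]
        simp only [dec, rad, if_pos c]
        ring
      · rw [if_neg fun h' => c h'.2, if_neg fun h' => c h'.2]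
        simp only [dec, if_neg c]
        ring
  rw [hEn]
  have h4 : a * K ≤ a * (κ * (P + N)) := mul_le_mul_of_nonneg_left hK' ha
  have h5 : (1 - θ) * U₁ - a * κ * P - (θ * B + a * κ) * N ≤ 2 * energy φ' x := by nlinarith
  have h6 := mul_le_mul_of_nonneg_left h5 hβ.le
  nlinarith

end Crest.Agent.R149
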