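import Crest.Agent.R149.Basic
import Crest.Agent.R149.Fubini

/-!
# Row 149: super- and submultiplicativity of partition functions
-/

set_option autoImplicit false
open MeasureTheory Set Filter Topology Crest.ProbabilityR.Continuum
open scoped ENNReal

namespace Crest.Agent.R149

namespace SplitAux

/-- configurations with the particles of `S` in `A` and the others in `B` -/
def box {n : ℕ} (A B : Set Pt) (S : Finset (Fin n)) : Set (Fin n → Pt) :=
  Set.pi univ fun i => if i ∈ S then A else B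

theorem mem_box {n : ℕ} {A B : Set Pt} {S : Finset (Fin n)} {x : Fin n → Pt} :
    x ∈ box A B S ↔ (∀ i ∈ S, x i ∈ A) ∧ ∀ i ∉ S, x i ∈ B := by
  simp only [box, Set.mem_pi, mem_univ, true_imp_iff]
  constructor
  · intro h
    exact ⟨fun i hi => by simpa [hi] using h i, fun i hi => by simpa [hi] using h i⟩
  · rintro ⟨h1, h2⟩ i
    by_cases hi : i ∈ S
    · simpa [hi] using h1 i hi
    · simpa [hi] using h2 i hi

theorem measurableSet_box {n : ℕ} {A B : Set Pt} (hA : MeasurableSet A) (hB : MeasurableSet B)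
    (S : Finset (Fin n)) : MeasurableSet (box A B S) :=
  MeasurableSet.univ_pi fun i => by split_ifs <;> assumption

/-- the energy without the interactions between the two groups -/
noncomputable def E2 {n : ℕ} (ψ : Pt → Pt → ℝ) (p : Fin n → Prop) [DecidablePred p]
    (x : Fin n → Pt) : ℝ :=
  En ψ (fun i : {i // p i} => x i) + En ψ (fun i : {i // ¬p i} => x i)

theorem En_split {n : ℕ} (ψ : Pt → Pt → ℝ) (p : Fin n → Prop) [DecidablePred p] (x : Fin n → Pt) :
    En ψ x = E2 ψ p x +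
      ∑ i : {i // p i}, ∑ j : {i // ¬p i}, (ψ (x i) (x j) + ψ (x j) (x i)) := by
  have h1 : ∀ (i : {i // p i}) (j : {i // ¬p i}), ¬ (i : Fin n) = j := fun i j h =>
    j.2 (h ▸ i.2)
  have h2 : ∀ (i : {i // p i}) (j : {i // ¬p i}), ¬ (j : Fin n) = i := fun i j h =>
    h1 i j h.symm
  simp only [En, E2]
  rw [← Fintype.sum_subtype_add_sum_subtype p]
  simp only [← Fintype.sum_subtype_add_sum_subtype p
    (fun j => if _ = j then (0 : ℝ) else ψ _ (x j)), Finset.sum_add_distrib, h1, h2, if_false,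
    Subtype.coe_inj]
  rw [Finset.sum_comm (γ := {i // ¬p i}) (α := {i // p i})]
  ring

theorem En_le {n : ℕ} {ψ : Pt → Pt → ℝ} {A B : Set Pt}
    (hc : ∀ x ∈ A, ∀ y ∈ B, ψ x y ≤ 0 ∧ ψ y x ≤ 0) {S : Finset (Fin n)} {x : Fin n → Pt}
    (hx : x ∈ box A B S) : En ψ x ≤ E2 ψ (· ∈ S) x := by
  obtain ⟨h1, h2⟩ := mem_box.1 hx
  rw [En_split ψ (· ∈ S) x]
  refine add_le_of_nonpos_right (Finset.sum_nonpos fun i _ => Finset.sum_nonpos fun j _ => ?_)
  have := hc _ (h1 i i.2) _ (h2 j j.2)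
  linarith [this.1, this.2]

theorem le_En {n : ℕ} {ψ : Pt → Pt → ℝ} {A B : Set Pt}
    (hc : ∀ x ∈ A, ∀ y ∈ B, 0 ≤ ψ x y ∧ 0 ≤ ψ y x) {S : Finset (Fin n)} {x : Fin n → Pt}
    (hx : x ∈ box A B S) : E2 ψ (· ∈ S) x ≤ En ψ x := by
  obtain ⟨h1, h2⟩ := mem_box.1 hx
  rw [En_split ψ (· ∈ S) x]
  refine le_add_of_nonneg_right (Finset.sum_nonneg fun i _ => Finset.sum_nonneg fun j _ => ?_)
  have := hc _ (h1 i i.2) _ (h2 j j.2)
  linarith [this.1, this.2]

theorem pi_int {n : ℕ} {ψ : Pt → Pt → ℝ} (hψ : Measurable (Function.uncurry ψ)) {A B : Set Pt}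
    (hA : MeasurableSet A) (hB : MeasurableSet B) (p : Fin n → Prop) [DecidablePred p]
    {R : Set (Fin n → Pt)} (hR : MeasurableSet R)
    (hp : ∀ x, x ∈ R ↔ (∀ i, p i → x i ∈ A) ∧ ∀ i, ¬ p i → x i ∈ B) {m : ℕ}
    (c1 : Fintype.card {i // p i} = m) :
    ∫⁻ x in R, eE (-E2 ψ p x) =
      (m.factorial : ℝ≥0∞) * W ψ A m * (((n - m).factorial : ℝ≥0∞) * W ψ B (n - m)) := by
  have c2 : Fintype.card {i // ¬p i} = n - m := by
    rw [Fintype.card_subtype_compl, c1, Fintype.card_fin]
  have mA : MeasurableSet (Set.pi univ fun _ : {i // p i} => A) :=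
    MeasurableSet.univ_pi fun _ => hA
  have mB : MeasurableSet (Set.pi univ fun _ : {i // ¬p i} => B) :=
    MeasurableSet.univ_pi fun _ => hB
  have mE : ∀ (ι : Type) [Fintype ι] [DecidableEq ι], Measurable fun x : ι → Pt => eE (-En ψ x) :=
    fun _ _ _ => measurable_eE.comp (measurable_En hψ).neg
  rw [← c2, ← Y_eq_W, ← c1, ← Y_eq_W, Y, Y, ← lintegral_indicator mA, ← lintegral_indicator mB,
    ← lintegral_split p _ _ (Measurable.indicator (mE _) mA) (Measurable.indicator (mE _) mB),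
    ← lintegral_indicator hR]
  refine lintegral_congr fun x => ?_
  by_cases hx : x ∈ R
  · obtain ⟨h1, h2⟩ := (hp x).1 hx
    rw [indicator_of_mem hx, indicator_of_mem (by exact fun i _ => h1 i i.2),
      indicator_of_mem (by exact fun i _ => h2 i i.2), E2, neg_add, eE_add]
  · rw [indicator_of_notMem hx]
    by_cases h1 : ∀ i, p i → x i ∈ A
    · have h2 : ¬ ∀ i, ¬ p i → x i ∈ B := fun h => hx ((hp x).2 ⟨h1, h⟩)
      rw [indicator_of_notMem (s := Set.pi univ fun _ : {i // ¬p i} => B)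
        (fun h => h2 fun i hi => h ⟨i, hi⟩ (mem_univ _)), mul_zero]
    · rw [indicator_of_notMem (s := Set.pi univ fun _ : {i // p i} => A)
        (fun h => h1 fun i hi => h ⟨i, hi⟩ (mem_univ _)), zero_mul]

theorem box_int {n : ℕ} {ψ : Pt → Pt → ℝ} (hψ : Measurable (Function.uncurry ψ)) {A B : Set Pt}
    (hA : MeasurableSet A) (hB : MeasurableSet B) (S : Finset (Fin n)) :
    ∫⁻ x in box A B S, eE (-E2 ψ (· ∈ S) x) =
      (S.card.factorial : ℝ≥0∞) * W ψ A S.card *
        (((n - S.card).factorial : ℝ≥0∞) * W ψ B (n - S.card)) :=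
  pi_int hψ hA hB _ (measurableSet_box hA hB S) (fun _ => mem_box) (by
    rw [Fintype.card_subtype]; simp)

theorem fact_ne_zero (n : ℕ) : (n.factorial : ℝ≥0∞) ≠ 0 := by
  exact_mod_cast n.factorial_ne_zero

theorem Xi_union_le {ψ : Pt → Pt → ℝ} (z : ℝ≥0∞) {A B : Set Pt}
    (h : ∀ N, W ψ (A ∪ B) N ≤
      ∑ p ∈ Finset.HasAntidiagonal.antidiagonal N, W ψ A p.1 * W ψ B p.2) :
    Xi ψ z (A ∪ B) ≤ Xi ψ z A * Xi ψ z B := by
  have e : Xi ψ z A * Xi ψ z B =
      ∑' p : ℕ × ℕ, z ^ p.1 * W ψ A p.1 * (z ^ p.2 * W ψ B p.2) := by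
    rw [ENNReal.tsum_prod (f := fun a b => z ^ a * W ψ A a * (z ^ b * W ψ B b))]
    simp only [Xi, ENNReal.tsum_mul_left, ENNReal.tsum_mul_right]
  rw [e, ← Finset.HasAntidiagonal.sigmaAntidiagonalEquivProd.tsum_eq, ENNReal.tsum_sigma', Xi]
  refine ENNReal.tsum_le_tsum fun N => ?_
  refine (mul_le_mul_right (h N) _).trans (le_of_eq ?_)
  rw [tsum_fintype, Finset.mul_sum, ← Finset.sum_coe_sort]
  refine Finset.sum_congr rfl fun p _ => ?_
  have := Finset.HasAntidiagonal.mem_antidiagonal.1 p.2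
  simp only [Finset.HasAntidiagonal.sigmaAntidiagonalEquivProd_apply]
  rw [show z ^ N = z ^ p.1.1 * z ^ p.1.2 by rw [← pow_add, this]]
  ring

theorem Xi_empty (ψ : Pt → Pt → ℝ) (z : ℝ≥0∞) : Xi ψ z ∅ = 1 := by
  rw [Xi, tsum_eq_single 0 fun N hN => by rw [W_empty ψ hN, mul_zero], W_zero]
  simp

end SplitAux

open SplitAux

/-- Supermultiplicativity.  For `S : Finset (Fin (N + M))` of cardinality `N` let `box S` be the
configurations with `x i ∈ A` for `i ∈ S` and `x i ∈ B` otherwise.  These boxes are disjoint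
subsets of `(A ∪ B) ^ (N + M)`; on `box S`, `En ψ x ≤ En ψ (x|S) + En ψ (x|Sᶜ)`, so by
`lintegral_split` and `Y_eq_W` the integral over `box S` is at least
`N! W ψ A N * (M! W ψ B M)`; there are `(N + M).choose N` boxes. -/
theorem W_mul_le {ψ : Pt → Pt → ℝ} (hψ : Measurable (Function.uncurry ψ)) {A B : Set Pt}
    (hA : MeasurableSet A) (hB : MeasurableSet B) (hd : Disjoint A B)
    (hc : ∀ x ∈ A, ∀ y ∈ B, ψ x y ≤ 0 ∧ ψ y x ≤ 0) (N M : ℕ) :
    W ψ A N * W ψ B M ≤ W ψ (A ∪ B) (N + M) := by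
  have hcard : (Finset.powersetCard N (Finset.univ : Finset (Fin (N + M)))).card =
      (N + M).choose N := by simp
  have hfac : (((N + M).factorial : ℕ) : ℝ≥0∞) =
      ((N + M).choose N : ℕ) * ((N.factorial : ℝ≥0∞) * (M.factorial : ℝ≥0∞)) := by
    rw [← Nat.add_choose_mul_factorial_mul_factorial N M, Nat.choose_symm_add]
    push_cast; ring
  have key : (((N + M).factorial : ℕ) : ℝ≥0∞) * (W ψ A N * W ψ B M) ≤
      Y ψ (A ∪ B) (Fin (N + M)) := by
    calc _ = ∑ S ∈ Finset.powersetCard N (Finset.univ : Finset (Fin (N + M))),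
          (N.factorial : ℝ≥0∞) * W ψ A N * ((M.factorial : ℝ≥0∞) * W ψ B M) := by
          rw [Finset.sum_const, hcard, hfac, nsmul_eq_mul]; ring
      _ ≤ ∑ S ∈ Finset.powersetCard N (Finset.univ : Finset (Fin (N + M))),
          ∫⁻ x in box A B S, eE (-En ψ x) := by
          refine Finset.sum_le_sum fun S hS => ?_
          have hS' : S.card = N := (Finset.mem_powersetCard.1 hS).2
          have := box_int hψ hA hB S
          rw [hS', Nat.add_sub_cancel_left] at this
          rw [← this]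
          exact setLIntegral_mono' (measurableSet_box hA hB S) fun x hx =>
            eE_mono (neg_le_neg (En_le hc hx))
      _ = ∫⁻ x in ⋃ S ∈ Finset.powersetCard N (Finset.univ : Finset (Fin (N + M))), box A B S,
          eE (-En ψ x) := by
          refine (lintegral_biUnion_finset ?_ (fun S _ => measurableSet_box hA hB S) _).symm
          intro S _ S' _ hne
          refine Set.disjoint_left.2 fun x hx hx' => hne ?_
          obtain ⟨h1, h2⟩ := mem_box.1 hx
          obtain ⟨h3, h4⟩ := mem_box.1 hx'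
          ext i
          constructor
          · intro hi
            by_contra hi'
            exact Set.disjoint_left.1 hd (h1 i hi) (h4 i hi')
          · intro hi
            by_contra hi'
            exact Set.disjoint_left.1 hd (h3 i hi) (h2 i hi')
      _ ≤ _ := by
          refine lintegral_mono_set fun x hx => ?_
          simp only [Set.mem_iUnion] at hx
          obtain ⟨S, -, hx⟩ := hx
          obtain ⟨h1, h2⟩ := mem_box.1 hx
          intro i _
          by_cases hi : i ∈ S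
          · exact Or.inl (h1 i hi)
          · exact Or.inr (h2 i hi)
  rw [W.eq_1 ψ (A ∪ B), ENNReal.le_div_iff_mul_le (Or.inl (fact_ne_zero _))
    (Or.inl (ENNReal.natCast_ne_top _)), mul_comm]
  exact key

/-- finite version, by induction on `s` -/
theorem prod_W_le {ψ : Pt → Pt → ℝ} (hψ : Measurable (Function.uncurry ψ)) {κ : Type*}
    (s : Finset κ) (A : κ → Set Pt) (n : κ → ℕ) (hA : ∀ k, MeasurableSet (A k))
    (hd : ∀ k ∈ s, ∀ k' ∈ s, k ≠ k' → Disjoint (A k) (A k'))
    (hc : ∀ k ∈ s, ∀ k' ∈ s, k ≠ k' → ∀ x ∈ A k, ∀ y ∈ A k', ψ x y ≤ 0) :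
    ∏ k ∈ s, W ψ (A k) (n k) ≤ W ψ (⋃ k ∈ s, A k) (∑ k ∈ s, n k) := by
  classical
  induction s using Finset.induction_on with
  | empty => simp [W_zero]
  | insert a s ha ih =>
    rw [Finset.prod_insert ha, Finset.sum_insert ha, Finset.set_biUnion_insert]
    have hm : ∀ k ∈ s, k ∈ insert a s := fun k hk => Finset.mem_insert_of_mem hk
    have hne : ∀ k ∈ s, a ≠ k := fun k hk h => ha (h ▸ hk)
    refine (mul_le_mul_right (ih (fun k hk k' hk' => hd k (hm k hk) k' (hm k' hk'))
      fun k hk k' hk' => hc k (hm k hk) k' (hm k' hk')) _).trans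
      (W_mul_le hψ (hA a) (s.measurableSet_biUnion fun k _ => hA k) ?_ ?_ _ _)
    · exact Set.disjoint_iUnion₂_right.2 fun k hk =>
        hd a (Finset.mem_insert_self _ _) k (hm k hk) (hne k hk)
    · intro x hx y hy
      simp only [Set.mem_iUnion] at hy
      obtain ⟨k, hk, hy⟩ := hy
      exact ⟨hc a (Finset.mem_insert_self _ _) k (hm k hk) (hne k hk) x hx y hy,
        hc k (hm k hk) a (Finset.mem_insert_self _ _) (hne k hk).symm y hy x hx⟩

/-- Submultiplicativity: `(A ∪ B) ^ N` is covered by the boxes of all `S : Finset (Fin N)`, on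
which `En ψ (x|S) + En ψ (x|Sᶜ) ≤ En ψ x`; group the `S` by cardinality. -/
theorem W_union_le {ψ : Pt → Pt → ℝ} (hψ : Measurable (Function.uncurry ψ)) {A B : Set Pt}
    (hA : MeasurableSet A) (hB : MeasurableSet B)
    (hc : ∀ x ∈ A, ∀ y ∈ B, 0 ≤ ψ x y ∧ 0 ≤ ψ y x) (N : ℕ) :
    W ψ (A ∪ B) N ≤ ∑ p ∈ Finset.HasAntidiagonal.antidiagonal N, W ψ A p.1 * W ψ B p.2 := by
  classical
  have key : Y ψ (A ∪ B) (Fin N) ≤ (N.factorial : ℝ≥0∞) *
      ∑ p ∈ Finset.HasAntidiagonal.antidiagonal N, W ψ A p.1 * W ψ B p.2 := by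
    calc _ ≤ ∫⁻ x in ⋃ S : Finset (Fin N), box A B S, eE (-En ψ x) := by
          refine lintegral_mono_set fun x hx => Set.mem_iUnion.2
            ⟨Finset.univ.filter fun i => x i ∈ A, mem_box.2 ⟨fun i hi => ?_, fun i hi => ?_⟩⟩
          · exact (Finset.mem_filter.1 hi).2
          · exact (hx i (mem_univ _)).resolve_left fun h =>
              hi (Finset.mem_filter.2 ⟨Finset.mem_univ _, h⟩)
      _ ≤ ∑' S : Finset (Fin N), ∫⁻ x in box A B S, eE (-En ψ x) := lintegral_iUnion_le _ _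
      _ = ∑ S ∈ (Finset.univ : Finset (Fin N)).powerset, ∫⁻ x in box A B S, eE (-En ψ x) := by
          rw [tsum_fintype, Finset.powerset_univ]
      _ ≤ ∑ S ∈ (Finset.univ : Finset (Fin N)).powerset,
          (S.card.factorial : ℝ≥0∞) * W ψ A S.card *
            (((N - S.card).factorial : ℝ≥0∞) * W ψ B (N - S.card)) := by
          refine Finset.sum_le_sum fun S _ => ?_
          rw [← box_int hψ hA hB S]
          exact setLIntegral_mono' (measurableSet_box hA hB S) fun x hx =>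
            eE_mono (neg_le_neg (le_En hc hx))
      _ = _ := by
          rw [Finset.sum_powerset_apply_card fun m => (m.factorial : ℝ≥0∞) * W ψ A m *
            (((N - m).factorial : ℝ≥0∞) * W ψ B (N - m)),
            Finset.Nat.sum_antidiagonal_eq_sum_range_succ fun a b => W ψ A a * W ψ B b,
            Finset.mul_sum, Finset.card_univ, Fintype.card_fin]
          refine Finset.sum_congr rfl fun m hm => ?_
          rw [← Nat.choose_mul_factorial_mul_factorial (Nat.lt_succ_iff.1 (Finset.mem_range.1 hm)),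
            nsmul_eq_mul]
          push_cast; ring
  rw [W.eq_1 ψ (A ∪ B), ENNReal.div_le_iff (fact_ne_zero _) (ENNReal.natCast_ne_top _), mul_comm]
  exact key

/-- Cauchy product of the two series, then induction on `s` (`Xi ψ z ∅ = 1`). -/
theorem Xi_biUnion_le {ψ : Pt → Pt → ℝ} (hψ : Measurable (Function.uncurry ψ)) (z : ℝ≥0∞)
    {κ : Type*} (s : Finset κ) (A : κ → Set Pt) (hA : ∀ k, MeasurableSet (A k))
    (hc : ∀ k ∈ s, ∀ k' ∈ s, k ≠ k' → ∀ x ∈ A k, ∀ y ∈ A k', 0 ≤ ψ x y) :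
    Xi ψ z (⋃ k ∈ s, A k) ≤ ∏ k ∈ s, Xi ψ z (A k) := by
  classical
  induction s using Finset.induction_on with
  | empty => simp [Xi_empty]
  | insert a s ha ih =>
    rw [Finset.prod_insert ha, Finset.set_biUnion_insert]
    have hm : ∀ k ∈ s, k ∈ insert a s := fun k hk => Finset.mem_insert_of_mem hk
    have hne : ∀ k ∈ s, a ≠ k := fun k hk h => ha (h ▸ hk)
    refine (Xi_union_le z (W_union_le hψ (hA a) (s.measurableSet_biUnion fun k _ => hA k) ?_)).trans
      (mul_le_mul_right (ih fun k hk k' hk' => hc k (hm k hk) k' (hm k' hk')) _)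
    intro x hx y hy
    simp only [Set.mem_iUnion] at hy
    obtain ⟨k, hk, hy⟩ := hy
    exact ⟨hc a (Finset.mem_insert_self _ _) k (hm k hk) (hne k hk) x hx y hy,
      hc k (hm k hk) a (Finset.mem_insert_self _ _) (hne k hk).symm y hy x hx⟩

end Crest.Agent.R149
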