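import Crest.Agent.R149.LowA
import Crest.Agent.R149.Split

/-!
# Row 149: the lower bound of a Kac step
-/

set_option autoImplicit false
open MeasureTheory Set Filter Topology Crest.ProbabilityR.Continuum
open scoped ENNReal

namespace Crest.Agent.R149

namespace LowBAux

theorem geom_le {l : ℝ} (hl : 0 < l) : ∑' n : ℕ, eE (-(1 / l)) ^ n ≤ eE l := by
  have h1 : Real.exp (-l) + Real.exp (-(1 / l)) ≤ 1 := by
    have a1 : Real.exp (-l) ≤ 1 / (l + 1) := by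
      rw [Real.exp_neg, one_div]
      exact inv_anti₀ (by positivity) (Real.add_one_le_exp l)
    have a2 : Real.exp (-(1 / l)) ≤ 1 / (1 / l + 1) := by
      rw [Real.exp_neg, one_div (1 / l + 1)]
      exact inv_anti₀ (by positivity) (Real.add_one_le_exp _)
    have a3 : 1 / (l + 1) + 1 / (1 / l + 1) = 1 := by field_simp; ring
    linarith
  have h2 : eE (-l) + eE (-(1 / l)) ≤ 1 := by
    unfold eE
    rw [← ENNReal.ofReal_add (Real.exp_pos _).le (Real.exp_pos _).le]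
    exact ENNReal.ofReal_le_one.2 h1
  have h3 : eE (-l) ≤ 1 - eE (-(1 / l)) := ENNReal.le_sub_of_add_le_right (eE_ne_top _) h2
  have h4 : (eE (-l))⁻¹ = eE l := by
    refine (ENNReal.eq_inv_of_mul_eq_one_left ?_).symm
    rw [← eE_add, add_neg_cancel, eE_zero]
  rw [ENNReal.tsum_geometric, ← h4]
  exact ENNReal.inv_le_inv.2 h3

/-- one term of the grand canonical series of a cell -/
theorem term_le {φ : ℝ → ℝ} (hφ : Stab φ) {g : ℝ → ℝ → ℝ} (hg : TD φ g) {l : ℕ} (hl : 1 ≤ l)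
    (t q : Fin 3 → ℤ) {β' c ν T : ℝ} (hβ : 0 < β')
    (hT : ∀ r, 0 ≤ r → (ν - c + 1 / l) * r + c * ((l : ℝ) + 1) ^ 3 * r ^ 2 - g β' r ≤ T) (n : ℕ) :
    eE ν ^ n * W (dec l t (rad φ β') c) {x | cl l t x = q} n ≤
      eE (((l : ℝ) + 1) ^ 3 * T) * eE (-(1 / l)) ^ n := by
  have hl0 : (0 : ℝ) < l := by exact_mod_cast hl
  obtain ⟨v, hv⟩ := cell_translate hl t q
  have h1 : W (dec l t (rad φ β') c) {x | cl l t x = q} n ≤
      eE (c * ((n : ℝ) ^ 2 - n)) * W (rad φ β') {x | cl l t x = q} n :=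
    W_le_of_En (measurableSet_cell l t q) fun x hx => (En_dec_cell l t q _ c x hx).ge
  have h2 : W (rad φ β') {x | cl l t x = q} n ≤ eE (-F φ β' l n) :=
    (W_le_of_translate φ β' v hv n).trans (W_cube hφ hβ hl0 n).le
  have h3 := hg.pt β' hβ (l + 1) (by omega) n
  push_cast at h3
  rw [add_sub_cancel_right] at h3
  have hs : (0 : ℝ) < ((l : ℝ) + 1) ^ 3 := by positivity
  rw [le_div_iff₀ hs] at h3
  have h4 := mul_le_mul_of_nonneg_left (hT (n / ((l : ℝ) + 1) ^ 3) (by positivity)) hs.le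
  have e : ((l : ℝ) + 1) ^ 3 * ((ν - c + 1 / l) * (n / ((l : ℝ) + 1) ^ 3) +
      c * ((l : ℝ) + 1) ^ 3 * (n / ((l : ℝ) + 1) ^ 3) ^ 2 - g β' (n / ((l : ℝ) + 1) ^ 3)) =
      (ν - c + 1 / l) * n + c * (n : ℝ) ^ 2 -
        g β' (n / ((l : ℝ) + 1) ^ 3) * ((l : ℝ) + 1) ^ 3 := by
    field_simp
  rw [e] at h4
  calc eE ν ^ n * W (dec l t (rad φ β') c) {x | cl l t x = q} n
      ≤ eE ν ^ n * (eE (c * ((n : ℝ) ^ 2 - n)) * eE (-F φ β' l n)) := by
        gcongr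
        exact h1.trans (by gcongr)
    _ ≤ _ := by
        rw [eE_pow, eE_pow, ← eE_add, ← eE_add, ← eE_add]
        exact eE_mono (by nlinarith)

/-- the integrated form of a pointwise bound by one of finitely many energies -/
theorem W_le_sum {κ : Type*} (S : Finset κ) {ψ : Pt → Pt → ℝ} {ψ' : κ → Pt → Pt → ℝ}
    (hψ' : ∀ t, Measurable (Function.uncurry (ψ' t))) (A : Set Pt) {N : ℕ} {d : ℝ}
    (h : ∀ x : Fin N → Pt, ∃ t ∈ S, En (ψ' t) x - d ≤ En ψ x) :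
    W ψ A N ≤ eE d * ∑ t ∈ S, W (ψ' t) A N := by
  have h1 : Y ψ A (Fin N) ≤ eE d * ∑ t ∈ S, Y (ψ' t) A (Fin N) := by
    unfold Y
    rw [← lintegral_finsetSum S (f := fun t (x : Fin N → Pt) => eE (-En (ψ' t) x))
      (fun t _ => measurable_eE.comp (measurable_En (hψ' t)).neg),
      ← lintegral_const_mul' _ _ (eE_ne_top d)]
    refine lintegral_mono fun x => ?_
    obtain ⟨t, ht, hx⟩ := h x
    calc eE (-En ψ x) ≤ eE d * eE (-En (ψ' t) x) := by
          rw [← eE_add]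
          exact eE_mono (by linarith)
      _ ≤ eE d * ∑ t ∈ S, eE (-En (ψ' t) x) := by
          gcongr
          exact Finset.single_le_sum (f := fun t => eE (-En (ψ' t) x)) (fun _ _ => zero_le) ht
  unfold W
  simp only [div_eq_mul_inv]
  rw [← Finset.sum_mul, ← mul_assoc]
  gcongr

end LowBAux

/-- One cell: by `En_dec_cell`, `W_le_of_En`, `cell_translate`, `W_le_of_translate`, `W_cube` and
`TD.pt` (with `s = l + 1`), `z ^ n W ≤ eE (ν n + c (n ^ 2 - n) - s ^ 3 g β' (n / s ^ 3))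
≤ eE (s ^ 3 T - n / l)` (hypothesis at `r = n / s ^ 3`), and
`∑ exp (-n / l) ≤ l + 1 ≤ exp l` (`exp (-1 / l) ≤ l / (l + 1)`). -/
theorem Xi_cell_le {φ : ℝ → ℝ} (hφ : Stab φ) {g : ℝ → ℝ → ℝ} (hg : TD φ g) {l : ℕ} (hl : 1 ≤ l)
    (t q : Fin 3 → ℤ) {β' c ν T : ℝ} (hβ : 0 < β')
    (hT : ∀ r, 0 ≤ r → (ν - c + 1 / l) * r + c * ((l : ℝ) + 1) ^ 3 * r ^ 2 - g β' r ≤ T) :
    Xi (dec l t (rad φ β') c) (eE ν) {x | cl l t x = q} ≤ eE (((l : ℝ) + 1) ^ 3 * T + l) := by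
  unfold Xi
  refine (ENNReal.tsum_le_tsum (LowBAux.term_le hφ hg hl t q hβ hT)).trans ?_
  rw [ENNReal.tsum_mul_left, eE_add]
  gcongr
  exact LowBAux.geom_le (by exact_mod_cast hl)

/-- With `κ = (1 + 2 l / R) ^ 3 / l ^ 3`, `c = β a κ / 2`, `ν = μ + β (θ B + a κ) / 2`:
by `low_energy`, pointwise `eE (μ N) eE (-β U') ≤ ∑_t eE ν ^ N eE (-En (dec l t ..) x)` (sum over
the `l ^ 3` shifts), so `eE (μ N) W ≤ ∑_t Xi (dec l t ..) (eE ν) (cube L)
≤ l ^ 3 eE (m ^ 3 ((l + 1) ^ 3 T + l))`, `m = ⌊L / l⌋₊ + 2` (`exists_cover`, `Xi_biUnion_le`,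
`Xi_cell_le`).  Hence `μ N - F φ' β L N ≤ 3 log l + m ^ 3 ((l + 1) ^ 3 T + l)`; divide by `L ^ 3`
and let `L → ∞`: `μ ρ - g' β ρ ≤ (1 + 1 / l) ^ 3 T + 1 / l ^ 2`; finally `T ≥ 0` (take `r = 0`),
`(1 + 1 / l) ^ 3 ≤ 1 + ζ`, `1 / l ^ 2 ≤ 1 / l ≤ ζ`. -/
theorem low_step {φ₀ χ φ' : ℝ → ℝ} {A B : ℝ} (h : Pair φ₀ χ A B) (hφ' : Stab φ') {R' : ℝ}
    (hR' : 0 ≤ R') (h1 : ∀ r, R' < r → χ r = 0) {a R : ℝ} (ha : 0 ≤ a) (hR : 0 < R)
    (he : ∀ r, φ' r = φ₀ r - χ r - a * kac R r) {l : ℕ} (hl : 1 ≤ l) {θ ζ : ℝ}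
    (hθ : 3 * (R' + 1) / l ≤ θ) (hθ' : θ < 1) (hζ : θ * B + 1 / l ≤ ζ)
    (hζ' : (1 + 2 * l / R) ^ 3 * (1 + 1 / l) ^ 3 ≤ 1 + ζ) {g g' : ℝ → ℝ → ℝ}
    (hg : TD (fun r => φ₀ r - χ r) g) (hg' : TD φ' g') : RawLow g g' a θ ζ := by
  intro β hβ1 hβ2 μ ρ hρ T hT
  have hl0 : (0 : ℝ) < l := by exact_mod_cast hl
  have hl1 : (1 : ℝ) ≤ l := by exact_mod_cast hl
  have hβ : 0 < β := by linarith
  have hθ0 : 0 ≤ θ := le_trans (by positivity) hθ
  have hβ' : 0 < β * (1 - θ) := mul_pos hβ (by linarith)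
  have hφ : Stab (fun r => φ₀ r - χ r) := h.good.toStab
  have hθB : 0 ≤ θ * B := mul_nonneg hθ0 h.hB
  have hT0 : 0 ≤ T := by
    have := hT 0 le_rfl
    rw [hg.fe.zero _ hβ'] at this
    simpa using this
  set κ : ℝ := (1 + 2 * l / R) ^ 3 / (l : ℝ) ^ 3 with hκ
  set K : ℝ := ((l : ℝ) + 1) ^ 3 * T + l with hK
  have hK0 : 0 ≤ K := by positivity
  have hcell : ∀ t q : Fin 3 → ℤ,
      Xi (dec l t (rad (fun r => φ₀ r - χ r) (β * (1 - θ))) (β * a * κ / 2))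
        (eE (μ + β * (θ * B + a * κ) / 2)) {x | cl l t x = q} ≤ eE K := by
    intro t q
    refine Xi_cell_le hφ hg hl t q hβ' fun r hr => le_trans ?_ (hT r hr)
    have e1 : μ + β * (θ * B + a * κ) / 2 - β * a * κ / 2 + 1 / l ≤ μ + ζ := by nlinarith
    have e2 : β * a * κ / 2 * ((l : ℝ) + 1) ^ 3 ≤ β * a * (1 + ζ) / 2 := by
      have : κ * ((l : ℝ) + 1) ^ 3 = (1 + 2 * l / R) ^ 3 * (1 + 1 / l) ^ 3 := by
        rw [hκ]
        field_simp
      have h2 := mul_le_mul_of_nonneg_left hζ' (show 0 ≤ β * a / 2 by positivity)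
      rw [← this] at h2
      linarith
    have e3 := mul_le_mul_of_nonneg_right e1 hr
    have e4 := mul_le_mul_of_nonneg_right e2 (sq_nonneg r)
    linarith
  have hmeas : ∀ t : Fin 3 → ℤ, Measurable (Function.uncurry
      (dec l t (rad (fun r => φ₀ r - χ r) (β * (1 - θ))) (β * a * κ / 2))) :=
    fun t => measurable_dec l t (measurable_rad hφ.meas _) _
  set S : Finset (Fin 3 → ℤ) := Fintype.piFinset fun _ => Finset.Ico (0 : ℤ) l with hS
  have hScard : S.card = l ^ 3 := by simp [hS]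
  have hSmem : ∀ t, t ∈ S ↔ ∀ k, 0 ≤ t k ∧ t k < l := fun t => by simp [hS]
  have hfin : ∀ L : ℝ, 0 < L → ∀ N : ℕ,
      μ * N - Real.log ((l : ℝ) ^ 3) - (L / l + 2) ^ 3 * K ≤ F φ' β L N := by
    intro L hL N
    have h2 : W (rad φ' β) (cube L) N ≤ eE (β * (θ * B + a * κ) / 2 * N) * ∑ t ∈ S,
        W (dec l t (rad (fun r => φ₀ r - χ r) (β * (1 - θ))) (β * a * κ / 2)) (cube L) N :=
      LowBAux.W_le_sum S hmeas (cube L) fun x => by
        obtain ⟨t, ht, hx⟩ := low_energy h hR' h1 ha hR he hl hθ hκ.ge hβ x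
        exact ⟨t, (hSmem t).2 ht, by rwa [En_rad]⟩
    have h3 : ∀ t ∈ S, eE (μ + β * (θ * B + a * κ) / 2) ^ N *
        W (dec l t (rad (fun r => φ₀ r - χ r) (β * (1 - θ))) (β * a * κ / 2)) (cube L) N ≤
        eE ((L / l + 2) ^ 3 * K) := by
      intro t ht
      obtain ⟨s, hs, hcov⟩ := exists_cover hl ((hSmem t).1 ht) hL.le
      have hsub : cube L ⊆ ⋃ q ∈ s, {x | cl l t x = q} := fun x hx =>
        Set.mem_biUnion (hcov x hx) rfl
      have hm : ((⌊L / l⌋₊ : ℝ) + 2) ^ 3 ≤ (L / l + 2) ^ 3 := by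
        have := Nat.floor_le (show 0 ≤ L / l by positivity)
        gcongr
      calc _ ≤ eE (μ + β * (θ * B + a * κ) / 2) ^ N *
            W (dec l t (rad (fun r => φ₀ r - χ r) (β * (1 - θ))) (β * a * κ / 2))
              (⋃ q ∈ s, {x | cl l t x = q}) N := by
            gcongr
            exact W_mono_set _ hsub N
        _ ≤ Xi (dec l t (rad (fun r => φ₀ r - χ r) (β * (1 - θ))) (β * a * κ / 2))
              (eE (μ + β * (θ * B + a * κ) / 2)) (⋃ q ∈ s, {x | cl l t x = q}) :=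
            ENNReal.le_tsum (f := fun N => eE (μ + β * (θ * B + a * κ) / 2) ^ N *
              W (dec l t (rad (fun r => φ₀ r - χ r) (β * (1 - θ))) (β * a * κ / 2))
                (⋃ q ∈ s, {x | cl l t x = q}) N) N
        _ ≤ ∏ q ∈ s, Xi (dec l t (rad (fun r => φ₀ r - χ r) (β * (1 - θ))) (β * a * κ / 2))
              (eE (μ + β * (θ * B + a * κ) / 2)) {x | cl l t x = q} := by
            refine Xi_biUnion_le (hmeas t) _ s _ (measurableSet_cell l t) ?_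
            intro q _ q' _ hqq x hx y hy
            have hx' : cl l t x = q := hx
            have hy' : cl l t y = q' := hy
            unfold dec
            rw [if_neg (by rw [hx', hy']; exact hqq)]
        _ ≤ eE K ^ s.card := Finset.prod_le_pow_card _ _ _ fun q _ => hcell t q
        _ ≤ eE ((L / l + 2) ^ 3 * K) := by
            rw [eE_pow, hs]
            push_cast
            exact eE_mono (mul_le_mul_of_nonneg_right hm hK0)
    have h4 : eE (μ * N) * eE (-F φ' β L N) ≤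
        eE (Real.log ((l : ℝ) ^ 3)) * eE ((L / l + 2) ^ 3 * K) := by
      rw [← W_cube hφ' hβ hL N]
      calc eE (μ * N) * W (rad φ' β) (cube L) N
          ≤ eE (μ * N) * (eE (β * (θ * B + a * κ) / 2 * N) * ∑ t ∈ S,
            W (dec l t (rad (fun r => φ₀ r - χ r) (β * (1 - θ))) (β * a * κ / 2)) (cube L) N) := by
            gcongr
        _ = ∑ t ∈ S, eE (μ + β * (θ * B + a * κ) / 2) ^ N *
            W (dec l t (rad (fun r => φ₀ r - χ r) (β * (1 - θ))) (β * a * κ / 2)) (cube L) N := by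
            rw [← mul_assoc, ← eE_add, eE_pow, Finset.mul_sum]
            congr 3
            funext t
            congr 2
            ring
        _ ≤ S.card • eE ((L / l + 2) ^ 3 * K) := Finset.sum_le_card_nsmul _ _ _ h3
        _ = _ := by
            rw [eE_log (by positivity), hScard, nsmul_eq_mul, ← Nat.cast_pow, ENNReal.ofReal_natCast]
    rw [← eE_add, ← eE_add, eE_le_iff] at h4
    linarith
  have hlim : Tendsto (fun L : ℝ => (μ * (⌊ρ * L ^ 3⌋₊ : ℝ) - Real.log ((l : ℝ) ^ 3) -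
      (L / l + 2) ^ 3 * K) / L ^ 3) atTop (𝓝 (μ * ρ - 0 - (1 / l + 0) ^ 3 * K)) := by
    have a1 := (tendsto_floor hρ).const_mul μ
    have a2 : Tendsto (fun L : ℝ => Real.log ((l : ℝ) ^ 3) / L ^ 3) atTop (𝓝 0) :=
      tendsto_const_nhds.div_atTop (tendsto_pow_atTop (by norm_num))
    have a3 : Tendsto (fun L : ℝ => 2 / L) atTop (𝓝 0) := tendsto_const_nhds.div_atTop tendsto_id
    have a4 := ((a3.const_add (1 / (l : ℝ))).pow 3).mul_const K
    refine ((a1.sub a2).sub a4).congr' ?_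
    filter_upwards [eventually_gt_atTop 0] with L hL
    field_simp
  have hmain := hg'.ge_of_eventually hβ hρ hlim (by
    filter_upwards [eventually_gt_atTop 0] with L hL
    exact hfin L hL _)
  have e1 : (1 / (l : ℝ) + 0) ^ 3 * K = (1 + 1 / l) ^ 3 * T + 1 / l * (1 / l) := by
    rw [hK]
    field_simp
    ring
  have e2 : (1 + 1 / (l : ℝ)) ^ 3 ≤ 1 + ζ := by
    refine le_trans (le_mul_of_one_le_left (by positivity) (one_le_pow₀ ?_)) hζ'
    have : 0 ≤ 2 * (l : ℝ) / R := by positivity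
    linarith
  have e3 : 1 / (l : ℝ) * (1 / l) ≤ 1 / l :=
    mul_le_of_le_one_right (by positivity) ((div_le_one hl0).2 hl1)
  have e4 := mul_le_mul_of_nonneg_right e2 hT0
  linarith

end Crest.Agent.R149
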