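import Mathlib

/-!
# Row 149: the scales of the Kac potentials
-/

set_option autoImplicit false
open Filter Topology

namespace Crest.Agent.R149

theorem exists_seq {a₀ η c : ℝ} (ha₀ : 0 < a₀) (hη : 0 < η) (hc : 0 ≤ c) :
    ∃ (a R R' u : ℕ → ℝ) (l : ℕ → ℕ), a 0 = a₀ ∧ (∀ k, 0 < a (k + 1) ∧ a (k + 1) ≤ η / 4 ^ k) ∧
      (∀ k, a (k + 2) ≤ a (k + 1)) ∧ (∀ k, 1 ≤ R k) ∧ (∀ k, 1 ≤ l k) ∧ (∀ k, 0 ≤ R' k) ∧
      (∀ j k, j < k → 2 * R j ≤ R' k) ∧ (∀ k, 0 < u k ∧ c * u k ≤ a (k + 1) ^ 2) ∧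
      (∀ k, 3 * (R' k + 1) / l k ≤ u k) ∧ (∀ k, 1 / (l k : ℝ) ≤ u k) ∧
      (∀ k, (1 + 2 * l k / R k) ^ 3 * (1 + 1 / (l k : ℝ)) ^ 3 ≤ 1 + u k) ∧
      (∀ k, 1 / R k ≤ u k) ∧ Summable fun k => a k * R k ^ (1 / 32 : ℝ) := by
  obtain ⟨t, ht⟩ := exists_nat_ge (2 + 126 * c + 1 / η)
  have hη' : 0 < 1 / η := by positivity
  have ht2 : (2 : ℝ) ≤ t := by linarith
  have htc : 126 * c ≤ t := by linarith
  have htη : 1 / η ≤ t := by linarith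
  set T : ℕ → ℕ := fun k => t ^ 2 ^ k with hT
  have hTs : ∀ k, (T (k + 1) : ℝ) = (T k : ℝ) ^ 2 := by
    intro k; simp only [hT]; push_cast; rw [← pow_mul, pow_succ]
  have hTt : ∀ k, (t : ℝ) * 2 ^ k ≤ T k := by
    intro k
    induction k with
    | zero => simp [hT]
    | succ k ih =>
      rw [hTs]
      have h1 : (1 : ℝ) ≤ 2 ^ k := one_le_pow₀ (by norm_num)
      have h2 : (2 : ℝ) ≤ T k := by nlinarith
      have h3 : (0 : ℝ) ≤ t * 2 ^ k := by positivity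
      rw [pow_succ]; nlinarith
  have hT2 : ∀ k, (2 : ℝ) ≤ T k := by
    intro k
    have h1 : (1 : ℝ) ≤ 2 ^ k := one_le_pow₀ (by norm_num)
    nlinarith [hTt k]
  have hTt' : ∀ k, (t : ℝ) ≤ T k := by
    intro k
    have h1 : (1 : ℝ) ≤ 2 ^ k := one_le_pow₀ (by norm_num)
    nlinarith [hTt k]
  have hT1 : ∀ k, (1 : ℝ) ≤ T k := fun k => by linarith [hT2 k]
  have hT0 : ∀ k, (0 : ℝ) < T k := fun k => by linarith [hT2 k]
  have hmono : Monotone fun k => (T k : ℝ) := monotone_nat_of_le_succ fun k => by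
    rw [hTs]; nlinarith [hT1 k]
  refine ⟨fun k => Nat.casesOn k a₀ fun k => 1 / (T (k + 1) : ℝ) ^ 4, fun k => (T k : ℝ) ^ 96,
    fun k => 2 * (T k : ℝ) ^ 48, fun k => 126 / (T k : ℝ) ^ 24, fun k => T k ^ 72, rfl,
    fun k => ⟨by have := hT0 (k + 1); positivity, ?_⟩, fun k => ?_, fun k => one_le_pow₀ (hT1 k),
    fun k => ?_, fun k => by have := hT0 k; positivity, fun j k hjk => ?_,
    fun k => ⟨by have := hT0 k; positivity, ?_⟩, fun k => ?_, fun k => ?_, fun k => ?_,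
    fun k => ?_, ?_⟩
  · have h0 := hT0 (k + 1)
    show 1 / (T (k + 1) : ℝ) ^ 4 ≤ η / 4 ^ k
    rw [div_le_div_iff₀ (by positivity) (by positivity), one_mul]
    have h1 : (1 : ℝ) ≤ η * T (k + 1) := by
      rw [div_le_iff₀ hη] at htη
      nlinarith [hTt' (k + 1)]
    have h2 : (2 : ℝ) ^ k ≤ T (k + 1) := by
      have := hTt (k + 1)
      have h3 : (0 : ℝ) < 2 ^ k := by positivity
      rw [pow_succ] at this; nlinarith
    have h3 : (4 : ℝ) ^ k ≤ (T (k + 1) : ℝ) ^ 2 := by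
      rw [show (4 : ℝ) ^ k = (2 ^ k) ^ 2 by rw [← pow_mul, mul_comm, pow_mul]; norm_num]
      exact pow_le_pow_left₀ (by positivity) h2 2
    calc (4 : ℝ) ^ k ≤ (T (k + 1) : ℝ) ^ 2 * 1 * 1 := by linarith
      _ ≤ (T (k + 1) : ℝ) ^ 2 * (η * T (k + 1)) * T (k + 1) := by gcongr; exact hT1 _
      _ = η * (T (k + 1) : ℝ) ^ 4 := by ring
  · show 1 / (T (k + 2) : ℝ) ^ 4 ≤ 1 / (T (k + 1) : ℝ) ^ 4
    have := hT0 (k + 1)
    have h : (T (k + 1) : ℝ) ≤ T (k + 2) := hmono (by omega)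
    gcongr
  · have : 1 ≤ T k := by exact_mod_cast hT1 k
    exact Nat.one_le_pow _ _ this
  · have h : (T (j + 1) : ℝ) ≤ T k := hmono hjk
    rw [hTs] at h
    have := hT0 j
    show 2 * (T j : ℝ) ^ 96 ≤ 2 * (T k : ℝ) ^ 48
    rw [show (T j : ℝ) ^ 96 = ((T j : ℝ) ^ 2) ^ 48 by ring]
    gcongr
  · show c * (126 / (T k : ℝ) ^ 24) ≤ (1 / (T (k + 1) : ℝ) ^ 4) ^ 2
    have h0 := hT0 k
    rw [hTs, ← mul_div_assoc, div_pow, div_le_div_iff₀ (by positivity) (by positivity)]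
    have h1 : c * 126 ≤ (T k : ℝ) ^ 8 := by
      have := le_self_pow₀ (hT1 k) (show 8 ≠ 0 by norm_num)
      linarith [hTt' k]
    calc c * 126 * (((T k : ℝ) ^ 2) ^ 4) ^ 2 ≤ (T k : ℝ) ^ 8 * (((T k : ℝ) ^ 2) ^ 4) ^ 2 := by gcongr
      _ = 1 ^ 2 * (T k : ℝ) ^ 24 := by ring
  · have h0 := hT0 k
    push_cast
    rw [div_le_div_iff₀ (by positivity) (by positivity)]
    have h1 : (1 : ℝ) ≤ (T k : ℝ) ^ 48 := one_le_pow₀ (hT1 k)
    calc 3 * (2 * (T k : ℝ) ^ 48 + 1) * (T k : ℝ) ^ 24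
        ≤ (126 * (T k : ℝ) ^ 48) * (T k : ℝ) ^ 24 :=
          mul_le_mul_of_nonneg_right (by linarith) (by positivity)
      _ = 126 * (T k : ℝ) ^ 72 := by ring
  · have h0 := hT0 k
    push_cast
    have h1 : (T k : ℝ) ^ 24 ≤ (T k : ℝ) ^ 72 := pow_le_pow_right₀ (hT1 k) (by norm_num)
    gcongr; norm_num
  · have h0 := hT0 k
    push_cast
    set y : ℝ := 2 / (T k : ℝ) ^ 24 with hy
    have hy0 : 0 ≤ y := by positivity
    have hy1 : y ≤ 1 := by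
      rw [hy, div_le_one (by positivity)]
      exact (hT2 k).trans (le_self_pow₀ (hT1 k) (by norm_num))
    have h1 : 2 * (T k : ℝ) ^ 72 / (T k : ℝ) ^ 96 = y := by rw [hy]; field_simp
    have h2 : 1 / (T k : ℝ) ^ 72 ≤ y := by
      have h1 : (T k : ℝ) ^ 24 ≤ (T k : ℝ) ^ 72 := pow_le_pow_right₀ (hT1 k) (by norm_num)
      rw [hy]; gcongr; norm_num
    have h3 : 126 / (T k : ℝ) ^ 24 = 63 * y := by rw [hy]; ring
    rw [h1, h3]
    have h4 : (1 + y) ^ 3 ≤ 1 + 7 * y := by nlinarith [mul_nonneg hy0 hy0, sq_nonneg y]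
    calc (1 + y) ^ 3 * (1 + 1 / (T k : ℝ) ^ 72) ^ 3 ≤ (1 + y) ^ 3 * (1 + y) ^ 3 := by gcongr
      _ ≤ (1 + 7 * y) * (1 + 7 * y) := by gcongr
      _ ≤ 1 + 63 * y := by nlinarith
  · have h0 := hT0 k
    have h1 : (T k : ℝ) ^ 24 ≤ (T k : ℝ) ^ 96 := pow_le_pow_right₀ (hT1 k) (by norm_num)
    show 1 / (T k : ℝ) ^ 96 ≤ 126 / (T k : ℝ) ^ 24
    gcongr; norm_num
  · rw [← summable_nat_add_iff 1]
    refine Summable.of_nonneg_of_le (fun k => ?_) (fun k => ?_)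
      (summable_geometric_of_lt_one (r := 1 / 2) (by norm_num) (by norm_num))
    · have := hT0 (k + 1); positivity
    · have h0 := hT0 (k + 1)
      show 1 / (T (k + 1) : ℝ) ^ 4 * ((T (k + 1) : ℝ) ^ 96) ^ (1 / 32 : ℝ) ≤ (1 / 2) ^ k
      have h1 : ((T (k + 1) : ℝ) ^ 96) ^ (1 / 32 : ℝ) = (T (k + 1) : ℝ) ^ 3 := by
        rw [← Real.rpow_natCast, ← Real.rpow_mul h0.le, ← Real.rpow_natCast]; norm_num
      have h2 : (2 : ℝ) ^ k ≤ T (k + 1) := by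
        have := hTt (k + 1)
        have h3 : (0 : ℝ) < 2 ^ k := by positivity
        rw [pow_succ] at this; nlinarith
      rw [h1, one_div_pow, show 1 / (T (k + 1) : ℝ) ^ 4 * (T (k + 1) : ℝ) ^ 3 = 1 / T (k + 1) by
        field_simp]
      gcongr

end Crest.Agent.R149
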