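import Crest.Agent.R149.Tile

/-!
# Row 149: existence of the thermodynamic limit
-/

set_option autoImplicit false
open MeasureTheory Set Filter Topology Crest.ProbabilityR.Continuum
open scoped ENNReal

namespace Crest.Agent.R149

namespace TDexAux

/-- the properties of the finite volume free energy used for the thermodynamic limit -/
structure Hyp (f : ℝ → ℕ → ℝ) : Prop where
  zero : ∀ L, f L 0 = 0
  anti : ∀ {L L' : ℝ}, 0 < L → L ≤ L' → ∀ N, f L' N ≤ f L N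
  low : ∃ B : ℝ, ∀ {L : ℝ}, 0 < L → ∀ N : ℕ, -B * N - L ^ 3 ≤ f L N
  const : ∀ {s m : ℕ}, 2 ≤ s → 1 ≤ m → ∀ N : ℕ,
    f (((s * m : ℕ) : ℝ) - 1) (N * m ^ 3) ≤ (m : ℝ) ^ 3 * f ((s : ℝ) - 1) N
  three : ∀ {L : ℝ}, 0 < L → ∀ {s m : ℕ}, 2 ≤ s → (m : ℝ) * s ≤ L + 1 → ∀ {a b : ℕ},
    a + b + 1 ≤ m ^ 3 → ∀ N₁ N₂ k : ℕ, f L (a * N₁ + b * N₂ + k) ≤
      a * f ((s : ℝ) - 1) N₁ + b * f ((s : ℝ) - 1) N₂ + f ((s : ℝ) - 1) k

/-- the chord value -/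
noncomputable def ch (ρ r₁ y₁ r₂ y₂ : ℝ) : ℝ := ((r₂ - ρ) * y₁ + (ρ - r₁) * y₂) / (r₂ - r₁)

/-- the set of chord values -/
def Ch (f : ℝ → ℕ → ℝ) (ρ : ℝ) : Set ℝ :=
  {v | ∃ s₁ N₁ s₂ N₂ : ℕ, 2 ≤ s₁ ∧ 2 ≤ s₂ ∧ (N₁ : ℝ) / (s₁ : ℝ) ^ 3 ≤ ρ ∧
    ρ < (N₂ : ℝ) / (s₂ : ℝ) ^ 3 ∧
    v = ch ρ ((N₁ : ℝ) / (s₁ : ℝ) ^ 3) (f ((s₁ : ℝ) - 1) N₁ / (s₁ : ℝ) ^ 3)
      ((N₂ : ℝ) / (s₂ : ℝ) ^ 3) (f ((s₂ : ℝ) - 1) N₂ / (s₂ : ℝ) ^ 3)}

/-- the limit -/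
noncomputable def G (f : ℝ → ℕ → ℝ) (ρ : ℝ) : ℝ := sInf (Ch f ρ)

theorem ch_mono {ρ r₁ y₁ r₂ y₂ y₁' y₂' : ℝ} (h1 : r₁ ≤ ρ) (h2 : ρ < r₂) (e1 : y₁ ≤ y₁')
    (e2 : y₂ ≤ y₂') : ch ρ r₁ y₁ r₂ y₂ ≤ ch ρ r₁ y₁' r₂ y₂' := by
  unfold ch
  refine div_le_div_of_nonneg_right ?_ (by linarith)
  have a1 := mul_le_mul_of_nonneg_left e1 (sub_nonneg.2 h2.le)
  have a2 := mul_le_mul_of_nonneg_left e2 (sub_nonneg.2 h1)
  linarith

theorem ch_affine {ρ r₁ r₂ B c : ℝ} (h : r₁ < r₂) :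
    ch ρ r₁ (B * r₁ + c) r₂ (B * r₂ + c) = B * ρ + c := by
  unfold ch
  have : r₂ - r₁ ≠ 0 := (sub_pos.2 h).ne'
  field_simp
  ring

theorem ch_self {ρ y₁ r₂ y₂ : ℝ} (h : ρ < r₂) : ch ρ ρ y₁ r₂ y₂ = y₁ := by
  unfold ch
  have : r₂ - ρ ≠ 0 := (sub_pos.2 h).ne'
  field_simp
  ring

theorem exists_gt (ρ : ℝ) : ∃ N : ℕ, ρ < (N : ℝ) / ((2 : ℕ) : ℝ) ^ 3 := by
  obtain ⟨N, hN⟩ := exists_nat_gt (ρ * 8)
  refine ⟨N, ?_⟩
  rw [lt_div_iff₀ (by norm_num)]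
  norm_num
  exact hN

theorem Ch_nonempty (f : ℝ → ℕ → ℝ) {ρ : ℝ} (hρ : 0 ≤ ρ) : (Ch f ρ).Nonempty := by
  obtain ⟨N, hN⟩ := exists_gt ρ
  exact ⟨_, 2, 0, 2, N, le_rfl, le_rfl, by simpa using hρ, hN, rfl⟩

variable {f : ℝ → ℕ → ℝ}

theorem Ch_bdd (H : Hyp f) (ρ : ℝ) : BddBelow (Ch f ρ) := by
  obtain ⟨B, hB⟩ := H.low
  have key : ∀ s N : ℕ, 2 ≤ s →
      -B * ((N : ℝ) / (s : ℝ) ^ 3) + (-1) ≤ f ((s : ℝ) - 1) N / (s : ℝ) ^ 3 := by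
    intro s N hs
    have h2 : (2 : ℝ) ≤ s := by exact_mod_cast hs
    have h3 : (0 : ℝ) < (s : ℝ) ^ 3 := by positivity
    have h4 := hB (L := (s : ℝ) - 1) (by linarith) N
    have h5 : ((s : ℝ) - 1) ^ 3 ≤ (s : ℝ) ^ 3 := pow_le_pow_left₀ (by linarith) (by linarith) 3
    rw [le_div_iff₀ h3]
    have : (-B * ((N : ℝ) / (s : ℝ) ^ 3) + (-1)) * (s : ℝ) ^ 3 = -B * N - (s : ℝ) ^ 3 := by
      field_simp
      ring
    rw [this]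
    linarith
  refine ⟨-B * ρ + (-1), ?_⟩
  rintro v ⟨s₁, N₁, s₂, N₂, h1, h2, h3, h4, rfl⟩
  rw [← ch_affine (ρ := ρ) (B := -B) (c := -1) (h3.trans_lt h4)]
  exact ch_mono h3 h4 (key _ _ h1) (key _ _ h2)

theorem G_le (H : Hyp f) {ρ : ℝ} {s₁ N₁ s₂ N₂ : ℕ} (h1 : 2 ≤ s₁) (h2 : 2 ≤ s₂)
    (h3 : (N₁ : ℝ) / (s₁ : ℝ) ^ 3 ≤ ρ) (h4 : ρ < (N₂ : ℝ) / (s₂ : ℝ) ^ 3) :
    G f ρ ≤ ch ρ ((N₁ : ℝ) / (s₁ : ℝ) ^ 3) (f ((s₁ : ℝ) - 1) N₁ / (s₁ : ℝ) ^ 3)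
      ((N₂ : ℝ) / (s₂ : ℝ) ^ 3) (f ((s₂ : ℝ) - 1) N₂ / (s₂ : ℝ) ^ 3) :=
  csInf_le (Ch_bdd H ρ) ⟨s₁, N₁, s₂, N₂, h1, h2, h3, h4, rfl⟩

theorem G_pt (H : Hyp f) {s : ℕ} (hs : 2 ≤ s) (N : ℕ) :
    G f ((N : ℝ) / (s : ℝ) ^ 3) ≤ f ((s : ℝ) - 1) N / (s : ℝ) ^ 3 := by
  obtain ⟨N₂, hN⟩ := exists_gt ((N : ℝ) / (s : ℝ) ^ 3)
  have := G_le H hs le_rfl le_rfl hN
  rwa [ch_self hN] at this

theorem G_zero (H : Hyp f) : G f 0 = 0 := by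
  have : Ch f 0 = {0} := by
    refine Set.eq_singleton_iff_nonempty_unique_mem.2 ⟨Ch_nonempty f le_rfl, ?_⟩
    rintro v ⟨s₁, N₁, s₂, N₂, h1, h2, h3, h4, rfl⟩
    have h5 : (0 : ℝ) < (s₁ : ℝ) ^ 3 := by
      have : (2 : ℝ) ≤ s₁ := by exact_mod_cast h1
      positivity
    have h6 : N₁ = 0 := by
      rw [div_le_iff₀ h5, zero_mul] at h3
      exact_mod_cast le_antisymm h3 (Nat.cast_nonneg _)
    subst h6
    simp [ch, H.zero]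
  rw [G, this, csInf_singleton]

theorem tendsto_div_cube (K : ℝ) : Tendsto (fun L : ℝ => K / L ^ 3) atTop (𝓝 0) :=
  tendsto_const_nhds.div_atTop (tendsto_pow_atTop three_ne_zero)

/-- the upper bound for a chord between points with the same `s` -/
theorem upper_same (H : Hyp f) {ρ : ℝ} (hρ : 0 ≤ ρ) {s N₁ N₂ : ℕ} (hs : 2 ≤ s)
    (h1 : (N₁ : ℝ) / (s : ℝ) ^ 3 ≤ ρ) (h2 : ρ < (N₂ : ℝ) / (s : ℝ) ^ 3) :
    ∃ u : ℝ → ℝ, Tendsto u atTop (𝓝 (ch ρ ((N₁ : ℝ) / (s : ℝ) ^ 3)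
      (f ((s : ℝ) - 1) N₁ / (s : ℝ) ^ 3) ((N₂ : ℝ) / (s : ℝ) ^ 3)
      (f ((s : ℝ) - 1) N₂ / (s : ℝ) ^ 3))) ∧
      ∀ᶠ L : ℝ in atTop, f L ⌊ρ * L ^ 3⌋₊ / L ^ 3 ≤ u L := by
  have hs2 : (2 : ℝ) ≤ s := by exact_mod_cast hs
  have hs0 : (0 : ℝ) < s := by linarith
  have hs3 : (0 : ℝ) < (s : ℝ) ^ 3 := by positivity
  have hlt : (N₁ : ℝ) < N₂ := by
    have := h1.trans_lt h2
    rwa [div_lt_div_iff_of_pos_right hs3] at this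
  have hlt' : N₁ < N₂ := by exact_mod_cast hlt
  obtain ⟨D, rfl⟩ : ∃ D, N₂ = N₁ + D := ⟨N₂ - N₁, by omega⟩
  have hD : 0 < D := by omega
  have hD' : (0 : ℝ) < D := by exact_mod_cast hD
  set F₁ := f ((s : ℝ) - 1) N₁ with hF₁
  set F₂ := f ((s : ℝ) - 1) (N₁ + D) with hF₂
  set K : ℝ := ∑ k ∈ Finset.range D, |f ((s : ℝ) - 1) k - k / D * (F₂ - F₁)| with hK
  -- the number of cells per side
  have hm : Tendsto (fun L : ℝ => (⌊1 / (s : ℝ) * L⌋₊ : ℝ) / L) atTop (𝓝 (1 / (s : ℝ))) :=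
    tendsto_nat_floor_mul_div_atTop (by positivity)
  have hc : Tendsto (fun L : ℝ => ((⌊1 / (s : ℝ) * L⌋₊ : ℝ) / L) ^ 3 - 1 / L ^ 3) atTop
      (𝓝 ((1 / (s : ℝ)) ^ 3 - 0)) := (hm.pow 3).sub (tendsto_div_cube 1)
  rw [sub_zero] at hc
  have hN := tendsto_floor hρ
  refine ⟨fun L => (((⌊1 / (s : ℝ) * L⌋₊ : ℝ) / L) ^ 3 - 1 / L ^ 3) * F₁ +
    ((⌊ρ * L ^ 3⌋₊ : ℝ) / L ^ 3 - (((⌊1 / (s : ℝ) * L⌋₊ : ℝ) / L) ^ 3 - 1 / L ^ 3) * N₁) / D *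
      (F₂ - F₁) + K / L ^ 3, ?_, ?_⟩
  · have := ((hc.mul_const F₁).add (((hN.sub (hc.mul_const (N₁ : ℝ))).div_const (D : ℝ)).mul_const
      (F₂ - F₁))).add (tendsto_div_cube K)
    convert this using 2
    unfold ch
    push_cast
    have e : ((N₁ : ℝ) + D) / (s : ℝ) ^ 3 - N₁ / (s : ℝ) ^ 3 = D / (s : ℝ) ^ 3 := by ring
    rw [e]
    field_simp
    ring
  · have h3 : ∀ᶠ L : ℝ in atTop,
        ρ < (((⌊1 / (s : ℝ) * L⌋₊ : ℝ) / L) ^ 3 - 1 / L ^ 3) * ((N₁ + D : ℕ) : ℝ) := by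
      refine (hc.mul_const _).eventually (lt_mem_nhds ?_)
      rw [one_div, inv_pow, mul_comm, ← div_eq_mul_inv]
      exact h2
    filter_upwards [h3, eventually_ge_atTop (s : ℝ)] with L hL hLs
    have hL0 : 0 < L := by linarith
    have hL3 : 0 < L ^ 3 := by positivity
    set m := ⌊1 / (s : ℝ) * L⌋₊ with hmdef
    set N := ⌊ρ * L ^ 3⌋₊ with hNdef
    have hm1 : 1 ≤ m := by
      refine Nat.le_floor ?_
      rw [Nat.cast_one, one_div, ← div_eq_inv_mul, le_div_iff₀ hs0]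
      linarith
    have hm2 : (m : ℝ) ≤ 1 / (s : ℝ) * L := Nat.floor_le (by positivity)
    have hm3 : (m : ℝ) * s ≤ L := by
      rw [one_div, ← div_eq_inv_mul, le_div_iff₀ hs0] at hm2
      exact hm2
    obtain ⟨c, hc⟩ : ∃ c, m ^ 3 = c + 1 := ⟨m ^ 3 - 1, by
      have := Nat.one_le_pow 3 m hm1
      omega⟩
    have hc' : (m : ℝ) ^ 3 = c + 1 := by exact_mod_cast hc
    have hcL : ((m : ℝ) / L) ^ 3 - 1 / L ^ 3 = c / L ^ 3 := by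
      rw [div_pow, hc']
      ring
    rw [hcL] at hL ⊢
    have a1 : c * N₁ ≤ N := by
      refine Nat.le_floor ?_
      have b1 : ((m : ℝ) * s) ^ 3 ≤ L ^ 3 := pow_le_pow_left₀ (by positivity) hm3 3
      rw [mul_pow, hc'] at b1
      rw [div_le_iff₀ hs3] at h1
      have b2 : (c : ℝ) * N₁ ≤ c * (ρ * (s : ℝ) ^ 3) :=
        mul_le_mul_of_nonneg_left h1 (Nat.cast_nonneg c)
      have b3 : ρ * (c * (s : ℝ) ^ 3) ≤ ρ * L ^ 3 :=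
        mul_le_mul_of_nonneg_left (by nlinarith) hρ
      push_cast
      nlinarith
    have a2 : N ≤ c * (N₁ + D) := by
      have b1 : (N : ℝ) ≤ ρ * L ^ 3 := Nat.floor_le (by positivity)
      rw [div_mul_eq_mul_div, lt_div_iff₀ hL3] at hL
      exact_mod_cast (b1.trans hL.le)
    obtain ⟨M, hM⟩ : ∃ M, N = c * N₁ + M := ⟨N - c * N₁, by omega⟩
    have a3 : M ≤ c * D := by
      rw [hM, mul_add] at a2
      omega
    have a4 : M / D ≤ c := Nat.div_le_of_le_mul (by rwa [mul_comm])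
    obtain ⟨a, ha⟩ : ∃ a, c = a + M / D := ⟨c - M / D, by omega⟩
    have a5 : D * (M / D) + M % D = M := Nat.div_add_mod M D
    have a6 : M % D < D := Nat.mod_lt _ hD
    generalize M / D = b at a4 ha a5
    generalize M % D = k at a5 a6
    have a7 := H.three hL0 hs (m := m) (by linarith) (a := a) (b := b) (by omega) N₁ (N₁ + D) k
    have a8 : a * N₁ + b * (N₁ + D) + k = N := by
      rw [hM, ha, ← a5]
      ring
    rw [a8, ← hF₁, ← hF₂] at a7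
    have a9 : f ((s : ℝ) - 1) k - k / D * (F₂ - F₁) ≤ K :=
      (le_abs_self _).trans (Finset.single_le_sum
        (f := fun k : ℕ => |f ((s : ℝ) - 1) k - k / D * (F₂ - F₁)|) (fun _ _ => abs_nonneg _)
        (Finset.mem_range.2 a6))
    have e1 : (N : ℝ) = (a + b) * N₁ + (D * b + k) := by
      rw [← a8]
      push_cast
      ring
    have e2 : (c : ℝ) = a + b := by exact_mod_cast ha
    have e3 : (c : ℝ) / L ^ 3 * F₁ + ((N : ℝ) / L ^ 3 - c / L ^ 3 * N₁) / D * (F₂ - F₁) + K / L ^ 3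
        = (a * F₁ + b * F₂ + k / D * (F₂ - F₁) + K) / L ^ 3 := by
      rw [e1, e2]
      field_simp
      ring
    rw [e3]
    exact div_le_div_of_nonneg_right (by linarith) hL3.le

theorem upper (H : Hyp f) {ρ : ℝ} (hρ : 0 ≤ ρ) {a : ℝ} (ha : G f ρ < a) :
    ∀ᶠ L : ℝ in atTop, f L ⌊ρ * L ^ 3⌋₊ / L ^ 3 < a := by
  obtain ⟨v, ⟨s₁, N₁, s₂, N₂, h1, h2, h3, h4, rfl⟩, hv⟩ :=
    exists_lt_of_csInf_lt (Ch_nonempty f hρ) ha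
  have p1 : (0 : ℝ) < s₁ := by exact_mod_cast (by omega : 0 < s₁)
  have p2 : (0 : ℝ) < s₂ := by exact_mod_cast (by omega : 0 < s₂)
  have e1 : ((N₁ * s₂ ^ 3 : ℕ) : ℝ) / ((s₁ * s₂ : ℕ) : ℝ) ^ 3 = (N₁ : ℝ) / (s₁ : ℝ) ^ 3 := by
    push_cast
    field_simp
  have e2 : ((N₂ * s₁ ^ 3 : ℕ) : ℝ) / ((s₁ * s₂ : ℕ) : ℝ) ^ 3 = (N₂ : ℝ) / (s₂ : ℝ) ^ 3 := by
    push_cast
    field_simp
  have hs : 2 ≤ s₁ * s₂ := by nlinarith
  obtain ⟨u, hu, hf⟩ := upper_same H hρ hs (N₁ := N₁ * s₂ ^ 3) (N₂ := N₂ * s₁ ^ 3)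
    (by rwa [e1]) (by rwa [e2])
  rw [e1, e2] at hu
  have p3 : (0 : ℝ) < ((s₁ * s₂ : ℕ) : ℝ) ^ 3 := by
    push_cast
    positivity
  have b1 : f (((s₁ * s₂ : ℕ) : ℝ) - 1) (N₁ * s₂ ^ 3) / ((s₁ * s₂ : ℕ) : ℝ) ^ 3 ≤
      f ((s₁ : ℝ) - 1) N₁ / (s₁ : ℝ) ^ 3 := by
    refine (div_le_div_of_nonneg_right (H.const h1 (by omega) N₁) p3.le).trans (le_of_eq ?_)
    push_cast
    field_simp
  have b2 : f (((s₁ * s₂ : ℕ) : ℝ) - 1) (N₂ * s₁ ^ 3) / ((s₁ * s₂ : ℕ) : ℝ) ^ 3 ≤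
      f ((s₂ : ℝ) - 1) N₂ / (s₂ : ℝ) ^ 3 := by
    have := H.const (m := s₁) h2 (by omega) N₂
    rw [mul_comm s₂ s₁] at this
    refine (div_le_div_of_nonneg_right this p3.le).trans (le_of_eq ?_)
    push_cast
    field_simp
  have b3 := (ch_mono h3 h4 b1 b2).trans_lt hv
  filter_upwards [hf, hu.eventually (gt_mem_nhds b3)] with L c1 c2
  exact c1.trans_lt c2

/-- the side of the cell containing the cube of side `L` -/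
noncomputable def sL (L : ℝ) : ℕ := ⌈L⌉₊ + 1

theorem tendsto_sL : Tendsto (fun L : ℝ => ((sL L : ℝ) / L) ^ 3) atTop (𝓝 1) := by
  have h := (tendsto_nat_ceil_div_atTop (R := ℝ)).add tendsto_inv_atTop_zero
  have h2 : Tendsto (fun L : ℝ => (sL L : ℝ) / L) atTop (𝓝 1) := by
    rw [add_zero] at h
    refine h.congr fun L => ?_
    unfold sL
    push_cast
    rw [add_div, one_div]
  simpa using h2.pow 3

theorem two_le_sL {L : ℝ} (hL : 0 < L) : 2 ≤ sL L := by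
  have := Nat.ceil_pos.2 hL
  unfold sL
  omega

theorem le_sL (L : ℝ) : L ≤ (sL L : ℝ) - 1 := by
  unfold sL
  push_cast
  linarith [Nat.le_ceil L]

theorem tendsto_div_sL {u : ℝ → ℝ} {c : ℝ} (hu : Tendsto (fun L => u L / L ^ 3) atTop (𝓝 c)) :
    Tendsto (fun L => u L / (sL L : ℝ) ^ 3) atTop (𝓝 c) := by
  have h := hu.div tendsto_sL one_ne_zero
  rw [div_one] at h
  refine h.congr' ?_
  filter_upwards [eventually_gt_atTop (0 : ℝ)] with L hL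
  have : (0 : ℝ) < sL L := by linarith [le_sL L]
  simp only [Pi.div_apply]
  field_simp

theorem floor_div_sL_le {ρ L : ℝ} (hρ : 0 ≤ ρ) (hL : 0 < L) :
    (⌊ρ * L ^ 3⌋₊ : ℝ) / (sL L : ℝ) ^ 3 ≤ ρ := by
  have h0 : (0 : ℝ) < sL L := by linarith [le_sL L]
  rw [div_le_iff₀ (by positivity)]
  refine (Nat.floor_le (by positivity)).trans (mul_le_mul_of_nonneg_left ?_ hρ)
  exact pow_le_pow_left₀ hL.le (by linarith [le_sL L]) 3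

theorem f_sL_le (H : Hyp f) {L : ℝ} (hL : 0 < L) (N : ℕ) :
    f ((sL L : ℝ) - 1) N / (sL L : ℝ) ^ 3 ≤ f L N / (sL L : ℝ) ^ 3 :=
  div_le_div_of_nonneg_right (H.anti hL (le_sL L) N) (by positivity)

theorem lower (H : Hyp f) {ρ : ℝ} (hρ : 0 ≤ ρ) {a : ℝ} (ha : a < G f ρ) :
    ∀ᶠ L : ℝ in atTop, a < f L ⌊ρ * L ^ 3⌋₊ / L ^ 3 := by
  obtain ⟨N₂, hN⟩ := exists_gt ρ
  have hr := tendsto_div_sL (tendsto_floor hρ)
  have key : ∀ L : ℝ, 0 < L → G f ρ ≤ ch ρ ((⌊ρ * L ^ 3⌋₊ : ℝ) / (sL L : ℝ) ^ 3)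
      (f L ⌊ρ * L ^ 3⌋₊ / (sL L : ℝ) ^ 3) ((N₂ : ℝ) / ((2 : ℕ) : ℝ) ^ 3)
      (f (((2 : ℕ) : ℝ) - 1) N₂ / ((2 : ℕ) : ℝ) ^ 3) := fun L hL =>
    (G_le H (two_le_sL hL) le_rfl (floor_div_sL_le hρ hL) hN).trans
      (ch_mono (floor_div_sL_le hρ hL) hN (f_sL_le H hL _) le_rfl)
  generalize (N₂ : ℝ) / ((2 : ℕ) : ℝ) ^ 3 = r₂ at hN key
  generalize f (((2 : ℕ) : ℝ) - 1) N₂ / ((2 : ℕ) : ℝ) ^ 3 = y₂ at key
  have hp : 0 < r₂ - ρ := sub_pos.2 hN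
  have hw : Tendsto (fun L : ℝ => ((sL L : ℝ) / L) ^ 3 *
      ((G f ρ * (r₂ - (⌊ρ * L ^ 3⌋₊ : ℝ) / (sL L : ℝ) ^ 3) -
        (ρ - (⌊ρ * L ^ 3⌋₊ : ℝ) / (sL L : ℝ) ^ 3) * y₂) / (r₂ - ρ))) atTop (𝓝 (G f ρ)) := by
    have := tendsto_sL.mul ((((hr.const_sub r₂).const_mul (G f ρ)).sub
      ((hr.const_sub ρ).mul_const y₂)).div_const (r₂ - ρ))
    convert this using 2
    field_simp
    ring
  filter_upwards [hw.eventually (lt_mem_nhds ha), eventually_gt_atTop (0 : ℝ)] with L c1 hL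
  refine c1.trans_le ?_
  have k1 := key L hL
  have k2 := floor_div_sL_le hρ hL
  have h0 : (0 : ℝ) < sL L := by linarith [le_sL L]
  have e : f L ⌊ρ * L ^ 3⌋₊ / L ^ 3 =
      ((sL L : ℝ) / L) ^ 3 * (f L ⌊ρ * L ^ 3⌋₊ / (sL L : ℝ) ^ 3) := by
    field_simp
  rw [e]
  refine mul_le_mul_of_nonneg_left ?_ (by positivity)
  unfold ch at k1
  rw [le_div_iff₀ (by linarith)] at k1
  rw [div_le_iff₀ hp]
  linarith

theorem tendsto_G (H : Hyp f) {ρ : ℝ} (hρ : 0 ≤ ρ) :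
    Tendsto (fun L : ℝ => f L ⌊ρ * L ^ 3⌋₊ / L ^ 3) atTop (𝓝 (G f ρ)) :=
  tendsto_order.2 ⟨fun _ ha => lower H hρ ha, fun _ ha => upper H hρ ha⟩

theorem G_convex (H : Hyp f) : ConvexOn ℝ (Ici 0) (G f) := by
  refine LinearOrder.convexOn_of_lt (convex_Ici 0) fun x hx y hy hxy a b ha hb hab => ?_
  simp only [smul_eq_mul]
  obtain rfl : a = 1 - b := by linarith
  set ρ := (1 - b) * x + b * y with hρ
  have h1 : x ≤ ρ := by nlinarith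
  have h2 : ρ < y := by nlinarith
  have rx := tendsto_div_sL (tendsto_floor hx)
  have ry := tendsto_div_sL (tendsto_floor hy)
  have gx := tendsto_div_sL (tendsto_G H hx)
  have gy := tendsto_div_sL (tendsto_G H hy)
  have hne : y - x ≠ 0 := (sub_pos.2 hxy).ne'
  have hl := (((ry.sub_const ρ).mul gx).add ((rx.const_sub ρ).mul gy)).div (ry.sub rx) hne
  have e : ((y - ρ) * G f x + (ρ - x) * G f y) / (y - x) = (1 - b) * G f x + b * G f y := by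
    rw [hρ]
    field_simp
    ring
  rw [e] at hl
  refine ge_of_tendsto hl ?_
  filter_upwards [ry.eventually (lt_mem_nhds h2), eventually_gt_atTop (0 : ℝ)] with L c1 hL
  have c2 := (floor_div_sL_le hx hL).trans h1
  exact (G_le H (two_le_sL hL) (two_le_sL hL) c2 c1).trans
    (ch_mono c2 c1 (f_sL_le H hL _) (f_sL_le H hL _))

theorem hyp {φ : ℝ → ℝ} (hφ : Good φ) {β : ℝ} (hβ : 0 < β) : Hyp (F φ β) where
  zero L := F_zero φ β L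
  anti hL h N := F_anti hφ.toStab hβ hL h N
  low := by
    obtain ⟨B, hB⟩ := hφ.stable
    refine ⟨β * B, fun hL N => F_ge hφ.toStab hβ hL fun x _ => ?_⟩
    have := mul_le_mul_of_nonneg_left (hB N x) hβ.le
    linarith
  const hs hm N := F_tile_const hφ hβ hs hm N
  three hL _ _ hs hm _ _ hab N₁ N₂ k := F_tile_three hφ hβ hL hs hm hab N₁ N₂ k

end TDexAux

open TDexAux

/-- A *point* is a pair `(s, N)`, `s ≥ 2`, with abscissa `r = N / s ^ 3` and ordinate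
`y = F φ β (s - 1) N / s ^ 3`.  Define `g β ρ` as the infimum over pairs of points with
`r₁ ≤ ρ < r₂` of the chord value `((r₂ - ρ) y₁ + (ρ - r₁) y₂) / (r₂ - r₁)`; the set is nonempty
(`N₁ = 0`; `s₂ = 2`, `N₂` large) and bounded below (`F_ge` and stability give
`y ≥ -β B r - 1` for every point, so every chord value is `≥ -β B ρ - 1`).
* `pt`: a chord with `r₁ = ρ` has value `y₁`.  `g β 0 = 0`: `r₁ ≤ 0` forces `N₁ = 0`, `F_zero`.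
* limsup: given a chord, replace both points by points with the same `s = s₁ s₂`
  (`F_tile_const`: same abscissa, smaller ordinate).  For large `L` let `m = ⌊L / s⌋₊`,
  `c = m ^ 3 - 1`, `N = ⌊ρ L ^ 3⌋₊`; then `c N₁ ≤ N ≤ c N₂` eventually; put
  `b = (N - c N₁) / (N₂ - N₁)`, `a = c - b`, `k = (N - c N₁) % (N₂ - N₁) < N₂` and use
  `F_tile_three`; `b / L ^ 3 → (ρ - r₁) / (N₂ - N₁)`, `c / L ^ 3 → 1 / s ^ 3`, and
  `F φ β (s - 1) k` takes finitely many values.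
* liminf: with `s = ⌈L⌉₊ + 1`, `F φ β L N ≥ F φ β (s - 1) N` (`F_anti`); the point `(s, N)` has
  `r_L ≤ ρ`, `r_L → ρ`; the chord with a fixed point `(r₂, y₂)`, `r₂ > ρ`, gives
  `g β ρ ≤ (1 - t_L) y_L + t_L y₂` with `t_L → 0`, and `s ^ 3 / L ^ 3 → 1`.
* convexity in `ρ`: for `ρ₁ < ρ < ρ₂` use the chords between the points `(⌈L⌉₊ + 1, ⌊ρᵢ L ^ 3⌋₊)`
  whose coordinates converge to `(ρᵢ, g β ρᵢ)` (upper bound by `F_anti` and the limit), or argue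
  directly with the chords; `ρ = ρ₁` or `ρ₂` is trivial.
* concavity in `β`: limit of the concave functions `F_concave`. -/
theorem exists_TD {φ : ℝ → ℝ} (hφ : Good φ) : ∃ g, TD φ g := by
  refine ⟨fun β => G (F φ β), ⟨fun ρ hρ => ⟨convex_Ioi 0, fun x hx y hy a b ha hb hab => ?_⟩,
    fun β hβ => G_convex (hyp hφ hβ), fun β hβ => G_zero (hyp hφ hβ)⟩,
    fun β hβ ρ hρ => tendsto_G (hyp hφ hβ) hρ, fun β hβ s hs N => G_pt (hyp hφ hβ) hs N⟩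
  have hz : 0 < a • x + b • y := convex_Ioi 0 hx hy ha hb hab
  refine le_of_tendsto_of_tendsto (((tendsto_G (hyp hφ hx) hρ).const_smul a).add
    ((tendsto_G (hyp hφ hy) hρ).const_smul b)) (tendsto_G (hyp hφ hz) hρ) ?_
  filter_upwards [eventually_gt_atTop (0 : ℝ)] with L hL
  have h := (F_concave hφ.toStab hL ⌊ρ * L ^ 3⌋₊).2 hx hy ha hb hab
  simp only [smul_eq_mul] at h ⊢
  rw [← mul_div_assoc, ← mul_div_assoc, ← add_div]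
  exact div_le_div_of_nonneg_right h (by positivity)

end Crest.Agent.R149
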