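import Crest.Agent.R149.KacB

/-!
# Row 149: sums of Kac potentials
-/

set_option autoImplicit false
open MeasureTheory Set Filter Topology Crest.ProbabilityR.Continuum
open scoped ENNReal

namespace Crest.Agent.R149

namespace TailAux

theorem Qc_nonneg (l : ℕ) (t : Fin 3 → ℤ) {ι : Type} [Fintype ι] (x : ι → Pt) :
    0 ≤ Qc l t x :=
  Finset.sum_nonneg fun _ _ => Finset.sum_nonneg fun _ _ => by split_ifs <;> norm_num

theorem kac_le_one {R : ℝ} (hR : 1 ≤ R) (r : ℝ) : kac R r ≤ 1 := by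
  have h1 := kac_le (R := R) (by linarith) r
  have h2 := vB_ge (R := R) (by linarith)
  have h3 : 1 ≤ R ^ 3 := one_le_pow₀ hR
  refine h1.trans ?_
  rw [div_le_one (by linarith)]
  linarith

theorem kac_decay {R r : ℝ} (hR : 1 ≤ R) (hr : 1 ≤ r) :
    kac R r ≤ 4 * R ^ (1 / 32 : ℝ) * r ^ (-(3 + 1 / 32 : ℝ)) := by
  have hR0 : 0 < R := by linarith
  have hr0 : 0 < r := by linarith
  rcases le_total (2 * R) r with h | h
  · rw [kac_eq_zero h]
    positivity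
  have h1 := kac_le hR0 r
  have h2 := vB_ge hR0.le
  have h3 : (2 * R) ^ (-(3 + 1 / 32 : ℝ)) ≤ r ^ (-(3 + 1 / 32 : ℝ)) :=
    Real.rpow_le_rpow_of_nonpos hr0 h (by norm_num)
  have h4 : (2 : ℝ) ^ (-(4 : ℝ)) ≤ (2 : ℝ) ^ (-(3 + 1 / 32 : ℝ)) :=
    Real.rpow_le_rpow_of_exponent_le (by norm_num) (by norm_num)
  have h5 : (2 : ℝ) ^ (-(4 : ℝ)) = 1 / 16 := by
    rw [Real.rpow_neg (by norm_num), show (4 : ℝ) = ((4 : ℕ) : ℝ) by norm_num, Real.rpow_natCast]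
    norm_num
  have h6 : R ^ (1 / 32 : ℝ) * R ^ (-(3 + 1 / 32 : ℝ)) = 1 / R ^ 3 := by
    rw [← Real.rpow_add hR0, show (1 / 32 + -(3 + 1 / 32) : ℝ) = -((3 : ℕ) : ℝ) by norm_num,
      Real.rpow_neg hR0.le, Real.rpow_natCast, one_div]
  rw [Real.mul_rpow (by norm_num) hR0.le] at h3
  have h7 : 0 < R ^ (1 / 32 : ℝ) := by positivity
  have h8 : 0 < R ^ (-(3 + 1 / 32 : ℝ)) := by positivity
  calc kac R r ≤ 1 / vB R := h1
    _ ≤ 1 / (4 * R ^ 3) := one_div_le_one_div_of_le (by positivity) h2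
    _ = 4 * R ^ (1 / 32 : ℝ) * (1 / 16 * R ^ (-(3 + 1 / 32 : ℝ))) := by
        rw [show 4 * R ^ (1 / 32 : ℝ) * (1 / 16 * R ^ (-(3 + 1 / 32 : ℝ))) =
          1 / 4 * (R ^ (1 / 32 : ℝ) * R ^ (-(3 + 1 / 32 : ℝ))) by ring, h6]
        field_simp
    _ ≤ 4 * R ^ (1 / 32 : ℝ) * ((2 : ℝ) ^ (-(3 + 1 / 32 : ℝ)) * R ^ (-(3 + 1 / 32 : ℝ))) := by
        rw [h5] at h4
        gcongr
    _ ≤ _ := by gcongr

end TailAux

open TailAux

theorem Sch.mono {χ : ℝ → ℝ} {A A' : ℝ} (h : Sch χ A) (hA : A ≤ A') : Sch χ A' := by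
  intro N x
  exact (h N x).trans (mul_le_mul_of_nonneg_right hA (Qc_nonneg _ _ _))

theorem sch_sum {a R : ℕ → ℝ} (ha : ∀ k, 0 ≤ a k) (hR : ∀ k, 1 ≤ R k) (k : ℕ) :
    Sch (fun r => ∑ j ∈ Finset.range k, a j * kac (R j) r) (27 * ∑ j ∈ Finset.range k, a j) := by
  intro N x
  have h1 : ∑ i, ∑ i', ∑ j ∈ Finset.range k, a j * kac (R j) (dist (x i) (x i')) =
      ∑ j ∈ Finset.range k, a j * ∑ i, ∑ i', kac (R j) (dist (x i) (x i')) := by
    simp only [Finset.mul_sum]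
    rw [Finset.sum_comm (s := Finset.range k)]
    refine Finset.sum_congr rfl fun i _ => ?_
    rw [Finset.sum_comm]
  rw [h1, Finset.mul_sum, Finset.sum_mul]
  refine Finset.sum_le_sum fun j _ => ?_
  calc _ ≤ a j * (27 * Qc 1 0 x) := mul_le_mul_of_nonneg_left (kac_sch (hR j) N x) (ha j)
    _ = _ := by ring

theorem summable_kac {a R : ℕ → ℝ} (ha : ∀ k, 0 ≤ a k) (hR : ∀ k, 1 ≤ R k) (hs : Summable a)
    (r : ℝ) : Summable fun j => a j * kac (R j) r := by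
  refine Summable.of_nonneg_of_le (fun j => mul_nonneg (ha j) (kac_nonneg _ _)) (fun j => ?_) hs
  exact mul_le_of_le_one_right (ha j) (kac_le_one (hR j) r)

theorem sch_tsum {a R : ℕ → ℝ} (ha : ∀ k, 0 ≤ a k) (hR : ∀ k, 1 ≤ R k) (hs : Summable a) :
    Sch (fun r => ∑' j, a j * kac (R j) r) (27 * ∑' j, a j) := by
  intro N x
  have h1 : Tendsto (fun k => ∑ i, ∑ i', ∑ j ∈ Finset.range k,
      a j * kac (R j) (dist (x i) (x i'))) atTop
      (𝓝 (∑ i, ∑ i', ∑' j, a j * kac (R j) (dist (x i) (x i')))) :=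
    tendsto_finsetSum _ fun i _ => tendsto_finsetSum _ fun i' _ =>
      (summable_kac ha hR hs _).hasSum.tendsto_sum_nat
  refine le_of_tendsto' h1 fun k => ?_
  refine (sch_sum ha hR k).mono ?_ N x
  exact mul_le_mul_of_nonneg_left (hs.sum_le_tsum _ fun j _ => ha j) (by norm_num)

/-- `continuous_tsum` with the bound `kac (R j) r ≤ 1 / vB (R j) ≤ 1` -/
theorem continuous_tsum_kac {a R : ℕ → ℝ} (ha : ∀ k, 0 ≤ a k) (hR : ∀ k, 1 ≤ R k)
    (hs : Summable a) : Continuous fun r => ∑' j, a j * kac (R j) r := by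
  refine continuous_tsum (fun j => continuous_const.mul (kac_continuous (by linarith [hR j]))) hs
    fun j r => ?_
  rw [Real.norm_of_nonneg (mul_nonneg (ha j) (kac_nonneg _ _))]
  exact mul_le_of_le_one_right (ha j) (kac_le_one (hR j) r)

theorem tsum_kac_le {a R : ℕ → ℝ} (ha : ∀ k, 0 ≤ a k) (hR : ∀ k, 1 ≤ R k) (hs : Summable a)
    (r : ℝ) : ∑' j, a j * kac (R j) r ≤ ∑' j, a j := by
  exact (summable_kac ha hR hs r).tsum_le_tsum
    (fun j => mul_le_of_le_one_right (ha j) (kac_le_one (hR j) r)) hs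

/-- `kac R r = 0` for `r ≥ 2 R`, and for `r ≤ 2 R`,
`kac R r ≤ 1 / (4 R ^ 3) ≤ 4 R ^ (1 / 32) r ^ (-(3 + 1 / 32))` -/
theorem tsum_kac_decay {a R : ℕ → ℝ} (ha : ∀ k, 0 ≤ a k) (hR : ∀ k, 1 ≤ R k)
    (hs : Summable fun k => a k * R k ^ (1 / 32 : ℝ)) :
    ∃ C : ℝ, ∀ r, 1 ≤ r → ∑' j, a j * kac (R j) r ≤ C * r ^ (-(3 + 1 / 32 : ℝ)) := by
  have hs' : Summable a := by
    refine Summable.of_nonneg_of_le ha (fun j => ?_) hs
    exact le_mul_of_one_le_right (ha j) (Real.one_le_rpow (hR j) (by norm_num))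
  refine ⟨4 * ∑' k, a k * R k ^ (1 / 32 : ℝ), fun r hr => ?_⟩
  have h1 := (summable_kac ha hR hs' r).tsum_le_tsum
    (g := fun k => (a k * R k ^ (1 / 32 : ℝ)) * (4 * r ^ (-(3 + 1 / 32 : ℝ)))) (fun j => by
      calc _ ≤ a j * (4 * R j ^ (1 / 32 : ℝ) * r ^ (-(3 + 1 / 32 : ℝ))) :=
            mul_le_mul_of_nonneg_left (kac_decay (hR j) hr) (ha j)
        _ = _ := by ring) (hs.mul_right _)
  rw [tsum_mul_right] at h1
  refine h1.trans (le_of_eq ?_)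
  ring

/-- consequences of the decay used in S0210 -/
theorem integrableOn_of_decay {φ : ℝ → ℝ} (hm : Measurable φ) {C : ℝ}
    (h : ∀ r, 1 ≤ r → |φ r| ≤ C * r ^ (-(3 + 1 / 32 : ℝ))) :
    IntegrableOn (fun r : ℝ => r ^ 2 * |φ r|) (Ioi 1) := by
  have h1 : IntegrableOn (fun r : ℝ => C * r ^ (-(1 + 1 / 32 : ℝ))) (Ioi 1) :=
    (integrableOn_Ioi_rpow_of_lt (by norm_num) zero_lt_one).const_mul C
  refine Integrable.mono' h1 ?_ ?_
  · exact ((measurable_id.pow_const 2).mul (continuous_abs.measurable.comp hm)).aestronglyMeasurable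
  · refine (ae_restrict_iff' measurableSet_Ioi).2 (Eventually.of_forall fun r hr => ?_)
    have hr1 : 1 < r := hr
    have hr0 : 0 < r := by linarith
    rw [Real.norm_of_nonneg (by positivity)]
    calc r ^ 2 * |φ r| ≤ r ^ 2 * (C * r ^ (-(3 + 1 / 32 : ℝ))) :=
          mul_le_mul_of_nonneg_left (h r hr1.le) (by positivity)
      _ = C * (r ^ ((2 : ℕ) : ℝ) * r ^ (-(3 + 1 / 32 : ℝ))) := by rw [Real.rpow_natCast]; ring
      _ = _ := by rw [← Real.rpow_add hr0]; norm_num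

theorem tendsto_of_decay {φ : ℝ → ℝ} {C : ℝ}
    (h : ∀ r, 1 ≤ r → |φ r| ≤ C * r ^ (-(3 + 1 / 32 : ℝ))) :
    Tendsto (fun r : ℝ => r ^ 3 * φ r) atTop (𝓝 0) := by
  have h1 : Tendsto (fun r : ℝ => C * r ^ (-(1 / 32 : ℝ))) atTop (𝓝 0) := by
    simpa using (tendsto_rpow_neg_atTop (by norm_num : (0 : ℝ) < 1 / 32)).const_mul C
  refine squeeze_zero_norm' ?_ h1
  filter_upwards [eventually_ge_atTop 1] with r hr
  have hr0 : 0 < r := by linarith
  rw [norm_mul, Real.norm_of_nonneg (by positivity), Real.norm_eq_abs]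
  calc r ^ 3 * |φ r| ≤ r ^ 3 * (C * r ^ (-(3 + 1 / 32 : ℝ))) :=
        mul_le_mul_of_nonneg_left (h r hr) (by positivity)
    _ = C * (r ^ ((3 : ℕ) : ℝ) * r ^ (-(3 + 1 / 32 : ℝ))) := by rw [Real.rpow_natCast]; ring
    _ = _ := by rw [← Real.rpow_add hr0]; norm_num

end Crest.Agent.R149
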