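import Crest.Agent.R149.InitP
import Crest.Agent.R149.LowB
import Crest.Agent.R149.TDex
import Crest.Agent.R149.Tail
import Crest.Agent.R149.AbsClean
import Crest.Agent.R149.AbsIter
import Crest.Agent.R149.Seq

/-!
# Row 149: assembly
-/

set_option autoImplicit false
open MeasureTheory Set Filter Topology Crest.ProbabilityR.Continuum
open scoped ENNReal

namespace Crest.Agent.R149

theorem tsum_le_three {a : ℕ → ℝ} {η : ℝ} (h0 : a 0 ≤ 1) (hη : η ≤ 1)
    (h : ∀ k, 0 < a (k + 1) ∧ a (k + 1) ≤ η / 4 ^ k) (hs : Summable a) : ∑' k, a k ≤ 3 := by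
  rw [hs.tsum_eq_zero_add]
  have hg := hasSum_geometric_of_lt_one (r := (1 / 2 : ℝ)) (by norm_num) (by norm_num)
  have h1 : ∑' k, a (k + 1) ≤ ∑' k, (1 / 2 : ℝ) ^ k := by
    refine Summable.tsum_le_tsum (fun k => (h k).2.trans ?_) ((summable_nat_add_iff 1).2 hs)
      hg.summable
    rw [one_div_pow]
    have : (2 : ℝ) ^ k ≤ 4 ^ k := pow_le_pow_left₀ (by norm_num) (by norm_num) k
    gcongr
  rw [hg.tsum_eq] at h1
  norm_num at h1
  linarith

theorem main (P : (ℝ → ℝ) → Prop)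
    (hP : ∀ C ρ₀ ε τ K : ℝ, 0 < ρ₀ → 2 ≤ C → 0 < ε → 0 < τ → τ ≤ 1 / 4 → C * ε ≤ τ / 8 → 0 ≤ K →
      ∃ φ₀, Core φ₀ C ρ₀ ε τ K ∧ P φ₀) :
    ∃ φ₀ χ : ℝ → ℝ, P φ₀ ∧ Measurable φ₀ ∧ (∀ r, 0 ≤ φ₀ r) ∧ (∀ r, 1 ≤ r → φ₀ r = 0) ∧
      Continuous χ ∧ (∀ r, 0 ≤ χ r) ∧ (∃ M, ∀ r, χ r ≤ M) ∧
      (∃ C, ∀ r, 1 ≤ r → χ r ≤ C * r ^ (-(3 + 1 / 32 : ℝ))) ∧
      (∃ a, 0 < a ∧ ∀ r, 1 ≤ r → r ≤ 3 / 2 → a ≤ χ r) ∧ Good (fun r => φ₀ r - χ r) ∧
      ∃ p g βc, Dens p ∧ TD (fun r => φ₀ r - χ r) g ∧ 7 / 8 ≤ βc ∧ βc ≤ 9 / 8 ∧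
        ∀ ρ, 3 / 2 * p < ρ → ρ < 11 / 6 * p → ∃ Dl Dr : ℝ,
          HasDerivWithinAt (fun β => g β ρ / β) Dl (Iio βc) βc ∧
          HasDerivWithinAt (fun β => g β ρ / β) Dr (Ioi βc) βc ∧ Dr < Dl := by
  obtain ⟨n, C, ρ₀, hc⟩ := exists_clu
  obtain ⟨p, hp⟩ := exists_dens
  have hp0 := hp.pos
  have hn : (2 : ℝ) ≤ n := by exact_mod_cast hc.two
  obtain ⟨α, hα⟩ : ∃ y : ℝ, y = n * packingNumber 2 := ⟨_, rfl⟩
  have hα0 : 0 ≤ α := by rw [hα]; positivity
  obtain ⟨b, hb⟩ : ∃ y : ℝ, y = 2 * α / p := ⟨_, rfl⟩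
  have hb0 : 0 ≤ b := by rw [hb]; positivity
  obtain ⟨ρM, hρM⟩ : ∃ y : ℝ, y = 2 * b + n + 1 := ⟨_, rfl⟩
  have hρ1 : 1 ≤ ρM := by linarith
  obtain ⟨M, hM⟩ : ∃ y : ℝ, y = 2 * ρM + 3 := ⟨_, rfl⟩
  have hM0 : 0 ≤ M := by linarith
  obtain ⟨A, hA⟩ : ∃ y : ℝ, y = 8 * (M + 4) := ⟨_, rfl⟩
  have hA0 : 0 < A := by linarith
  obtain ⟨E, hE⟩ : ∃ y : ℝ, y = 4 * A * ρM * b + 1 := ⟨_, rfl⟩
  have hE0 : 0 ≤ E := by rw [hE]; positivity
  obtain ⟨η, hη0, hη1, hiter⟩ := abs_iter (n := n) (ρM := ρM) (E := E) hn (by linarith) hE0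
  obtain ⟨τ, ε, K, Λ, hτ, hτ', hε, hετ, hΛ, hΛp, hK, hinit⟩ :=
    exists_params hc hp (M := M) (A := 4 * A * α / p) hM0 hη0 (by positivity)
  have hΛ0 : 0 < Λ := by linarith
  have hK0 : 0 ≤ K := le_trans (by positivity) hK
  obtain ⟨φ₀, hcore, hPφ⟩ := hP C ρ₀ ε τ K hc.pos hc.hC hε hτ hτ' hετ hK0
  obtain ⟨Ap, hAp⟩ : ∃ y : ℝ, y = 2 * A * Λ / p := ⟨_, rfl⟩
  have hAp0 : 0 < Ap := by rw [hAp]; positivity
  obtain ⟨B, hB⟩ : ∃ y : ℝ, y = 2 * Ap * α := ⟨_, rfl⟩
  have hB0 : 0 ≤ B := by rw [hB]; positivity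
  have hss : SS φ₀ Ap B := by
    rw [hB, hα]
    refine hcore.ss hc hε hτ hτ' hετ hAp0.le (le_trans (le_of_eq ?_) hK)
    rw [hAp, ← hα]; ring
  obtain ⟨C₁, hC₁⟩ : ∃ y : ℝ, y = 10 * (M * ρM + ρM ^ 2 + E + 1) := ⟨_, rfl⟩
  have hC₁0 : 10 ≤ C₁ := by
    have : 0 ≤ M * ρM + ρM ^ 2 + E := by positivity
    linarith
  obtain ⟨a, R, R', u, l, ha0, ha, hanti, hR, hl, hR', hRR', hu, hθ, hlu, hcu, hRu, hsum⟩ :=
    exists_seq (a₀ := 2 / n) (η := η) (c := C₁ * (B + 1) + 1 / p) (by positivity) hη0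
      (by positivity)
  have ha01 : a 0 ≤ 1 := by rw [ha0, div_le_one (by linarith)]; exact hn
  have hapos : ∀ k, 0 < a k := fun k => by
    cases k with
    | zero => rw [ha0]; positivity
    | succ k => exact (ha k).1
  have ha1 : ∀ k, a k ≤ 1 := fun k => by
    cases k with
    | zero => exact ha01
    | succ k =>
      refine (ha k).2.trans ?_
      rw [div_le_one (by positivity)]
      exact hη1.trans (one_le_pow₀ (by norm_num))
  have hsa : Summable a := by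
    refine Summable.of_nonneg_of_le (fun k => (hapos k).le) (fun k => ?_) hsum
    exact le_mul_of_one_le_right (hapos k).le (Real.one_le_rpow (hR k) (by norm_num))
  have h3 : ∑' k, a k ≤ 3 := tsum_le_three ha01 hη1 ha hsa
  set a' : ℕ → ℝ := fun k => a k * Λ / p with ha'
  have ha'0 : ∀ k, 0 ≤ a' k := fun k => by have := hapos k; positivity
  have hsa' : Summable a' := (hsa.mul_right Λ).div_const p
  have hta' : 27 * ∑' k, a' k ≤ Ap := by
    simp only [ha']
    rw [tsum_div_const, tsum_mul_right, hAp, ← mul_div_assoc]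
    refine div_le_div_of_nonneg_right ?_ hp0.le
    rw [← mul_assoc]
    exact mul_le_mul_of_nonneg_right (by linarith) hΛ0.le
  set χ : ℕ → ℝ → ℝ := fun k r => ∑ j ∈ Finset.range k, a' j * kac (R j) r with hχ
  set χi : ℝ → ℝ := fun r => ∑' j, a' j * kac (R j) r with hχi
  have hfar : ∀ r, 1 ≤ r → φ₀ r = 0 := fun r hr => hcore.far r (by linarith)
  have hkc : ∀ j, Continuous (kac (R j)) := fun j => kac_continuous (by linarith [hR j])
  have hχc : ∀ k, Continuous (χ k) := fun k =>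
    continuous_finsetSum _ fun j _ => continuous_const.mul (hkc j)
  have hχic : Continuous χi := continuous_tsum_kac ha'0 hR hsa'
  have hterm : ∀ j r, 0 ≤ a' j * kac (R j) r := fun j r => mul_nonneg (ha'0 j) (kac_nonneg _ _)
  have hpair : ∀ k, Pair φ₀ (χ k) Ap B := fun k =>
    ⟨hcore.meas, (hχc k).measurable, hcore.nonneg, hfar,
      fun r => Finset.sum_nonneg fun j _ => hterm j r, hss,
      (sch_sum ha'0 hR k).mono (le_trans (by
        have := hsa'.sum_le_tsum (Finset.range k) fun j _ => ha'0 j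
        linarith) hta'), hAp0, hB0⟩
  have hpairi : Pair φ₀ χi Ap B :=
    ⟨hcore.meas, hχic.measurable, hcore.nonneg, hfar, fun r => tsum_nonneg fun j => hterm j r, hss,
      (sch_tsum ha'0 hR hsa').mono hta', hAp0, hB0⟩
  choose G hG using fun k => exists_TD (hpair k).good
  obtain ⟨Gi, hGi⟩ := exists_TD hpairi.good
  have hco : ∀ k, Coarse (nrm (G k) p Λ) A b := fun k => by
    refine Coarse.nrm ?_ hp0 hΛ0 hΛp
    have := (hpair k).coarse (hG k)
    convert this using 1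
    · rw [hAp]; ring
    · rw [hB, hb]; field_simp
  have hlb : ∀ k, Lb (nrm (G k) p Λ) E ρM := fun k => hE ▸ (hco k).lb hA0.le hb0 (by linarith)
  have hfe : ∀ k, FE (nrm (G k) p Λ) := fun k => (hG k).fe.nrm hp0 hΛ0
  have hstep : ∀ k r, φ₀ r - χ (k + 1) r = φ₀ r - χ k r - a' k * kac (R k) r := fun k r => by
    simp only [hχ, Finset.sum_range_succ]; ring
  have hu1 : ∀ k, C₁ * ((B + 1) * u k) ≤ a (k + 1) ^ 2 := fun k => by
    have h1 := (hu k).2
    have h2 : 0 ≤ 1 / p * u k := by have := (hu k).1; positivity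
    linarith
  have hu2 : ∀ k, (B + 1) * u k ≤ 1 / 2 := fun k => by
    have h1 := hu1 k
    have h2 : a (k + 1) ^ 2 ≤ 1 := pow_le_one₀ (hapos _).le (ha1 _)
    have h3 : 0 ≤ (B + 1) * u k := by have := (hu k).1; positivity
    have := mul_le_mul_of_nonneg_right hC₁0 h3
    linarith
  have hu3 : ∀ k, u k ≤ (B + 1) * u k := fun k =>
    le_mul_of_one_le_left (hu k).1.le (by linarith)
  rw [← hM] at hiter
  have hlim : Lim (nrm Gi p Λ) n := by
    refine hiter (fun k => nrm (G k) p Λ) _ a (fun k => a' k / vB (R k) / Λ)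
      (fun k => a (k + 1) ^ 2) hfe ?_ ha0 ha hanti (fun k => ⟨?_, ?_⟩)
      (fun k => ⟨by have := hapos (k + 1); positivity, le_rfl⟩) (fun k => ?_) (fun k => ?_) hlb
      (fun k β hβ r hr => ?_) (fun γ hγ => ?_)
    · refine hinit φ₀ (G 0) hcore ?_
      have := hG 0
      simpa [hχ] using this
    · have := vB_pos (show 0 < R k by linarith [hR k])
      have := ha'0 k
      positivity
    · have hRk := hR k
      have h1 : R k ≤ vB (R k) := by
        have := vB_ge (show 0 ≤ R k by linarith)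
        linarith [le_self_pow₀ hRk (show 3 ≠ 0 by norm_num)]
      have h2 : a' k / vB (R k) / Λ = a k * (1 / p * (1 / vB (R k))) := by
        have := vB_pos (show 0 < R k by linarith [hR k])
        simp only [ha']; field_simp
      have h3 : 1 / vB (R k) ≤ u k := le_trans (by gcongr) (hRu k)
      have h4 : 0 ≤ 1 / vB (R k) := by
        have := vB_pos (show 0 < R k by linarith [hR k])
        positivity
      have h5 : 1 / p * (1 / vB (R k)) ≤ 1 / p * u k := by gcongr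
      have h6 : 0 ≤ C₁ * (B + 1) * u k := by have := (hu k).1; positivity
      rw [h2]
      have h7 := mul_le_of_le_one_left (show 0 ≤ 1 / p * (1 / vB (R k)) by positivity) (ha1 k)
      linarith [(hu k).2]
    · exact Up.nrm (up_step (hpair k).good.toStab (hpair (k + 1)).good.toStab (ha'0 k)
        (by linarith [hR k]) (hstep k) (hG k) (hG (k + 1))) hp0 hΛ0
    · have hraw := low_step (hpair k) (hpair (k + 1)).good.toStab (hR' k) (fun r hr =>
        Finset.sum_eq_zero fun j hj => by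
          rw [kac_eq_zero (le_trans (hRR' j k (Finset.mem_range.1 hj)) hr.le), mul_zero])
        (ha'0 k) (by linarith [hR k]) (hstep k) (hl k) (θ := u k) (ζ := (B + 1) * u k) (hθ k)
        (by linarith [hu2 k, hu3 k]) (by linarith [hlu k]) (by linarith [hcu k, hu3 k]) (hG k)
        (hG (k + 1))
      have hζ0 : 0 ≤ (B + 1) * u k := by have := (hu k).1; positivity
      exact ((RawLow.nrm hraw hζ0 hp0 hΛ hΛp).low (hfe k) (hco k) (hlb k) hE0 (hapos k).le (ha1 k)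
        (hu k).1.le (hu3 k) (hu2 k) (by linarith) hρ1 hM0 hA.ge).mono (hC₁ ▸ hu1 k)
    · have := TD.mono (hpair k).good.toStab hpairi.good.toStab (hG k) hGi (fun r => by
        have := (summable_kac ha'0 hR hsa' r).sum_le_tsum (Finset.range k) fun j _ => hterm j r
        simp only [hχ, hχi]; linarith) hβ (show 0 ≤ p * r by positivity)
      simp only [nrm]
      gcongr
    · have ht := tendsto_sum_nat_add a'
      set θ : ℕ → ℝ := fun k => 27 * (∑' j, a' (j + k)) / Ap with hθd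
      have hθ0 : ∀ k, 0 ≤ θ k := fun k => by
        have : 0 ≤ ∑' j, a' (j + k) := tsum_nonneg fun j => ha'0 _
        positivity
      have ht2 : Tendsto (fun k => C₁ * ((B + 1) * θ k)) atTop (𝓝 0) := by
        have := (((ht.const_mul 27).div_const Ap).const_mul (B + 1)).const_mul C₁
        simpa using this
      filter_upwards [ht2.eventually (ge_mem_nhds (show 0 < min γ 1 by positivity))] with k hk
      have hζ0 : 0 ≤ (B + 1) * θ k := by have := hθ0 k; positivity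
      have hk1 := hk.trans (min_le_left _ _)
      have hk2 := hk.trans (min_le_right _ _)
      have hζ : (B + 1) * θ k ≤ 1 / 2 := by linarith [mul_le_mul_of_nonneg_right hC₁0 hζ0]
      have hθζ : θ k ≤ (B + 1) * θ k := le_mul_of_one_le_left (hθ0 k) (by linarith)
      have hsk : Summable fun j => a' (j + k) := (summable_nat_add_iff k).2 hsa'
      have hraw := low_tail (hpair k) hpairi.good.toStab
        (χ' := fun r => ∑' j, a' (j + k) * kac (R (j + k)) r) (θ := θ k) (ζ := (B + 1) * θ k)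
        (fun r => tsum_nonneg fun j => hterm _ r)
        ((sch_tsum (fun j => ha'0 (j + k)) (fun j => hR (j + k)) hsk).mono
          (le_of_eq (by simp only [hθd]; field_simp))) (hθ0 k) (by linarith)
        (by linarith [hθ0 k]) (fun r => by
          have := (summable_kac ha'0 hR hsa' r).sum_add_tsum_nat_add k
          simp only [hχ, hχi]; linarith) (hG k) hGi
      have hraw' : RawLow (G k) Gi (0 * Λ / p) (θ k) ((B + 1) * θ k) := by simpa using hraw
      exact ((RawLow.nrm hraw' hζ0 hp0 hΛ hΛp).low (hfe k) (hco k) (hlb k) hE0 le_rfl zero_le_one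
        (hθ0 k) hθζ hζ (by linarith) hρ1 hM0 hA.ge).mono (hC₁ ▸ hk1)
  obtain ⟨βc, hβ1, hβ2, hkink⟩ := abs_final hn (hGi.fe.nrm hp0 hΛ0) hlim
  refine ⟨φ₀, χi, hPφ, hcore.meas, hcore.nonneg, hfar, hχic, hpairi.nonneg,
    ⟨_, tsum_kac_le ha'0 hR hsa'⟩, tsum_kac_decay ha'0 hR ?_, ?_, hpairi.good, p, Gi, βc, hp, hGi,
    hβ1, hβ2, fun ρ h1 h2 => ?_⟩
  · refine ((hsum.mul_right Λ).div_const p).congr fun k => ?_
    simp only [ha']; ring
  · have h0 := vB_pos (show 0 < R 0 by linarith [hR 0])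
    have h1 := vB_pos (show (0 : ℝ) < 1 / 4 by norm_num)
    have h2 : 0 < a' 0 := by have := hapos 0; positivity
    refine ⟨a' 0 * (vB (1 / 4) / vB (R 0) ^ 2), by positivity, fun r hr1 hr2 => ?_⟩
    refine le_trans ?_ ((summable_kac ha'0 hR hsa' r).le_tsum 0 fun j _ => hterm j r)
    exact mul_le_mul_of_nonneg_left (kac_ge (hR 0) (by linarith) hr2) h2.le
  · obtain ⟨e₁, e₂, he, k1, k2⟩ := hkink (ρ / p) (by rw [lt_div_iff₀ hp0]; exact h1)
      (by rw [div_lt_iff₀ hp0]; exact h2)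
    have hΛp0 : 0 < Λ * p := by positivity
    simp only [nrm, mul_div_cancel₀ ρ hp0.ne'] at k1 k2
    refine kink_deriv (G := fun β => Gi β ρ) (hGi.fe.conc ρ (by linarith)) (by linarith)
      (e₁ := Λ * p * e₁) (e₂ := Λ * p * e₂) (mul_lt_mul_of_pos_left he hΛp0) (fun t ht => ?_)
      (fun t ht ht' => ?_)
    · have := k1 t ht
      rw [div_le_iff₀ hΛp0, add_mul, div_mul_cancel₀ _ hΛp0.ne'] at this
      linarith
    · have := k2 t ht ht'
      rw [div_le_iff₀ hΛp0, sub_mul, div_mul_cancel₀ _ hΛp0.ne'] at this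
      linarith

end Crest.Agent.R149
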