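import Crest.Agent.R149.Link

/-!
# Row 149: packing numbers
-/

set_option autoImplicit false
open MeasureTheory Set Filter Topology Crest.ProbabilityR.Continuum
open scoped ENNReal

namespace Crest.Agent.R149

namespace PackAux

theorem card_le_grid {L : ℝ} (X : Finset Pt) (h : ∀ x ∈ X, x ∈ cube L)
    (hs : ∀ x ∈ X, ∀ y ∈ X, x ≠ y → 1 ≤ dist x y) : X.card ≤ (⌊2 * L⌋₊ + 1) ^ 3 := by
  classical
  have key := Finset.card_le_card_of_injOn (s := X)
    (t := Fintype.piFinset fun _ : Fin 3 => Finset.range (⌊2 * L⌋₊ + 1))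
    (fun x k => ⌊2 * x k⌋₊) (fun x hx => by
      simp only [Finset.mem_coe, Fintype.mem_piFinset, Finset.mem_range]
      intro k
      exact Nat.lt_succ_of_le (Nat.floor_le_floor (by linarith [(h x hx k).2])))
    (fun x hx y hy hxy => by
      by_contra hne
      have h1 := hs x hx y hy hne
      have hk : ∀ k, (x k - y k) ^ 2 ≤ 1 / 4 := by
        intro k
        have e : ⌊2 * x k⌋₊ = ⌊2 * y k⌋₊ := congrFun hxy k
        have a1 := Nat.floor_le (show 0 ≤ 2 * x k by linarith [(h x hx k).1])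
        have a2 := Nat.lt_floor_add_one (2 * x k)
        have a3 := Nat.floor_le (show 0 ≤ 2 * y k by linarith [(h y hy k).1])
        have a4 := Nat.lt_floor_add_one (2 * y k)
        rw [e] at a1 a2
        nlinarith
      have h2 : dist x y ^ 2 ≤ 3 / 4 := by
        rw [EuclideanSpace.dist_eq, Real.sq_sqrt (Finset.sum_nonneg fun k _ => sq_nonneg _),
          Fin.sum_univ_three]
        simp only [Real.dist_eq, sq_abs]
        linarith [hk 0, hk 1, hk 2]
      nlinarith)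
  simpa using key

theorem bddAbove (L : ℝ) : BddAbove (packingSet L) :=
  ⟨(⌊2 * L⌋₊ + 1) ^ 3, by rintro n ⟨X, rfl, h, hs⟩; exact card_le_grid X h hs⟩

theorem nonempty (L : ℝ) : (packingSet L).Nonempty := ⟨0, ∅, rfl, by simp, by simp⟩

end PackAux

/-- (`packingSet L` is bounded above, for instance by a grid of mesh `1 / 2`: two points in the
same half-open grid cube are at distance `< 1`; or by the volume of disjoint balls) -/
theorem card_le_packingNumber {L : ℝ} (X : Finset Pt) (h : ∀ x ∈ X, x ∈ cube L)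
    (hs : ∀ x ∈ X, ∀ y ∈ X, x ≠ y → 1 ≤ dist x y) : X.card ≤ packingNumber L :=
  le_csSup (PackAux.bddAbove L) ⟨X, rfl, h, hs⟩

theorem exists_packing (L : ℝ) : ∃ X : Finset Pt, X.card = packingNumber L ∧
    (∀ x ∈ X, x ∈ cube L) ∧ ∀ x ∈ X, ∀ y ∈ X, x ≠ y → 1 ≤ dist x y :=
  Nat.sSup_mem (PackAux.nonempty L) (PackAux.bddAbove L)

theorem packingNumber_mono : Monotone packingNumber := by
  intro L L' hL
  obtain ⟨X, hX, h, hs⟩ := exists_packing L
  rw [← hX]
  exact card_le_packingNumber X (fun x hx k => ⟨(h x hx k).1, (h x hx k).2.trans hL⟩) hs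

/-- translated and rescaled version for indexed points (`i ↦ σ⁻¹ • (x i + v)` is injective on
`T`) -/
theorem card_le_of_sep {ι : Type*} (T : Finset ι) (x : ι → Pt) (v : Pt) {L σ : ℝ} (hσ : 0 < σ)
    (h : ∀ i ∈ T, x i + v ∈ cube L)
    (hs : ∀ i ∈ T, ∀ j ∈ T, i ≠ j → σ ≤ dist (x i) (x j)) : T.card ≤ packingNumber (L / σ) := by
  classical
  have hd : ∀ i j, dist (σ⁻¹ • (x i + v)) (σ⁻¹ • (x j + v)) = σ⁻¹ * dist (x i) (x j) := by
    intro i j
    rw [dist_smul₀, dist_add_right, Real.norm_of_nonneg (inv_nonneg.2 hσ.le)]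
  have hsep : ∀ i ∈ T, ∀ j ∈ T, i ≠ j → 1 ≤ dist (σ⁻¹ • (x i + v)) (σ⁻¹ • (x j + v)) := by
    intro i hi j hj hij
    rw [hd, ← div_eq_inv_mul, le_div_iff₀ hσ, one_mul]
    exact hs i hi j hj hij
  have hinj : Set.InjOn (fun i => σ⁻¹ • (x i + v)) T := by
    intro i hi j hj hij
    by_contra hne
    have := hsep i hi j hj hne
    simp only at hij
    rw [hij, dist_self] at this
    linarith
  rw [← Finset.card_image_of_injOn hinj]
  refine card_le_packingNumber _ ?_ ?_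
  · intro y hy k
    obtain ⟨i, hi, rfl⟩ := Finset.mem_image.1 hy
    have := h i hi k
    simp only [PiLp.smul_apply, smul_eq_mul]
    refine ⟨mul_nonneg (inv_nonneg.2 hσ.le) this.1, ?_⟩
    rw [div_eq_inv_mul]
    exact mul_le_mul_of_nonneg_left this.2 (inv_nonneg.2 hσ.le)
  · intro y hy z hz hyz
    obtain ⟨i, hi, rfl⟩ := Finset.mem_image.1 hy
    obtain ⟨j, hj, rfl⟩ := Finset.mem_image.1 hz
    exact hsep i hi j hj fun e => hyz (by rw [e])

namespace PackAux

theorem upper {L : ℝ} (hL : 0 ≤ L) : (packingNumber L : ℝ) / (L + 1) ^ 3 ≤ 8 := by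
  obtain ⟨X, hX, h, hs⟩ := exists_packing L
  have h1 : (packingNumber L : ℝ) ≤ ((⌊2 * L⌋₊ : ℝ) + 1) ^ 3 := by
    rw [← hX]; exact_mod_cast card_le_grid X h hs
  have h2 : (⌊2 * L⌋₊ : ℝ) ≤ 2 * L := Nat.floor_le (by linarith)
  rw [div_le_iff₀ (by positivity)]
  calc (packingNumber L : ℝ) ≤ ((⌊2 * L⌋₊ : ℝ) + 1) ^ 3 := h1
    _ ≤ (2 * (L + 1)) ^ 3 := pow_le_pow_left₀ (by positivity) (by linarith) 3
    _ = 8 * (L + 1) ^ 3 := by ring

theorem one_le_zero : 1 ≤ packingNumber 0 := by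
  have := card_le_packingNumber (L := 0) {0} (by simp [cube]) (by simp)
  simpa using this

theorem lower {L₀ L : ℝ} (h₀ : 0 ≤ L₀) (m : ℕ) (hm : m * (L₀ + 1) ≤ L) :
    m ^ 3 * packingNumber L₀ ≤ packingNumber L := by
  classical
  obtain ⟨X, hX, h, hs⟩ := exists_packing L₀
  let w : (Fin 3 → Fin m) → Pt := fun q => WithLp.toLp 2 fun k => (L₀ + 1) * ((q k : ℕ) : ℝ)
  have key := card_le_of_sep (Finset.univ ×ˢ X) (fun p : (Fin 3 → Fin m) × Pt => p.2 + w p.1) 0
    (L := L) one_pos ?_ ?_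
  · rw [Finset.card_product, hX, div_one] at key
    simpa using key
  · rintro ⟨q, x⟩ hp k
    have hx := h x (Finset.mem_product.1 hp).2 k
    have hq : ((q k : ℕ) : ℝ) + 1 ≤ m := by exact_mod_cast (q k).2
    have hq0 : (0 : ℝ) ≤ ((q k : ℕ) : ℝ) := Nat.cast_nonneg _
    simp only [add_zero, PiLp.add_apply, w]
    constructor
    · nlinarith [hx.1]
    · nlinarith [hx.2]
  · rintro ⟨q, x⟩ hp ⟨q', x'⟩ hp' hne
    have hx := (Finset.mem_product.1 hp).2
    have hx' := (Finset.mem_product.1 hp').2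
    by_cases hq : q = q'
    · subst hq
      simp only [dist_add_right]
      exact hs x hx x' hx' fun e => hne (by rw [e])
    · obtain ⟨k, hk⟩ := Function.ne_iff.1 hq
      refine le_trans ?_ (PiLp.dist_apply_le (x + w q) (x' + w q') k)
      simp only [PiLp.add_apply, w, Real.dist_eq]
      have a1 := h x hx k
      have a2 := h x' hx' k
      rcases lt_or_gt_of_ne hk with hlt | hlt
      · have : ((q k : ℕ) : ℝ) + 1 ≤ ((q' k : ℕ) : ℝ) := by exact_mod_cast hlt
        rw [le_abs]; right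
        nlinarith [a1.2, a2.1]
      · have : ((q' k : ℕ) : ℝ) + 1 ≤ ((q k : ℕ) : ℝ) := by exact_mod_cast hlt
        rw [le_abs]; left
        nlinarith [a1.1, a2.2]

theorem tendsto_ratio (c : ℝ) : Tendsto (fun L : ℝ => ((L + c) / L) ^ 3) atTop (𝓝 1) := by
  have h1 : Tendsto (fun L : ℝ => 1 + c / L) atTop (𝓝 (1 + 0)) :=
    tendsto_const_nhds.add (tendsto_const_nhds.div_atTop tendsto_id)
  have h2 : Tendsto (fun L : ℝ => (L + c) / L) atTop (𝓝 1) := by
    rw [add_zero] at h1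
    refine h1.congr' ?_
    filter_upwards [eventually_gt_atTop 0] with L hL
    field_simp
  simpa using h2.pow 3

end PackAux

/-- Let `p = sSup` of `packingNumber L / (L + 1) ^ 3` over `L ≥ 0` (bounded above, and
`≥ packingNumber 0 ≥ 1`).  Upper bound: `packingNumber L ≤ p (L + 1) ^ 3`.  Lower bound: `m ^ 3`
translates of an optimal packing of `cube L₀` by the vectors `(L₀ + 1) • q`, `q : Fin 3 → Fin m`,
`m = ⌊L / (L₀ + 1)⌋₊`, give `packingNumber L ≥ m ^ 3 * packingNumber L₀`. -/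
theorem exists_dens : ∃ p, Dens p := by
  let S : Set ℝ := (fun L : ℝ => (packingNumber L : ℝ) / (L + 1) ^ 3) '' Ici 0
  have hS : BddAbove S := ⟨8, by rintro _ ⟨L, hL, rfl⟩; exact PackAux.upper hL⟩
  have hne : S.Nonempty := ⟨_, 0, mem_Ici.2 le_rfl, rfl⟩
  have hup : ∀ L : ℝ, 0 ≤ L → (packingNumber L : ℝ) / (L + 1) ^ 3 ≤ sSup S :=
    fun L hL => le_csSup hS ⟨L, hL, rfl⟩
  have hpos : 0 < sSup S := by
    have h1 : (1 : ℝ) ≤ packingNumber 0 := by exact_mod_cast PackAux.one_le_zero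
    have := hup 0 le_rfl
    norm_num at this
    linarith
  refine ⟨sSup S, hpos, tendsto_order.2 ⟨fun a ha => ?_, fun b hb => ?_⟩⟩
  · obtain ⟨_, ⟨L₀, hL₀, rfl⟩, hlt⟩ := exists_lt_of_lt_csSup hne ha
    have hL₀ : (0 : ℝ) ≤ L₀ := hL₀
    have h1 : Tendsto (fun L : ℝ => (packingNumber L₀ : ℝ) / (L₀ + 1) ^ 3 *
        ((L + -(L₀ + 1)) / L) ^ 3) atTop (𝓝 ((packingNumber L₀ : ℝ) / (L₀ + 1) ^ 3 * 1)) :=
      tendsto_const_nhds.mul (PackAux.tendsto_ratio _)
    rw [mul_one] at h1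
    filter_upwards [h1.eventually (lt_mem_nhds hlt), eventually_ge_atTop (L₀ + 1)] with L hL hL'
    refine hL.trans_le ?_
    have hp : 0 < L₀ + 1 := by linarith
    have hLp : 0 < L := by linarith
    have hm : (⌊L / (L₀ + 1)⌋₊ : ℝ) * (L₀ + 1) ≤ L := by
      rw [← le_div_iff₀ hp]; exact Nat.floor_le (by positivity)
    have h2 : ((⌊L / (L₀ + 1)⌋₊ : ℝ)) ^ 3 * packingNumber L₀ ≤ packingNumber L := by
      exact_mod_cast PackAux.lower hL₀ _ hm
    have h3 : (L + -(L₀ + 1)) / (L₀ + 1) ≤ (⌊L / (L₀ + 1)⌋₊ : ℝ) := by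
      have := Nat.lt_floor_add_one (L / (L₀ + 1))
      rw [add_div, neg_div, div_self hp.ne']
      linarith
    have h4 : ((L + -(L₀ + 1)) / (L₀ + 1)) ^ 3 ≤ (⌊L / (L₀ + 1)⌋₊ : ℝ) ^ 3 :=
      pow_le_pow_left₀ (div_nonneg (by linarith) hp.le) h3 3
    calc (packingNumber L₀ : ℝ) / (L₀ + 1) ^ 3 * ((L + -(L₀ + 1)) / L) ^ 3
        = ((L + -(L₀ + 1)) / (L₀ + 1)) ^ 3 * packingNumber L₀ / L ^ 3 := by
          field_simp
      _ ≤ (packingNumber L : ℝ) / L ^ 3 := by
          refine div_le_div_of_nonneg_right ?_ (by positivity)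
          exact (mul_le_mul_of_nonneg_right h4 (Nat.cast_nonneg _)).trans h2
  · have h1 : Tendsto (fun L : ℝ => sSup S * ((L + 1) / L) ^ 3) atTop (𝓝 (sSup S * 1)) :=
      tendsto_const_nhds.mul (PackAux.tendsto_ratio _)
    rw [mul_one] at h1
    filter_upwards [h1.eventually (gt_mem_nhds hb), eventually_gt_atTop 0] with L hL hLp
    refine lt_of_le_of_lt ?_ hL
    calc (packingNumber L : ℝ) / L ^ 3
        = (packingNumber L : ℝ) / (L + 1) ^ 3 * ((L + 1) / L) ^ 3 := by field_simp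
      _ ≤ sSup S * ((L + 1) / L) ^ 3 :=
          mul_le_mul_of_nonneg_right (hup L hLp.le) (by positivity)

theorem Dens.tendsto_div {p : ℝ} (hp : Dens p) {σ : ℝ} (hσ : 0 < σ) :
    Tendsto (fun L : ℝ => (packingNumber (L / σ) : ℝ) / L ^ 3) atTop (𝓝 (p / σ ^ 3)) := by
  have h1 := (hp.lim.comp (tendsto_id.atTop_div_const hσ)).div_const (σ ^ 3)
  refine h1.congr' ?_
  filter_upwards [eventually_gt_atTop 0] with L hL
  simp only [Function.comp, id]
  field_simp

end Crest.Agent.R149
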