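import Crest.Agent.R149.Pack
import Crest.Agent.R149.KacA
import Crest.Agent.R149.Split

/-!
# Row 149: the crystal states of the core
-/

set_option autoImplicit false
open MeasureTheory Set Filter Topology Crest.ProbabilityR.Continuum
open scoped ENNReal

namespace Crest.Agent.R149

namespace StatesAux

theorem tendsto_q {p : ℝ} (hp : Dens p) :
    Tendsto (fun s : ℝ => (packingNumber (s - 2) : ℝ) / s ^ 3) atTop (𝓝 p) := by
  have h1 : Tendsto (fun s : ℝ => s - 2) atTop atTop := tendsto_atTop_add_const_right _ (-2) tendsto_id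
  have h2 := hp.lim.comp h1
  have h3 : Tendsto (fun s : ℝ => (1 - 2 * s⁻¹) ^ 3) atTop (𝓝 ((1 - 2 * 0) ^ 3)) :=
    ((tendsto_inv_atTop_zero.const_mul 2).const_sub 1).pow 3
  have h4 := h2.mul h3
  simp only [mul_zero, sub_zero, one_pow, mul_one] at h4
  refine h4.congr' ?_
  filter_upwards [eventually_gt_atTop (2 : ℝ)] with s hs
  have hs0 : s ≠ 0 := by linarith
  have hs2 : s - 2 ≠ 0 := by linarith
  simp only [Function.comp]
  field_simp

/-- the vector `(1/2, 1/2, 1/2)` -/
noncomputable def half : Pt := WithLp.toLp 2 (fun _ => (1 / 2 : ℝ))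

theorem half_apply (k : Fin 3) : half k = 1 / 2 := rfl

theorem ball_subset {L r : ℝ} (hr : r ≤ 1 / 2) {x : Pt} (hx : x ∈ cube (L - 2)) :
    Metric.ball (x + half) r ⊆ cube (L - 1) := by
  intro y hy k
  have h1 : dist (y k) ((x + half) k) ≤ dist y (x + half) := PiLp.dist_apply_le y (x + half) k
  have h2 : dist y (x + half) < r := hy
  have h3 : (x + half) k = x k + 1 / 2 := by simp [half_apply]
  rw [h3, Real.dist_eq] at h1
  have h4 := abs_le.1 (h1.trans h2.le)
  obtain ⟨h5, h6⟩ := hx k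
  constructor <;> linarith [h4.1, h4.2]

theorem F_le {φ₀ : ℝ → ℝ} {C ρ₀ ε τ K : ℝ} (h : Core φ₀ C ρ₀ ε τ K) (hτ : 0 < τ)
    (hτ' : τ ≤ 1 / 4) (m : ℕ) {b β L : ℝ} (hβ : 0 < β) (hL : 2 ≤ L)
    (hb : eE (-b) ≤ W (rad φ₀ β) (Metric.ball 0 (τ / 4)) m) :
    F φ₀ β (L - 1) (m * packingNumber (L - 2)) ≤ packingNumber (L - 2) * b := by
  obtain ⟨X, hc, hX, hs⟩ := exists_packing (L - 2)
  have hd : ∀ k ∈ X, ∀ k' ∈ X, k ≠ k' → ∀ x ∈ Metric.ball (k + half) (τ / 4),
      ∀ y ∈ Metric.ball (k' + half) (τ / 4), 1 - τ / 2 ≤ dist x y := by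
    intro k hk k' hk' hne x hx y hy
    have h1 := hs k hk k' hk' hne
    have h2 : dist (k + half) (k' + half) = dist k k' := dist_add_right _ _ _
    have h3 := dist_triangle4 (k + half) x y (k' + half)
    have h4 : dist x (k + half) < τ / 4 := hx
    have h5 : dist y (k' + half) < τ / 4 := hy
    rw [dist_comm (k + half) x] at h3
    linarith
  have h1 := prod_W_le (measurable_rad h.meas β) X (fun k => Metric.ball (k + half) (τ / 4))
    (fun _ => m) (fun _ => Metric.isOpen_ball.measurableSet)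
    (by
      intro k hk k' hk' hne
      rw [Set.disjoint_left]
      intro x hx hx'
      have := hd k hk k' hk' hne x hx x hx'
      rw [dist_self] at this
      linarith)
    (by
      intro k hk k' hk' hne x hx y hy
      have := hd k hk k' hk' hne x hx y hy
      simp only [rad]
      rw [h.far _ (by linarith)]
      simp)
  have h2 : ∏ k ∈ X, eE (-b) ≤ ∏ k ∈ X, W (rad φ₀ β) (Metric.ball (k + half) (τ / 4)) m := by
    refine Finset.prod_le_prod' fun k _ => hb.trans ?_
    refine W_le_of_translate φ₀ β (k + half) (fun x hx => ?_) m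
    rw [Metric.mem_ball, dist_eq_norm, add_sub_cancel_right]
    simpa using hx
  have h3 : (⋃ k ∈ X, Metric.ball (k + half) (τ / 4)) ⊆ cube (L - 1) :=
    iUnion₂_subset fun k hk => ball_subset (by linarith) (hX k hk)
  have h4 := (h2.trans h1).trans (W_mono_set _ h3 _)
  rw [W_cube (h.good hτ.le).toStab hβ (by linarith), Finset.prod_const, eE_pow, eE_le_iff,
    Finset.sum_const, smul_eq_mul, hc, mul_comm (packingNumber (L - 2)) m] at h4
  linarith

end StatesAux

/-- For a natural `s` let `X` be an optimal packing of `cube (s - 2)` (`exists_packing`),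
`P = X.card`.  The balls `B(x + (1/2, 1/2, 1/2), τ / 4)`, `x ∈ X`, lie in `cube (s - 1)`, are
disjoint, and points of different balls are at distance `≥ 1 - τ / 2`, where `φ₀ = 0`.  By
`prod_W_le`, `W_le_of_translate`, `W_cube`: `F φ₀ β (s - 1) (m P) ≤ P b`, and `TD.pt` gives the
claim with `q = P / s ^ 3 → p`. -/
theorem Core.state {φ₀ : ℝ → ℝ} {C ρ₀ ε τ K : ℝ} (h : Core φ₀ C ρ₀ ε τ K) (hτ : 0 < τ)
    (hτ' : τ ≤ 1 / 4) {p : ℝ} (hp : Dens p) {g : ℝ → ℝ → ℝ} (hg : TD φ₀ g) (m : ℕ) {b : ℝ}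
    (hb : ∀ β, 0 < β → eE (-b) ≤ W (rad φ₀ β) (Metric.ball 0 (τ / 4)) m) {γ : ℝ} (hγ : 0 < γ) :
    ∃ q, 0 ≤ q ∧ |q - p| ≤ γ ∧ ∀ β, 0 < β → g β (m * q) ≤ q * b := by
  have h1 := (StatesAux.tendsto_q hp).comp tendsto_natCast_atTop_atTop (α := ℕ)
  have h2 := (Metric.tendsto_nhds.1 h1 γ hγ).and (eventually_ge_atTop 2)
  obtain ⟨s, hs, hs2⟩ := h2.exists
  have hs2' : (2 : ℝ) ≤ s := by exact_mod_cast hs2
  have hs0 : (0 : ℝ) < (s : ℝ) ^ 3 := by positivity
  refine ⟨(packingNumber ((s : ℝ) - 2) : ℝ) / (s : ℝ) ^ 3, by positivity, ?_, fun β hβ => ?_⟩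
  · rw [Real.dist_eq] at hs
    exact hs.le
  · have h3 := hg.pt β hβ s hs2 (m * packingNumber ((s : ℝ) - 2))
    have h4 := StatesAux.F_le h hτ hτ' m hβ hs2' (hb β hβ)
    have h5 := div_le_div_of_nonneg_right h4 hs0.le
    have h6 : ((m * packingNumber ((s : ℝ) - 2) : ℕ) : ℝ) / (s : ℝ) ^ 3 =
        m * ((packingNumber ((s : ℝ) - 2) : ℝ) / (s : ℝ) ^ 3) := by
      push_cast; ring
    rw [h6] at h3
    refine (h3.trans h5).trans (le_of_eq ?_)
    ring

theorem single_W (ψ : Pt → Pt → ℝ) {τ : ℝ} (hτ : 0 < τ) :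
    eE (-(-Real.log (vB (τ / 4)))) ≤ W ψ (Metric.ball 0 (τ / 4)) 1 := by
  have h : 0 < τ / 4 := by linarith
  rw [neg_neg, W_one, volume_ball _ h.le, eE_log (vB_pos h)]

/-- With `z` from `Clu.ex` and `i₀ : Fin n`: on the set `x i₀ ∈ B(0, τ / 8)`,
`x i ∈ B(x i₀ + ε • (z i - z i₀), ε ρ₀ / 4)` (`i ≠ i₀`) all points lie in `B(0, τ / 4)` and all
distances lie in the shell where `φ₀ = 0`; the volume of this set is
`vB (τ / 8) * vB (ε ρ₀ / 4) ^ (n - 1)` (`lintegral_centre` with `p i := i = i₀`). -/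
theorem Core.cluster_W {n : ℕ} {C ρ₀ : ℝ} (hc : Clu n C ρ₀) {φ₀ : ℝ → ℝ} {ε τ K : ℝ}
    (h : Core φ₀ C ρ₀ ε τ K) (hε : 0 < ε) (hτ : 0 < τ) (hετ : C * ε ≤ τ / 8) (β : ℝ) :
    eE (-(Real.log n.factorial - Real.log (vB (τ / 8)) -
        ((n : ℝ) - 1) * Real.log (vB (ε * ρ₀ / 4)))) ≤
      W (rad φ₀ β) (Metric.ball 0 (τ / 4)) n := by
  classical
  obtain ⟨z, hz⟩ := hc.ex
  have hn : 0 < n := by have := hc.two; omega
  have hρ := hc.pos
  set i₀ : Fin n := ⟨0, hn⟩ with hi₀
  have hr₁ : 0 < τ / 8 := by linarith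
  have hr₂ : 0 < ε * ρ₀ / 4 := by positivity
  let G : ({i : Fin n // i = i₀} → Pt) → ℝ≥0∞ := fun y =>
    ∏ j : {i : Fin n // i = i₀}, (Metric.ball (0 : Pt) (τ / 8)).indicator 1 (y j)
  let k : {i : Fin n // ¬i = i₀} → ({i : Fin n // i = i₀} → Pt) → Pt → ℝ≥0∞ := fun i y w =>
    (Metric.ball (0 : Pt) (ε * ρ₀ / 4)).indicator 1 (w - (y ⟨i₀, rfl⟩ + ε • (z i - z i₀)))
  have hind : ∀ r : ℝ, Measurable ((Metric.ball (0 : Pt) r).indicator (1 : Pt → ℝ≥0∞)) :=
    fun r => measurable_one.indicator Metric.isOpen_ball.measurableSet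
  have hG : Measurable G :=
    Finset.measurable_prod _ fun j _ => (hind _).comp (measurable_pi_apply j)
  have hk : ∀ i, Measurable (Function.uncurry (k i)) := fun i =>
    (hind _).comp (measurable_snd.sub (((measurable_pi_apply _).comp measurable_fst).add_const _))
  have h1 := lintegral_centre (fun i : Fin n => i = i₀) G k hG hk
  have h2 : ∀ i y, ∫⁻ w, k i y w = ENNReal.ofReal (vB (ε * ρ₀ / 4)) := by
    intro i y
    simp only [k]
    rw [lintegral_sub_right_eq_self (fun w => (Metric.ball (0 : Pt) (ε * ρ₀ / 4)).indicator 1 w),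
      lintegral_indicator_one Metric.isOpen_ball.measurableSet, volume_ball _ hr₂.le]
  have h3 : ∫⁻ y, G y = ENNReal.ofReal (vB (τ / 8)) := by
    simp only [G]
    rw [lintegral_fintype_prod (fun _ => (Metric.ball (0 : Pt) (τ / 8)).indicator 1)
      (fun _ => hind _), Finset.prod_const,
      lintegral_indicator_one Metric.isOpen_ball.measurableSet, volume_ball _ hr₁.le]
    simp
  have hcard : Fintype.card {i : Fin n // ¬i = i₀} = n - 1 := by simp
  simp only [h2, Finset.prod_const, Finset.card_univ, hcard] at h1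
  rw [lintegral_mul_const _ hG] at h1
  replace h1 := h1.trans (congrArg (· * ENNReal.ofReal (vB (ε * ρ₀ / 4)) ^ (n - 1))
    (show _ = ENNReal.ofReal (vB (τ / 8)) by convert h3; rfl))
  have h4 : ∫⁻ x : Fin n → Pt, G (fun i => x i) *
      ∏ i : {i : Fin n // ¬i = i₀}, k i (fun j => x j) (x i) ≤
      Y (rad φ₀ β) (Metric.ball 0 (τ / 4)) (Fin n) := by
    rw [Y, ← lintegral_indicator
      (MeasurableSet.univ_pi fun _ => Metric.isOpen_ball.measurableSet)]
    refine lintegral_mono fun x => ?_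
    by_cases hx : x i₀ ∈ Metric.ball (0 : Pt) (τ / 8) ∧ ∀ i : {i : Fin n // ¬i = i₀},
        x i - (x i₀ + ε • (z i - z i₀)) ∈ Metric.ball (0 : Pt) (ε * ρ₀ / 4)
    · obtain ⟨hx0, hx1⟩ := hx
      have hu : ∀ i, dist (x i) (x i₀ + ε • (z i - z i₀)) < ε * ρ₀ / 4 := by
        intro i
        by_cases hi : i = i₀
        · subst hi
          simpa using hr₂
        · have := hx1 ⟨i, hi⟩
          rwa [mem_ball_zero_iff, ← dist_eq_norm] at this
      have hd : ∀ i j, i ≠ j → ε * (1 + ρ₀ / 2) ≤ dist (x i) (x j) ∧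
          dist (x i) (x j) ≤ ε * (C - ρ₀ / 2) := by
        intro i j hij
        have e1 : dist (x i₀ + ε • (z i - z i₀)) (x i₀ + ε • (z j - z i₀)) =
            ε * dist (z i) (z j) := by
          rw [dist_add_left, dist_smul₀, dist_sub_right, Real.norm_of_nonneg hε.le]
        obtain ⟨e2, e3⟩ := hz i j hij
        have e4 := mul_le_mul_of_nonneg_left e2 hε.le
        have e5 := mul_le_mul_of_nonneg_left e3 hε.le
        have e6 := dist_triangle4 (x i₀ + ε • (z i - z i₀)) (x i) (x j) (x i₀ + ε • (z j - z i₀))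
        have e7 := dist_triangle4 (x i) (x i₀ + ε • (z i - z i₀)) (x i₀ + ε • (z j - z i₀)) (x j)
        have e8 := hu i
        have e9 := hu j
        rw [dist_comm (x i₀ + ε • (z i - z i₀)) (x i)] at e6
        rw [dist_comm (x i₀ + ε • (z j - z i₀)) (x j)] at e7
        constructor <;> nlinarith
      have hmem : x ∈ Set.pi univ (fun _ : Fin n => Metric.ball (0 : Pt) (τ / 4)) := by
        intro i _
        have e0 : dist (x i₀) 0 < τ / 8 := hx0
        show dist (x i) 0 < τ / 4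
        by_cases hi : i = i₀
        · subst hi
          linarith
        · have e1 := (hd i i₀ hi).2
          have e2 := dist_triangle (x i) (x i₀) 0
          nlinarith
      have hE : En (rad φ₀ β) x = 0 := by
        refine Finset.sum_eq_zero fun i _ => Finset.sum_eq_zero fun j _ => ?_
        split_ifs with hij
        · rfl
        · simp only [rad]
          rw [h.shell _ (hd i j hij).1 (hd i j hij).2]
          simp
      rw [indicator_of_mem hmem, hE, neg_zero, eE_zero]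
      have hle : ∀ (r : ℝ) (w : Pt), (Metric.ball (0 : Pt) r).indicator (1 : Pt → ℝ≥0∞) w ≤ 1 :=
        fun r w => indicator_apply_le' (fun _ => le_rfl) (fun _ => zero_le_one)
      exact mul_le_one' (Finset.prod_le_one' fun j _ => hle _ _)
        (Finset.prod_le_one' fun j _ => hle _ _)
    · refine le_of_eq_of_le ?_ zero_le
      rcases not_and_or.1 hx with hx | hx
      · refine mul_eq_zero_of_left (Finset.prod_eq_zero (Finset.mem_univ ⟨i₀, rfl⟩) ?_) _
        exact indicator_of_notMem hx _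
      · obtain ⟨i, hi⟩ := not_forall.1 hx
        refine mul_eq_zero_of_right _ (Finset.prod_eq_zero (Finset.mem_univ i) ?_)
        exact indicator_of_notMem hi _
  rw [h1] at h4
  have hf : (0 : ℝ) < n.factorial := by exact_mod_cast n.factorial_pos
  have h5 : eE (-(Real.log n.factorial - Real.log (vB (τ / 8)) -
        ((n : ℝ) - 1) * Real.log (vB (ε * ρ₀ / 4)))) * (n.factorial : ℝ≥0∞) =
      ENNReal.ofReal (vB (τ / 8)) * ENNReal.ofReal (vB (ε * ρ₀ / 4)) ^ (n - 1) := by
    rw [← eE_log (vB_pos hr₁), ← eE_log (vB_pos hr₂), eE_pow, ← eE_add,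
      ← ENNReal.ofReal_natCast, ← eE_log hf, ← eE_add, Nat.cast_sub hn]
    congr 1
    push_cast
    ring
  rw [W, ENNReal.le_div_iff_mul_le (Or.inl (by exact_mod_cast n.factorial_ne_zero))
    (Or.inl (ENNReal.natCast_ne_top _)), h5]
  exact h4

end Crest.Agent.R149
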