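import Crest.Agent.R149.Split
import Crest.Agent.R149.Link

/-!
# Row 149: tiling a cube by separated cubes
-/

set_option autoImplicit false
open MeasureTheory Set Filter Topology Crest.ProbabilityR.Continuum
open scoped ENNReal

namespace Crest.Agent.R149

namespace TileAux

/-- the corner of the cell with label `e` -/
noncomputable def corner (s : ℕ) {m : ℕ} (e : Fin 3 → Fin m) : Pt :=
  WithLp.toLp 2 fun k => (s : ℝ) * ((e k : ℕ) : ℝ)

/-- the cell with label `e` -/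
def cell (s : ℕ) {m : ℕ} (e : Fin 3 → Fin m) : Set Pt :=
  (fun x => x - corner s e) ⁻¹' cube ((s : ℝ) - 1)

theorem mem_cell {s m : ℕ} {e : Fin 3 → Fin m} {x : Pt} : x ∈ cell s e ↔
    ∀ k, (s : ℝ) * ((e k : ℕ) : ℝ) ≤ x k ∧ x k ≤ (s : ℝ) * ((e k : ℕ) : ℝ) + (s - 1) := by
  simp only [cell, cube, corner, mem_preimage, mem_ofPred_eq, PiLp.sub_apply]
  refine forall_congr' fun k => ?_
  constructor <;> rintro ⟨h1, h2⟩ <;> constructor <;> linarith

theorem one_le_dist {s m : ℕ} {e e' : Fin 3 → Fin m} (h : e ≠ e') {x y : Pt} (hx : x ∈ cell s e)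
    (hy : y ∈ cell s e') : 1 ≤ dist x y := by
  obtain ⟨k, hk⟩ := Function.ne_iff.1 h
  have h1 := mem_cell.1 hx k
  have h2 := mem_cell.1 hy k
  have hs : (0 : ℝ) ≤ s := Nat.cast_nonneg s
  refine le_trans ?_ (PiLp.dist_apply_le x y k)
  rw [Real.dist_eq]
  rcases lt_or_gt_of_ne (fun h => hk (Fin.ext h) : (e k : ℕ) ≠ e' k) with h3 | h3
  · have h4 : ((e k : ℕ) : ℝ) + 1 ≤ ((e' k : ℕ) : ℝ) := by exact_mod_cast h3
    have := mul_le_mul_of_nonneg_left h4 hs
    exact le_abs.2 (Or.inr (by linarith [h1.2, h2.1]))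
  · have h4 : ((e' k : ℕ) : ℝ) + 1 ≤ ((e k : ℕ) : ℝ) := by exact_mod_cast h3
    have := mul_le_mul_of_nonneg_left h4 hs
    exact le_abs.2 (Or.inl (by linarith [h1.1, h2.2]))

theorem cell_subset {s m : ℕ} {L : ℝ} (hm : (m : ℝ) * s ≤ L + 1) (e : Fin 3 → Fin m) :
    cell s e ⊆ cube L := by
  intro x hx k
  have h1 := mem_cell.1 hx k
  have hs : (0 : ℝ) ≤ s := Nat.cast_nonneg s
  have h4 : ((e k : ℕ) : ℝ) + 1 ≤ m := by exact_mod_cast (e k).2
  have := mul_le_mul_of_nonneg_left h4 hs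
  have h5 : (0 : ℝ) ≤ s * ((e k : ℕ) : ℝ) := by positivity
  constructor <;> linarith [h1.1, h1.2]

end TileAux

open TileAux

/-- Embed `κ` into `Fin 3 → Fin m`; the cube of `q` is `s • q + [0, s - 1] ^ 3`.  These cubes lie
in `[0, m s - 1] ^ 3 ⊆ cube L`, and two of them are at distance at least `1` (some coordinate
differs by at least `1`), so they are disjoint and `φ ≤ 0` across.  Use `prod_W_le`,
`W_le_of_translate`, `W_mono_set`, `W_cube`. -/
theorem F_tile {φ : ℝ → ℝ} (hφ : Good φ) {β L : ℝ} (hβ : 0 < β) (hL : 0 < L) {s m : ℕ}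
    (hs : 2 ≤ s) (hm : (m : ℝ) * s ≤ L + 1) {κ : Type} [Fintype κ] (hκ : Fintype.card κ ≤ m ^ 3)
    (n : κ → ℕ) : F φ β L (∑ q, n q) ≤ ∑ q, F φ β ((s : ℝ) - 1) (n q) := by
  classical
  have hc : Fintype.card κ ≤ Fintype.card (Fin 3 → Fin m) := by simpa using hκ
  obtain ⟨e⟩ := Function.Embedding.nonempty_of_card_le hc
  have hs1 : (0 : ℝ) < (s : ℝ) - 1 := by
    have : (2 : ℝ) ≤ s := by exact_mod_cast hs
    linarith
  have h1 := prod_W_le (measurable_rad hφ.meas β) Finset.univ (fun q => cell s (e q)) n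
    (fun q => (measurableSet_cube _).preimage (measurable_sub_const _))
    (fun q _ q' _ h => Set.disjoint_left.2 fun x hx hx' => by
      have := one_le_dist (e.injective.ne h) hx hx'
      rw [dist_self] at this; linarith)
    (fun q _ q' _ h x hx y hy => by
      have := hφ.nonpos _ (one_le_dist (e.injective.ne h) hx hy)
      unfold rad
      nlinarith)
  have h2 : W (rad φ β) (⋃ q ∈ (Finset.univ : Finset κ), cell s (e q)) (∑ q, n q)
      ≤ W (rad φ β) (cube L) (∑ q, n q) :=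
    W_mono_set _ (iUnion₂_subset fun q _ => cell_subset hm (e q)) _
  have h3 : ∏ q, W (rad φ β) (cube ((s : ℝ) - 1)) (n q) ≤ ∏ q, W (rad φ β) (cell s (e q)) (n q) :=
    Finset.prod_le_prod' fun q _ => W_le_of_translate φ β (corner s (e q))
      (fun x hx => by simpa [cell] using hx) _
  have h4 := h3.trans (h1.trans h2)
  simp only [W_cube hφ.toStab hβ hs1, W_cube hφ.toStab hβ hL] at h4
  rw [← eE_sum, eE_le_iff, Finset.sum_neg_distrib] at h4
  linarith

/-- the same cell repeated (`κ = Fin (m ^ 3)`) -/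
theorem F_tile_const {φ : ℝ → ℝ} (hφ : Good φ) {β : ℝ} (hβ : 0 < β) {s m : ℕ} (hs : 2 ≤ s)
    (hm : 1 ≤ m) (N : ℕ) :
    F φ β (((s * m : ℕ) : ℝ) - 1) (N * m ^ 3) ≤ (m : ℝ) ^ 3 * F φ β ((s : ℝ) - 1) N := by
  have h1 : (2 : ℝ) ≤ s := by exact_mod_cast hs
  have h2 : (1 : ℝ) ≤ m := by exact_mod_cast hm
  have := F_tile hφ hβ (L := ((s * m : ℕ) : ℝ) - 1) (by push_cast; nlinarith) hs (m := m)
    (by push_cast; linarith) (κ := Fin (m ^ 3)) (by simp) (fun _ => N)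
  simpa [mul_comm] using this

/-- `a` cells with `N₁`, `b` cells with `N₂` and one cell with `k` particles
(`κ = Fin a ⊕ Fin b ⊕ Unit`) -/
theorem F_tile_three {φ : ℝ → ℝ} (hφ : Good φ) {β L : ℝ} (hβ : 0 < β) (hL : 0 < L) {s m : ℕ}
    (hs : 2 ≤ s) (hm : (m : ℝ) * s ≤ L + 1) {a b : ℕ} (hab : a + b + 1 ≤ m ^ 3) (N₁ N₂ k : ℕ) :
    F φ β L (a * N₁ + b * N₂ + k) ≤
      a * F φ β ((s : ℝ) - 1) N₁ + b * F φ β ((s : ℝ) - 1) N₂ + F φ β ((s : ℝ) - 1) k := by
  have := F_tile hφ hβ hL hs hm (κ := Fin a ⊕ Fin b ⊕ Unit) (by simp; omega)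
    (Sum.elim (fun _ => N₁) (Sum.elim (fun _ => N₂) fun _ => k))
  simpa [Fintype.sum_sum_type, add_assoc] using this

end Crest.Agent.R149
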